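import Vale.Agent.P259B.Defs

/-!
# P259B, Ball: extension lemmas for maps out of balls.

`NC Y`: `Y` is nonempty and every map from a compact space is null-homotopic.

Plan.
* `NC.extend_radial` (the general cone lemma): `B` compact in a normed space, inside the unit ball
  around `c`, closed under radial projection. Restrict `f` to the compact set `A = B ∩ sphere c 1`,
  take a null-homotopy `H` to `y`, and put `F x = y` if `‖x - c‖ ≤ 1/2`, and
  `F x = H (2 - 2‖x - c‖, c + ‖x - c‖⁻¹ • (x - c))` otherwise (`ContinuousOn.if`, or a closed cover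
  by two closed sets; use `Set.projIcc` for the time parameter).
* `NC.extend_sph` is the case `B = closedBall 0 1`; `NC.extend_cyl` the case of
  `closedBall 0 1 ×ˢ Icc (-1) 1` in the product (sup norm), with `s ↦ 2 s - 1`; its boundary is covered
  by the three closed pieces.
* `hep0`: let `g` on the ball of radius 2 be `f z` for `‖z‖ ≤ 1` and `h (z/‖z‖, ‖z‖ - 1)` for `‖z‖ ≥ 1`;
  `F (x, s) = g ((1 + s) x)`. `hep1` by the symmetry `unitInterval.symm`.
* `NC.dominated`: compose; `nc_of_contractible`: `ContractibleSpace` gives `id` null-homotopic.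
-/

namespace Vale.Agent.P259B

open unitInterval Metric

/-- The boundary sphere of the disc. -/
abbrev Sph (n : ℕ) : Type := {x : Disc n // ‖x.1‖ = 1}

/-- Null-homotopic on compact spaces. -/
def NC (Y : Type) [TopologicalSpace Y] : Prop :=
  Nonempty Y ∧ ∀ (K : Type) [TopologicalSpace K] [CompactSpace K] (f : C(K, Y)), f.Nullhomotopic

variable {Y Z : Type} [TopologicalSpace Y] [TopologicalSpace Z]

theorem nc_of_contractible [ContractibleSpace Y] : NC Y := by
  sorry

theorem NC.dominated (hZ : NC Z) (hY : Nonempty Y) (r : C(Y, Z)) (i : C(Z, Y))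
    (h : (ContinuousMap.id Y).Homotopic (i.comp r)) : NC Y := by
  sorry

theorem NC.retract (hZ : NC Z) (s : C(Y, Z)) (r : C(Z, Y)) (h : ∀ y, r (s y) = y) : NC Y := by
  sorry

theorem nc_disc (n : ℕ) : NC (Disc n) := by
  sorry

theorem NC.extend_radial (hY : NC Y) {E : Type} [NormedAddCommGroup E] [NormedSpace ℝ E]
    {B : Set E} (hB : IsCompact B) (c : E) (hsub : B ⊆ closedBall c 1)
    (hrad : ∀ x ∈ B, x ≠ c → c + ‖x - c‖⁻¹ • (x - c) ∈ B) (f : E → Y)
    (hf : ContinuousOn f (B ∩ sphere c 1)) :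
    ∃ F : E → Y, ContinuousOn F B ∧ Set.EqOn F f (B ∩ sphere c 1) := by
  sorry

theorem NC.extend_sph (hY : NC Y) {n : ℕ} (g : C(Sph n, Y)) :
    ∃ F : C(Disc n, Y), ∀ x : Sph n, F x.1 = g x := by
  sorry

theorem NC.extend_cyl (hY : NC Y) {n : ℕ} (f0 f1 : C(Disc n, Y)) (h : C(Sph n × I, Y))
    (h0 : ∀ x, h (x, 0) = f0 x.1) (h1 : ∀ x, h (x, 1) = f1 x.1) :
    ∃ F : C(Disc n × I, Y), (∀ x, F (x, 0) = f0 x) ∧ (∀ x, F (x, 1) = f1 x) ∧
      ∀ (x : Sph n) s, F (x.1, s) = h (x, s) := by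
  sorry

theorem hep0 {n : ℕ} (f : C(Disc n, Y)) (h : C(Sph n × I, Y)) (h0 : ∀ x, h (x, 0) = f x.1) :
    ∃ F : C(Disc n × I, Y), (∀ x, F (x, 0) = f x) ∧ ∀ (x : Sph n) s, F (x.1, s) = h (x, s) := by
  sorry

theorem hep1 {n : ℕ} (f : C(Disc n, Y)) (h : C(Sph n × I, Y)) (h1 : ∀ x, h (x, 1) = f x.1) :
    ∃ F : C(Disc n × I, Y), (∀ x, F (x, 1) = f x) ∧ ∀ (x : Sph n) s, F (x.1, s) = h (x, s) := by
  sorry

end Vale.Agent.P259B
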