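import Vale.Agent.P259B.Theta

/-!
# P259, Cells: cells of models, Yoneda, trivial fibrations, fibrations, cofibrations.

Plan. Everything is elementary. `val_ext`, `val_glue` are `dens_ext`, `dens_desc` for the functor
`C.ι ⋙ yoF` and the Yoneda lemma (`yel`). `snoc_glue`, `snoc_ext` are the pullback property
`X.property` in `Type` (`IsPullback` in types: `Types.isPullback_iff`, or `IsPullback.lift` from
`PUnit`). `TF.fill`, `Conn.fill`: cases on `n`; `TF.of_fill` uses `exists_bd`.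
`TF.jf`: lift the target with the boundary of the given source (`TF.fill`), then the cell.
`cofib_yo`: `Table.ind`; `ymap (gface h false)` is a cofibration (`cof_gface`: given `TF p`, a
`j`-cell `a` upstairs and an `i`-cell `c` downstairs with `fc h false c = ap p a`, lift `c` by
induction on `i` using `TF.jf`), and `Cof` is stable under pushout and composition
(`MorphismProperty.llp` instances; `Cofib` is elementwise).
-/

namespace Vale.Agent.P259B

open CategoryTheory Limits Opposite GlobExt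

/-- Every parallel pair has a lift. -/
class Contr (C : GlobExt) : Prop where
  lift : ∀ a : C.Pair, ∃ h, C.IsLift a.f a.g h

variable {C : GlobExt}

/-- The value of a model on a table. -/
abbrev val (X : Mod C) (S : Table) : Type := X.obj.obj (op ⟨S⟩)

/-- Action of a morphism of `C`. -/
def act {X : Mod C} {S T : Table} (f : (⟨S⟩ : C.Obj) ⟶ ⟨T⟩) (x : val X T) : val X S :=
  X.obj.map f.op x

/-- Action of a morphism of `Θ₀`. -/
def res {X : Mod C} {S T : Table} (θ : S ⟶ T) (x : val X T) : val X S := act (C.map θ) x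

/-- Iterated faces of a cell. -/
noncomputable def fc {X : Mod C} {m n : ℕ} (h : m < n) (b : Bool) (c : cell X n) : cell X m :=
  res (gface h b) c

section basic
variable {X Y Z : Mod C}

theorem act_id {S : Table} (x : val X S) : act (𝟙 (⟨S⟩ : C.Obj)) x = x := by
  simp [act]

theorem act_comp {S T U : Table} (f : (⟨S⟩ : C.Obj) ⟶ ⟨T⟩) (g : (⟨T⟩ : C.Obj) ⟶ ⟨U⟩)
    (x : val X U) : act (f ≫ g) x = act f (act g x) := by
  simp [act]

theorem res_id {S : Table} (x : val X S) : res (𝟙 S) x = x := by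
  rw [res, C.map_id, act_id]

theorem res_comp {S T U : Table} (f : S ⟶ T) (g : T ⟶ U) (x : val X U) :
    res (f ≫ g) x = res f (res g x) := by
  rw [res, C.map_comp, act_comp]; rfl

theorem res_act {S T U : Table} (f : S ⟶ T) (g : (⟨T⟩ : C.Obj) ⟶ ⟨U⟩) (x : val X U) :
    res f (act g x) = act (C.map f ≫ g) x := by
  rw [act_comp]; rfl

theorem ap_act (p : X ⟶ Y) {S T : Table} (f : (⟨S⟩ : C.Obj) ⟶ ⟨T⟩) (x : val X T) :
    ap p (act f x) = act f (ap p x) := ap_map p f x

theorem ap_res (p : X ⟶ Y) {S T : Table} (f : S ⟶ T) (x : val X T) :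
    ap p (res f x) = res f (ap p x) := ap_map p _ x

theorem ap_fc (p : X ⟶ Y) {m n : ℕ} (h : m < n) (b : Bool) (c : cell X n) :
    ap p (fc h b c) = fc h b (ap p c) := ap_map p _ c

theorem ap_src (p : X ⟶ Y) {n : ℕ} (c : cell X (n + 1)) : ap p (src c) = src (ap p c) :=
  ap_map p _ c

theorem ap_tgt (p : X ⟶ Y) {n : ℕ} (c : cell X (n + 1)) : ap p (tgt c) = tgt (ap p c) :=
  ap_map p _ c

theorem ap_id {S : C.Obj} (x : X.obj.obj (op S)) : ap (𝟙 X) x = x := rfl

theorem ap_comp (p : X ⟶ Y) (q : Y ⟶ Z) {S : C.Obj} (x : X.obj.obj (op S)) :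
    ap (p ≫ q) x = ap q (ap p x) := rfl

theorem src_eq {n : ℕ} (c : cell X (n + 1)) : src c = fc (Nat.lt_succ_self n) false c := rfl

theorem tgt_eq {n : ℕ} (c : cell X (n + 1)) : tgt c = fc (Nat.lt_succ_self n) true c := rfl

theorem fc_res {m n : ℕ} (h : m < n) (b : Bool) {S : Table} (g : disc n ⟶ S) (x : val X S) :
    fc h b (res g x) = res (gface h b ≫ g) x := (res_comp _ _ _).symm

theorem fc_fc {l m n : ℕ} (h : l < m) (h' : m < n) (b b' : Bool) (c : cell X n) :
    fc h b (fc h' b' c) = fc (h.trans h') b c := by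
  rw [fc, fc, ← res_comp, gface_comp]; rfl

theorem fc_src {m n : ℕ} (h : m < n) (b : Bool) (c : cell X (n + 1)) :
    fc h b (src c) = fc (h.trans (Nat.lt_succ_self n)) b c := fc_fc _ _ _ _ _

theorem fc_tgt {m n : ℕ} (h : m < n) (b : Bool) (c : cell X (n + 1)) :
    fc h b (tgt c) = fc (h.trans (Nat.lt_succ_self n)) b c := fc_fc _ _ _ _ _

theorem hom_ext_val {p q : X ⟶ Y} (h : ∀ (S : Table) (x : val X S), ap p x = ap q x) : p = q := by
  sorry

/-- Parallel cells. -/
def Par {n : ℕ} (a b : cell X n) : Prop := ∀ m (h : m < n) e, fc h e a = fc h e b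

theorem par_zero (a b : cell X 0) : Par a b := fun _ h => absurd h (Nat.not_lt_zero _)

theorem par_succ_iff {n : ℕ} {a b : cell X (n + 1)} :
    Par a b ↔ src a = src b ∧ tgt a = tgt b := by
  sorry

theorem Par.refl {n : ℕ} (a : cell X n) : Par a a := fun _ _ _ => rfl

theorem Par.symm {n : ℕ} {a b : cell X n} (h : Par a b) : Par b a :=
  fun m hm e => (h m hm e).symm

theorem Par.trans {n : ℕ} {a b c : cell X n} (h : Par a b) (h' : Par b c) : Par a c :=
  fun m hm e => (h m hm e).trans (h' m hm e)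

theorem Par.ap {n : ℕ} {a b : cell X n} (h : Par a b) (p : X ⟶ Y) : Par (ap p a) (ap p b) :=
  fun m hm e => by rw [← ap_fc, ← ap_fc, h m hm e]

theorem par_src_tgt {n : ℕ} (c : cell X (n + 1)) : Par (src c) (tgt c) :=
  fun m hm e => by rw [fc_src, fc_tgt]

theorem Hot.par {n : ℕ} {a b : cell X n} (h : Hot a b) : Par a b := by
  obtain ⟨c, rfl, rfl⟩ := h
  exact par_src_tgt c

/-- A compatible family of cells in all dimensions `< n`: the boundary of an `n`-cell. -/
def IsBd {n : ℕ} (β : ∀ j, j < n → Bool → cell X j) : Prop :=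
  ∀ j hj b m (h : m < j) e, fc h e (β j hj b) = β m (h.trans hj) e

theorem exists_isBd {k : ℕ} {a a' : cell X k} (h : Par a a') :
    ∃ β : ∀ j, j < k + 1 → Bool → cell X j, IsBd β ∧
      β k (Nat.lt_succ_self k) false = a ∧ β k (Nat.lt_succ_self k) true = a' :=
  exists_bd (P := cell X) (fun h b x => fc h b x) (fun h h' b b' x => fc_fc h h' b b' x) a a' h

/-- An `(k+1)`-cell with the right source and target has the right boundary family. -/
theorem IsBd.fc_eq {k : ℕ} {β : ∀ j, j < k + 1 → Bool → cell X j} (hβ : IsBd β)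
    {c : cell X (k + 1)} (hs : src c = β k (Nat.lt_succ_self k) false)
    (ht : tgt c = β k (Nat.lt_succ_self k) true) : ∀ j hj b, fc hj b c = β j hj b := by
  sorry

theorem snoc_glue {T : Table} {j i : ℕ} (hl : j < T.last) (hi : j < i) (x : val X T)
    (y : cell X i) (h : res (gface hl true ≫ T.lastι) x = fc hi false y) :
    ∃ z : val X (T.snoc j i hl hi), res (T.inl j i hl hi) z = x ∧
      res (T.snoc j i hl hi).lastι z = y := by
  sorry

theorem snoc_ext {T : Table} {j i : ℕ} {hl : j < T.last} {hi : j < i}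
    {z z' : val X (T.snoc j i hl hi)} (h : res (T.inl j i hl hi) z = res (T.inl j i hl hi) z')
    (h' : res (T.snoc j i hl hi).lastι z = res (T.snoc j i hl hi).lastι z') : z = z' := by
  sorry

end basic

/-! ## Yoneda -/

theorem isModel_yoneda (S : C.Obj) : IsModel C (yoneda.obj S) :=
  isModel_hom (𝟭 C.Obj) C.sums S

/-- The Yoneda embedding into models. -/
def yoF (C : GlobExt) : C.Obj ⥤ Mod C := (IsModel C).lift yoneda isModel_yoneda

/-- The free model on a table. -/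
abbrev yo (C : GlobExt) (S : Table) : Mod C := (yoF C).obj ⟨S⟩

/-- The map of free models given by a morphism of `Θ₀`. -/
abbrev ymap (C : GlobExt) {S T : Table} (θ : S ⟶ T) : yo C S ⟶ yo C T := (yoF C).map (C.map θ)

/-- A morphism of `C` as an element of a free model. -/
def yv {S T : Table} (f : (⟨T⟩ : C.Obj) ⟶ ⟨S⟩) : val (yo C S) T := f

/-- The generic element. -/
def gen (C : GlobExt) (S : Table) : val (yo C S) S := yv (𝟙 _)

/-- The map out of a free model classified by an element. -/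
def yel {X : Mod C} {S : Table} (x : val X S) : yo C S ⟶ X :=
  ObjectProperty.homMk (yonedaEquiv.symm x)

section yoneda
variable {X Y : Mod C} {S T U : Table}

theorem yv_surj (x : val (yo C S) T) : ∃ f, x = yv f := ⟨x, rfl⟩

theorem act_yv (f : (⟨T⟩ : C.Obj) ⟶ ⟨S⟩) (g : (⟨U⟩ : C.Obj) ⟶ ⟨T⟩) :
    act g (yv f) = yv (g ≫ f) := rfl

theorem ap_yoF (f : (⟨T⟩ : C.Obj) ⟶ ⟨S⟩) (g : (⟨S⟩ : C.Obj) ⟶ ⟨U⟩) :
    ap ((yoF C).map g) (yv f) = yv (f ≫ g) := rfl

theorem ap_yel (x : val X S) (f : (⟨T⟩ : C.Obj) ⟶ ⟨S⟩) : ap (yel x) (yv f) = act f x := rfl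

theorem ap_yel_gen (x : val X S) : ap (yel x) (gen C S) = x := act_id x

theorem yo_hom_ext {p q : yo C S ⟶ X} (h : ap p (gen C S) = ap q (gen C S)) : p = q := by
  sorry

theorem yel_ap_gen (p : yo C S ⟶ X) : yel (ap p (gen C S)) = p :=
  yo_hom_ext (ap_yel_gen _)

theorem yel_comp (x : val X S) (p : X ⟶ Y) : yel x ≫ p = yel (ap p x) :=
  yo_hom_ext (by rw [ap_comp, ap_yel_gen, ap_yel_gen])

theorem yoF_yel (f : (⟨T⟩ : C.Obj) ⟶ ⟨S⟩) (x : val X S) :
    (yoF C).map f ≫ yel x = yel (act f x) := by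
  sorry

theorem ymap_yel (θ : T ⟶ S) (x : val X S) : ymap C θ ≫ yel x = yel (res θ x) := yoF_yel _ x

theorem yel_gen : yel (gen C S) = 𝟙 (yo C S) := yo_hom_ext (ap_yel_gen _)

theorem yel_res_gen (θ : T ⟶ S) : yel (res θ (gen C S)) = ymap C θ := by
  rw [← ymap_yel, yel_gen, Category.comp_id]

theorem yel_injective {x y : val X S} (h : yel x = yel y) : x = y := by
  rw [← ap_yel_gen x, h, ap_yel_gen]

theorem sums_yo (C : GlobExt) : PreservesSums (C.ι ⋙ yoF C) := by
  sorry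

theorem val_ext {x y : val X S} (h : ∀ j (c : disc j ⟶ S), res c x = res c y) : x = y := by
  sorry

theorem val_glue (y : ∀ j, (disc j ⟶ S) → cell X j)
    (hy : ∀ j c m (h : m < j) b, fc h b (y j c) = y m (gface h b ≫ c)) :
    ∃ x : val X S, ∀ j c, res c x = y j c := by
  sorry

/-- Maps of models are determined on cells. -/
theorem hom_ext_cell {p q : X ⟶ Y} (h : ∀ n (x : cell X n), ap p x = ap q x) : p = q := by
  sorry

end yoneda

/-! ## Classes of maps -/

/-- Trivial fibrations. -/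
def TF (C : GlobExt) : MorphismProperty (Mod C) := fun X Y p =>
  (∀ y : cell Y 0, ∃ x : cell X 0, ap p x = y) ∧
  ∀ n (a b : cell X n), Par a b → ∀ c : cell Y (n + 1), src c = ap p a → tgt c = ap p b →
    ∃ c' : cell X (n + 1), src c' = a ∧ tgt c' = b ∧ ap p c' = c

/-- Fibrations in dimensions `≥ n`. -/
def JF (C : GlobExt) (n : ℕ) : MorphismProperty (Mod C) := fun X Y p =>
  ∀ m, n ≤ m → ∀ (a : cell X m) (c : cell Y (m + 1)), src c = ap p a →
    ∃ c' : cell X (m + 1), src c' = a ∧ ap p c' = c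

/-- Cofibrations. -/
abbrev Cof (C : GlobExt) : MorphismProperty (Mod C) := (TF C).llp

/-- Expansions in dimensions `≥ n`. -/
abbrev JCof (C : GlobExt) (n : ℕ) : MorphismProperty (Mod C) := (JF C n).llp

/-- Cofibrant models. -/
def Cofib (X : Mod C) : Prop :=
  ∀ ⦃A B : Mod C⦄ (p : A ⟶ B), TF C p → ∀ f : X ⟶ B, ∃ g : X ⟶ A, g ≫ p = f

/-- Parallel cells of dimension `< d` are connected. -/
def ConnLt (d : ℕ) (X : Mod C) : Prop :=
  Nonempty (cell X 0) ∧ ∀ k, k < d → ∀ a b : cell X k, Par a b → Hot a b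

/-- Contractible models. -/
def Conn (X : Mod C) : Prop := Nonempty (cell X 0) ∧ ∀ k (a b : cell X k), Par a b → Hot a b

/-- The lifting criterion for weak equivalences. -/
def WE (C : GlobExt) : MorphismProperty (Mod C) := fun X Y p =>
  (∀ y : cell Y 0, ∃ x : cell X 0, Hot (ap p x) y) ∧
  ∀ n (a b : cell X n), Par a b → ∀ c : cell Y (n + 1), src c = ap p a → tgt c = ap p b →
    ∃ c' : cell X (n + 1), src c' = a ∧ tgt c' = b ∧ Hot (ap p c') c

section classes
variable {X Y Z : Mod C}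

theorem conn_iff : Conn X ↔ ∀ d, ConnLt d X :=
  ⟨fun h _ => ⟨h.1, fun k _ => h.2 k⟩,
    fun h => ⟨(h 0).1, fun k => (h (k + 1)).2 k (Nat.lt_succ_self k)⟩⟩

theorem ConnLt.retract {d : ℕ} (h : ConnLt d Y) (s : X ⟶ Y) (r : Y ⟶ X) (hsr : s ≫ r = 𝟙 X) :
    ConnLt d X := by
  sorry

theorem Conn.retract (h : Conn Y) (s : X ⟶ Y) (r : Y ⟶ X) (hsr : s ≫ r = 𝟙 X) : Conn X :=
  conn_iff.2 fun d => (conn_iff.1 h d).retract s r hsr

theorem Conn.of_iso (h : Conn X) (e : X ≅ Y) : Conn Y := h.retract e.inv e.hom e.inv_hom_id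

theorem Conn.fill (h : Conn X) {n : ℕ} {β : ∀ j, j < n → Bool → cell X j} (hβ : IsBd β) :
    ∃ x : cell X n, ∀ j hj b, fc hj b x = β j hj b := by
  sorry

theorem ConnLt.fill {d : ℕ} (h : ConnLt d X) {n : ℕ} (hn : n ≤ d)
    {β : ∀ j, j < n → Bool → cell X j} (hβ : IsBd β) :
    ∃ x : cell X n, ∀ j hj b, fc hj b x = β j hj b := by
  sorry

theorem conn_yo [Contr C] (S : Table) : Conn (yo C S) := by
  sorry

theorem TF.fill {p : X ⟶ Y} (hp : TF C p) {n : ℕ} {β : ∀ j, j < n → Bool → cell X j}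
    (hβ : IsBd β) (c : cell Y n) (hc : ∀ j hj b, fc hj b c = ap p (β j hj b)) :
    ∃ x : cell X n, (∀ j hj b, fc hj b x = β j hj b) ∧ ap p x = c := by
  sorry

theorem TF.of_fill {p : X ⟶ Y}
    (h : ∀ n (β : ∀ j, j < n → Bool → cell X j), IsBd β → ∀ c : cell Y n,
      (∀ j hj b, fc hj b c = ap p (β j hj b)) →
      ∃ x : cell X n, (∀ j hj b, fc hj b x = β j hj b) ∧ ap p x = c) : TF C p := by
  sorry

theorem WE.of_fill {p : X ⟶ Y}
    (h : ∀ n (β : ∀ j, j < n → Bool → cell X j), IsBd β → ∀ c : cell Y n,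
      (∀ j hj b, fc hj b c = ap p (β j hj b)) →
      ∃ x : cell X n, (∀ j hj b, fc hj b x = β j hj b) ∧ Hot (ap p x) c) : WE C p := by
  sorry

theorem TF.surj_cell {p : X ⟶ Y} (hp : TF C p) : ∀ n (c : cell Y n), ∃ x, ap p x = c := by
  sorry

theorem TF.jf {p : X ⟶ Y} (hp : TF C p) (n : ℕ) : JF C n p := by
  sorry

theorem TF.of_isIso (p : X ⟶ Y) [IsIso p] : TF C p := by
  sorry

theorem TF.comp {p : X ⟶ Y} {q : Y ⟶ Z} (hp : TF C p) (hq : TF C q) : TF C (p ≫ q) := by
  sorry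

theorem TF.conn {p : X ⟶ Y} (hp : TF C p) (h : Conn Y) : Conn X := by
  sorry

theorem JF.mono {n n' : ℕ} (h : n ≤ n') {p : X ⟶ Y} (hp : JF C n p) : JF C n' p :=
  fun m hm => hp m (h.trans hm)

theorem JCof.cof {n : ℕ} {i : X ⟶ Y} (hi : JCof C n i) : Cof C i :=
  fun _ _ p hp => hi p (hp.jf n)

theorem Cof.lift {i : X ⟶ Y} (hi : Cof C i) {A B : Mod C} {p : A ⟶ B} (hp : TF C p)
    (f : X ⟶ A) (g : Y ⟶ B) (w : f ≫ p = i ≫ g) : ∃ l : Y ⟶ A, i ≫ l = f ∧ l ≫ p = g := by
  sorry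

theorem Cof.of_lift {i : X ⟶ Y} (h : ∀ ⦃A B : Mod C⦄ (p : A ⟶ B), TF C p →
    ∀ (f : X ⟶ A) (g : Y ⟶ B), f ≫ p = i ≫ g → ∃ l : Y ⟶ A, i ≫ l = f ∧ l ≫ p = g) :
    Cof C i := by
  sorry

theorem JCof.lift {n : ℕ} {i : X ⟶ Y} (hi : JCof C n i) {A B : Mod C} {p : A ⟶ B}
    (hp : JF C n p) (f : X ⟶ A) (g : Y ⟶ B) (w : f ≫ p = i ≫ g) :
    ∃ l : Y ⟶ A, i ≫ l = f ∧ l ≫ p = g := by
  sorry

theorem JCof.of_lift {n : ℕ} {i : X ⟶ Y} (h : ∀ ⦃A B : Mod C⦄ (p : A ⟶ B), JF C n p →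
    ∀ (f : X ⟶ A) (g : Y ⟶ B), f ≫ p = i ≫ g → ∃ l : Y ⟶ A, i ≫ l = f ∧ l ≫ p = g) :
    JCof C n i := by
  sorry

theorem Cofib.of_cof (hX : Cofib X) {i : X ⟶ Y} (hi : Cof C i) : Cofib Y := by
  sorry

theorem Cofib.of_iso (hX : Cofib X) (e : X ≅ Y) : Cofib Y := by
  sorry

theorem cofib_of_isInitial (hX : IsInitial X) : Cofib X := by
  sorry

theorem Cofib.cof (hX : IsInitial X) (hY : Cofib Y) (i : X ⟶ Y) : Cof C i := by
  sorry

theorem cof_gface {j i : ℕ} (h : j < i) : Cof C (ymap C (gface h false)) := by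
  sorry

theorem cofib_yo (S : Table) : Cofib (yo C S) := by
  sorry

end classes

end Vale.Agent.P259B
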