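import Vale.Agent.P259B.Cells

/-!
# P259, Colim: models are cocomplete; the two factorizations.

Plan.
* For each gluing datum `(T, j, i, hl, hi)` let `w` be the comparison map of presheaves on `C.Obj`
  from `pushout (yoneda.map (C.map (gface hl true ≫ T.lastι))) (yoneda.map (C.map (gface hi false)))`
  to `yoneda.obj ⟨T.snoc j i hl hi⟩`, and `Wl := MorphismProperty.ofHoms w`. Then
  `IsModel C = Wl.isLocal` (Yoneda, `snoc_glue`-like elementwise description of pullbacks of types).
  `MorphismProperty.isLocallyPresentable_isLocal` with `κ = ℵ₀` (representables are finitely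
  presentable, see `Mathlib/CategoryTheory/Presentable/Presheaf.lean` for `uliftYoneda` and copy the
  proof for `yoneda`; finite colimits of presentable objects are presentable,
  `Mathlib/CategoryTheory/Presentable/Limits.lean`). Transport along the equality of properties.
* In a locally presentable category every small family `I` of maps admits the small object
  argument: every object is presentable (`IsAccessibleCategory` instance); choose a regular `κ`
  above the presentability ranks of the domains (`isCardinalPresentable_of_le`,
  `HasCardinalFilteredGenerator.exists_...`, or directly: the domains used here are finitely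
  presentable since the inclusion into presheaves preserves filtered colimits,
  `MorphismProperty.isCardinalAccessible_ι_isLocal`), then
  `IsCardinalForSmallObjectArgument`, see `AnodyneExtensions/Basic.lean` for a model.
* `JF C 0 = (ofHoms fun m => ymap C (gface (lt_succ m) false)).rlp` by Yoneda.
* Spheres: `sph 0 = ⊥_ _`, `sph (n+1) = pushout (i n) (i n)`, `i (n+1) = pushout.desc σ τ`
  (recursion on pairs `(sph n, i n : sph n ⟶ yo C (disc n))`, with the invariant
  `i n ≫ yel a = i n ≫ yel b ↔ Par a b`), and `TF C = (ofHoms i).rlp`.
-/

namespace Vale.Agent.P259B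

open CategoryTheory Limits Opposite GlobExt

variable {C : GlobExt}

instance locPres (C : GlobExt) : IsLocallyPresentable.{0} (Mod C) := by
  sorry

instance hasColimits_mod (C : GlobExt) : HasColimitsOfSize.{0, 0} (Mod C) := by
  sorry

/-- Limits of models are computed in presheaves. -/
instance hasLimits_mod (C : GlobExt) : HasLimitsOfSize.{0, 0} (Mod C) := by
  sorry

theorem fac_cof_tf {X Y : Mod C} (f : X ⟶ Y) :
    ∃ (Z : Mod C) (i : X ⟶ Z) (p : Z ⟶ Y), Cof C i ∧ TF C p ∧ i ≫ p = f := by
  sorry

theorem fac_jcof_jf {X Y : Mod C} (f : X ⟶ Y) :
    ∃ (Z : Mod C) (i : X ⟶ Z) (p : Z ⟶ Y), JCof C 0 i ∧ JF C 0 p ∧ i ≫ p = f := by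
  sorry

end Vale.Agent.P259B
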