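import Vale.Agent.P259B.Mil

/-!
# P259B, Cone: evaluation, and null-homotopies when the category of elements has a terminal object.

Plan.
* `exists_ev`: for `p` choose an active `i`, `ob i = some ⟨a, x⟩`, `dd i = some ⟨a, d⟩` and put
  `ev p = ε ⟨a, x⟩ d`; independence of `i` by `rel`, `dd_ar`, `hε` (compare `i ≤ j` or `j ≤ i`).
  Continuity at `p`: near `p` the label `ob i` is constant and `dd i` is continuous (`PCont.local`);
  the map `Tot Φ → Y`, `⟨b, d⟩ ↦ if h : b = a then ε ⟨a, x⟩ (h ▸ d) else y0` is continuous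
  (`continuous_sigma`).
* `exists_trunc`: cover `K` by the open sets `t i > 1/(m+1)`, take a finite subcover, let `I0` be the
  finite set of indices and `ε` the least constant; `s k i = max (t k i - ε) 0` for `i ∈ I0`, else `0`.
* `nc_milD`: nonempty: weight `1` at index `0` with `⟨a0, x0⟩`. For `c : K → MilD ξ Φ` reweight along
  `(1 - r) t + r s` (`MilD.rw`), then add the top vertex at an index `N` above `I0`: the point with
  weights `(1 - r) s + r δ_N`, `ob N = ⟨a0, x0⟩`, `ar i N = Arrow.mk (f x)` (`f x` the unique arrow with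
  `ξ.map (f x).op x0 = x`), `dd N = ⟨a0, ev p⟩` with `ε ⟨a, x⟩ = Φ.map (f x)`. At `r = 1` the map factors
  through the continuous map `Φ.obj a0 → MilD ξ Φ`, and `ev ∘ c` is null-homotopic.
* `nc_mil`: `Mil ξ` is a retract of `MilD ξ ((Functor.const A).obj (TopCat.of PUnit))`.
-/

namespace Vale.Agent.P259B

open CategoryTheory Opposite Topology Filter

variable {A : Type} [SmallCategory A] {ξ : Aᵒᵖ ⥤ Type} {Φ : A ⥤ TopCat.{0}}

theorem exists_ev {Y : Type} [TopologicalSpace Y] (ε : ∀ e : El ξ, C(Φ.obj e.1, Y))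
    (hε : ∀ (a b : A) (f : a ⟶ b) (y : ξ.obj (op b)) (d : Φ.obj a),
      ε ⟨a, ξ.map f.op y⟩ d = ε ⟨b, y⟩ (Φ.map f d)) :
    ∃ ev : C(MilD ξ Φ, Y), ∀ (p : MilD ξ Φ) i a x d, p.q.ob i = some ⟨a, x⟩ →
      p.dd i = some ⟨a, d⟩ → ev p = ε ⟨a, x⟩ d := by
  sorry

theorem exists_trunc {K : Type} [TopologicalSpace K] [CompactSpace K] (t : C(K, ℤ → ℝ))
    (hne : ∀ k, ∃ i, 0 < t k i) :
    ∃ (I0 : Finset ℤ) (ε : ℝ), 0 < ε ∧ ∀ k, ∃ i ∈ I0, ε < t k i := by
  sorry

theorem nc_milD (a0 : A) (x0 : ξ.obj (op a0))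
    (ht : ∀ a, Function.Bijective fun f : a ⟶ a0 => ξ.map f.op x0) (hΦ : NC (Φ.obj a0)) :
    NC (MilD ξ Φ) := by
  sorry

theorem nc_mil (a0 : A) (x0 : ξ.obj (op a0))
    (ht : ∀ a, Function.Bijective fun f : a ⟶ a0 => ξ.map f.op x0) : NC (Mil ξ) := by
  sorry

end Vale.Agent.P259B
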