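import Vale.Agent.P259B.Cy
import Vale.Agent.P259B.Colim

/-!
# P259, Corep: the cylinder functor is corepresentable.

Plan.
* `Corep.sub`: let `K`, `K g`, `L h` corepresent `F`, `G g`, `H h`. Let `K1 = K ⨿ ∐ K g` with the
  tautological `(z1, c1)`, let `u h, v h : L h ⟶ K1` classify `α h K1 z1 c1` and `β h K1 z1 c1`, and
  let `K2` be the coequalizer of the two induced maps `∐ L h ⟶ K1`.
* The functors `a ↦ val a.left S` and `a ↦ val a.right S` on arrows are corepresented by
  `𝟙 (yo C S)` and `initial.to (yo C S)`.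
* `corep_cy`: induction on `d`. For `d = 0` a cylinder is just `a0`. For `d + 1` use `Corep.sub` with
  `F = CyF C n d S`, `r = trunc`, the new cells `a1 d _ g` and `Φ d hn _ g`, and the equations of
  `Cy.extend` (index the families by sum and subtype types; a family of functors indexed by a sum
  type is given by `match`); naturality of `Tr n d (z.φ ..) ..` is `ap_Tr` with `Cy.bd`.
  Injectivity is `Cy.ext_trunc`, surjectivity `Cy.extend`.
-/

namespace Vale.Agent.P259B

open CategoryTheory Limits Opposite GlobExt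

/-- Corepresentability, elementwise. -/
def Corep {K : Type 1} [Category.{0} K] (F : K ⥤ Type) : Prop :=
  ∃ (A : K) (z : F.obj A), ∀ (B : K) (y : F.obj B), ∃! α : A ⟶ B, F.map α z = y

theorem Corep.small {K : Type 1} [Category.{0} K] {F : K ⥤ Type} (hF : Corep F) (G : K ⥤ Type) :
    Small.{0} (F ⟶ G) := by
  sorry

/-- Yoneda: an element of `G` at the corepresenting object gives a natural transformation. -/
theorem exists_nat_of_univ {K : Type 1} [Category.{0} K] {F : K ⥤ Type} {A : K} {z : F.obj A}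
    (hz : ∀ (B : K) (y : F.obj B), ∃! α : A ⟶ B, F.map α z = y) (G : K ⥤ Type) (w : G.obj A) :
    ∃ χ : F ⟶ G, χ.app A z = w := by
  sorry

theorem nat_ext_of_univ {K : Type 1} [Category.{0} K] {F : K ⥤ Type} {A : K} {z : F.obj A}
    (hz : ∀ (B : K) (y : F.obj B), ∃! α : A ⟶ B, F.map α z = y) {G : K ⥤ Type}
    {χ χ' : F ⟶ G} (h : χ.app A z = χ'.app A z) : χ = χ' := by
  sorry

theorem Corep.sub {K : Type 1} [Category.{0} K] [HasColimitsOfSize.{0, 0} K]
    {F F' : K ⥤ Type} (hF : Corep F) {ι κ : Type} {G : ι → K ⥤ Type} (hG : ∀ g, Corep (G g))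
    {H : κ → K ⥤ Type} (hH : ∀ h, Corep (H h)) (r : F' ⟶ F) (c : ∀ g, F' ⟶ G g)
    (α β : ∀ (h : κ) (A : K), F.obj A → (∀ g, (G g).obj A) → (H h).obj A)
    (hα : ∀ h {A B : K} (f : A ⟶ B) z x,
      (H h).map f (α h A z x) = α h B (F.map f z) (fun g => (G g).map f (x g)))
    (hβ : ∀ h {A B : K} (f : A ⟶ B) z x,
      (H h).map f (β h A z x) = β h B (F.map f z) (fun g => (G g).map f (x g)))
    (inj : ∀ (A : K) (y y' : F'.obj A), r.app A y = r.app A y' →
      (∀ g, (c g).app A y = (c g).app A y') → y = y')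
    (eqn : ∀ (A : K) (y : F'.obj A) h, α h A (r.app A y) (fun g => (c g).app A y) =
      β h A (r.app A y) (fun g => (c g).app A y))
    (surj : ∀ (A : K) (z : F.obj A) (x : ∀ g, (G g).obj A), (∀ h, α h A z x = β h A z x) →
      ∃ y : F'.obj A, r.app A y = z ∧ ∀ g, (c g).app A y = x g) : Corep F' := by
  sorry

variable {C : GlobExt} [Contr C]

theorem corep_cy (C : GlobExt) [Contr C] (n d : ℕ) (S : Table) : Corep (CyF C n d S) := by
  sorry

end Vale.Agent.P259B
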