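import Vale.Agent.P259B.Grid

/-!
# P259B, Ctr: the cube and its globular faces are built from cells by contractible gluings.

Plan. `IsBox U`: `U = {τ | ∀ k, lo k ≤ τ k ≤ hi k}` for even `lo k, hi k` in `[-2N, 2N]`; boxes are lower
sets and closed under intersection (`max`, `min`). A nonempty box satisfies `Q`: induction on
`∑ (hi k - lo k)`; if all `hi k - lo k ≤ 2` it is `Set.Iic` of the midpoint, otherwise split along
`lo k + 2`. Family lemma: let `π τ` replace coordinate `j` by `± 2N`; by induction on the length of a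
list `L` of boxes, for every nonempty box `B0` such that all boxes of `B0 :: L` are `π`-stable and are
mapped by `π` into `B0`, `Q (B0 ∪ ⋃ L)` holds (an empty box is dropped; for a nonempty `B` use
`(B0 ∪ ⋃ L') ∩ B = (B0 ∩ B) ∪ ⋃ (L'.map (· ∩ B))`). The face `faceC n N j b` is the union of the box
`τ j = ± 2N, τ k = 0 (k > j)` and the boxes `τ k = ± 2N` (`k < j`), sign condition at `j`,
`τ l = 0 (l > j)`.
-/

namespace Vale.Agent.P259B

open Set

variable {n N : ℕ} {Q : Set (Cl n N) → Prop} (h1 : ∀ σ, Q (Iic σ))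
  (h2 : ∀ U V, IsLowerSet U → IsLowerSet V → Q U → Q V → Q (U ∩ V) → Q (U ∪ V))

include h1 h2

theorem ctr_univ : Q univ := by
  sorry

theorem ctr_faceC (hN : 0 < N) {j : ℕ} (hj : j < n) (b : Bool) : Q (faceC n N j b) := by
  sorry

end Vale.Agent.P259B
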