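import Vale.Agent.P259B.Tr

/-!
# P259, Cy: cylinders (the cells of the mapping path object), relative to dimensions `< n` and
truncated at dimension `d`.

For `i : X ⟶ X'` and a table `S`, a cylinder consists of `a0 ∈ X'(S)`, for each cell `g` of `S` of
dimension `j < d` a cell `a1 g` of `X`, equal to `a0 g` if `j < n`, and otherwise joined to the
transport of `a0 g` by a cell `Φ g`.

Plan. `Cy.bd` is `Φ_src` plus `fc_res`, `gface_comp`. `Cy.map` needs `ap_Tr`. `Cy.glue`: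
`snoc_glue` for `a0`, `snoc_desc` (with choice, for each dimension) for `a1`, `Φ`, and `snoc_cases`
for the axioms; `Cy.snoc_ext`: `snoc_ext`, `snoc_cases`. `Cy.extend`: `extLt`.
-/

namespace Vale.Agent.P259B

open CategoryTheory Limits Opposite GlobExt

variable {C : GlobExt} [Contr C]

/-- Cylinders of shape `S`. -/
@[ext]
structure Cy (n d : ℕ) {X X' : Mod C} (i : X ⟶ X') (S : Table) where
  a0 : val X' S
  a1 : ∀ j, j < d → (disc j ⟶ S) → cell X j
  Φ : ∀ j, n ≤ j → j < d → (disc j ⟶ S) → cell X' (j + 1)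
  a1_fc : ∀ j hj g m (h : m < j) b, fc h b (a1 j hj g) = a1 m (h.trans hj) (gface h b ≫ g)
  low : ∀ j hj g, j < n → ap i (a1 j hj g) = res g a0
  Φ_src : ∀ j hn hj g, src (Φ j hn hj g) =
    Tr n j (fun m hm hmj b => Φ m hm (hmj.trans hj) (gface hmj b ≫ g)) (res g a0)
  Φ_tgt : ∀ j hn hj g, tgt (Φ j hn hj g) = ap i (a1 j hj g)

namespace Cy

variable {n d : ℕ} {X X' Y Y' Z Z' : Mod C} {i : X ⟶ X'} {i' : Y ⟶ Y'} {i'' : Z ⟶ Z'}
  {S T U : Table}

/-- The whiskering data on the boundary of a cell `g`. -/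
noncomputable abbrev φ (z : Cy n d i S) {j : ℕ} (hj : j ≤ d) (g : disc j ⟶ S) : Dat X' n j :=
  fun m hm hmj b => z.Φ m hm (hmj.trans_le hj) (gface hmj b ≫ g)

theorem bd (z : Cy n d i S) {j : ℕ} (hj : j ≤ d) (g : disc j ⟶ S) :
    Bd n j (z.φ hj g) (res g z.a0) := by
  sorry

/-- The faces of a transported cell. -/
theorem fc_Tr (z : Cy n d i S) {j : ℕ} (hj : j ≤ d) (g : disc j ⟶ S) {m : ℕ} (h : m < j)
    (b : Bool) : fc h b (Tr n j (z.φ hj g) (res g z.a0)) =
      ap i (z.a1 m (h.trans_le hj) (gface h b ≫ g)) := by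
  sorry

/-- Restriction along a morphism of `Θ₀`. -/
noncomputable def rs (θ : S ⟶ T) (z : Cy n d i T) : Cy n d i S where
  a0 := res θ z.a0
  a1 j hj g := z.a1 j hj (g ≫ θ)
  Φ j hn hj g := z.Φ j hn hj (g ≫ θ)
  a1_fc := by sorry
  low := by sorry
  Φ_src := by sorry
  Φ_tgt := by sorry

theorem rs_id (z : Cy n d i S) : z.rs (𝟙 S) = z := by
  sorry

theorem rs_comp (f : S ⟶ T) (g : T ⟶ U) (z : Cy n d i U) : z.rs (f ≫ g) = (z.rs g).rs f := by
  sorry

/-- Image under a morphism of arrows. -/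
noncomputable def map (l : X ⟶ Y) (r : X' ⟶ Y') (w : l ≫ i' = i ≫ r) (z : Cy n d i S) :
    Cy n d i' S where
  a0 := ap r z.a0
  a1 j hj g := ap l (z.a1 j hj g)
  Φ j hn hj g := ap r (z.Φ j hn hj g)
  a1_fc := by sorry
  low := by sorry
  Φ_src := by sorry
  Φ_tgt := by sorry

theorem map_rs (l : X ⟶ Y) (r : X' ⟶ Y') (w : l ≫ i' = i ≫ r) (θ : S ⟶ T) (z : Cy n d i T) :
    (z.rs θ).map l r w = (z.map l r w).rs θ := by
  sorry

theorem glue {T : Table} {j k : ℕ} (hl : j < T.last) (hi : j < k) (z : Cy n d i T)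
    (w : Cy n d i (disc k)) (h : z.rs (gface hl true ≫ T.lastι) = w.rs (gface hi false)) :
    ∃ y : Cy n d i (T.snoc j k hl hi), y.rs (T.inl j k hl hi) = z ∧
      y.rs (T.snoc j k hl hi).lastι = w := by
  sorry

theorem snoc_ext {T : Table} {j k : ℕ} {hl : j < T.last} {hi : j < k}
    {y y' : Cy n d i (T.snoc j k hl hi)} (h : y.rs (T.inl j k hl hi) = y'.rs (T.inl j k hl hi))
    (h' : y.rs (T.snoc j k hl hi).lastι = y'.rs (T.snoc j k hl hi).lastι) : y = y' := by
  sorry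

/-- The `a1` part of `z` is induced by `x ∈ X(S)`. -/
def Ind (z : Cy n d i S) (x : val X S) : Prop := ∀ j hj g, z.a1 j hj g = res g x

theorem exists_ind (z : Cy n d i S) (h : S.dim < d) : ∃ x, z.Ind x := by
  sorry

theorem Ind.unique {z : Cy n d i S} (h : S.dim < d) {x y : val X S} (hx : z.Ind x)
    (hy : z.Ind y) : x = y := by
  sorry

theorem Ind.low {z : Cy n d i S} (h : S.dim < d) (hn : S.dim < n) {x : val X S} (hx : z.Ind x) :
    ap i x = z.a0 := by
  sorry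

/-- Forget the top level. -/
def trunc (z : Cy n (d + 1) i S) : Cy n d i S where
  a0 := z.a0
  a1 j hj g := z.a1 j (hj.trans (Nat.lt_succ_self d)) g
  Φ j hn hj g := z.Φ j hn (hj.trans (Nat.lt_succ_self d)) g
  a1_fc j _ g m h b := z.a1_fc j _ g m h b
  low j _ g h := z.low j _ g h
  Φ_src j hn _ g := z.Φ_src j hn _ g
  Φ_tgt j hn _ g := z.Φ_tgt j hn _ g

theorem extend (z : Cy n d i S) (a : (disc d ⟶ S) → cell X d)
    (Ψ : n ≤ d → (disc d ⟶ S) → cell X' (d + 1))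
    (ha : ∀ g m (h : m < d) b, fc h b (a g) = z.a1 m h (gface h b ≫ g))
    (hlow : ∀ g, d < n → ap i (a g) = res g z.a0)
    (hs : ∀ hn g, src (Ψ hn g) = Tr n d (z.φ le_rfl g) (res g z.a0))
    (ht : ∀ hn g, tgt (Ψ hn g) = ap i (a g)) :
    ∃ y : Cy n (d + 1) i S, y.trunc = z ∧ (∀ g, y.a1 d (Nat.lt_succ_self d) g = a g) ∧
      ∀ hn g, y.Φ d hn (Nat.lt_succ_self d) g = Ψ hn g := by
  sorry

theorem ext_trunc {y y' : Cy n (d + 1) i S} (h : y.trunc = y'.trunc)
    (ha : ∀ g, y.a1 d (Nat.lt_succ_self d) g = y'.a1 d (Nat.lt_succ_self d) g)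
    (hΦ : ∀ hn g, y.Φ d hn (Nat.lt_succ_self d) g = y'.Φ d hn (Nat.lt_succ_self d) g) :
    y = y' := by
  sorry

end Cy

/-- Cylinders as a functor of the arrow. -/
noncomputable def CyF (C : GlobExt) [Contr C] (n d : ℕ) (S : Table) : Arrow (Mod C) ⥤ Type where
  obj a := Cy n d a.hom S
  map sq := TypeCat.ofHom (Cy.map sq.left sq.right sq.w)
  map_id _ := rfl
  map_comp _ _ := rfl

/-- Restriction as a natural transformation. -/
noncomputable def CyF.rs (C : GlobExt) [Contr C] (n d : ℕ) {S T : Table} (θ : S ⟶ T) :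
    CyF C n d T ⟶ CyF C n d S where
  app _ := TypeCat.ofHom (Cy.rs θ)
  naturality := by sorry

end Vale.Agent.P259B
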