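import Vale.Agent.P259B.Cy

/-!
# P259, CyFill: cylinders on a disc from a boundary family and top data.

Plan. `mkDisc`: define `a1 j hj g` and `Φ j hn hj g` with `discRec` (motives
`fun j => j < d → cell X j` and `fun j => n ≤ j → j < d → cell X' (j+1)`), from the top data and
`(β j h b).a1 j _ (𝟙 _)`, `(β j h b).Φ j _ _ (𝟙 _)`; check the axioms with `disc_ind`,
`gface_comp`, `discRec_id`, `discRec_face`, and `hβ` (which gives
`(β j hj b).Φ m _ _ (gface h e) = (β m _ e).Φ m _ _ (𝟙 _)`). `bd_bφ`: `Φ_src` of `β m hm b` at `𝟙`.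
`fc_Tr_bφ`: `fc_Tr_mid` and `Φ_tgt`, or `fc_Tr_lo` and `low`.
-/

namespace Vale.Agent.P259B

open CategoryTheory Limits Opposite GlobExt

variable {C : GlobExt} [Contr C] {n d k : ℕ} {X X' : Mod C} {i : X ⟶ X'}

/-- A compatible family of cylinders on the faces of `D_k`. -/
def IsBdC (β : ∀ j, j < k → Bool → Cy n d i (disc j)) : Prop :=
  ∀ j hj b m (h : m < j) e, (β j hj b).rs (gface h e) = β m (h.trans hj) e

/-- The whiskering data of a boundary family. -/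
noncomputable abbrev bφ (β : ∀ j, j < k → Bool → Cy n d i (disc j)) (hk : k ≤ d) : Dat X' n k :=
  fun m hn hm b => (β m hm b).Φ m hn (hm.trans_le hk) (𝟙 _)

theorem exists_isBdC {γ γ' : Cy n d i (disc k)}
    (h : ∀ m (hm : m < k) e, γ.rs (gface hm e) = γ'.rs (gface hm e)) :
    ∃ β : ∀ j, j < k + 1 → Bool → Cy n d i (disc j), IsBdC β ∧
      β k (Nat.lt_succ_self k) false = γ ∧ β k (Nat.lt_succ_self k) true = γ' :=
  exists_bd (P := fun j => Cy n d i (disc j)) (fun h b x => x.rs (gface h b))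
    (fun h h' b b' x => by rw [← Cy.rs_comp, gface_comp]) γ γ' h

theorem isBdC_rs (δ : Cy n d i (disc k)) : IsBdC (fun j (hj : j < k) b => δ.rs (gface hj b)) := by
  sorry

theorem bφ_rs (δ : Cy n d i (disc k)) (hk : k ≤ d) :
    bφ (fun j (hj : j < k) b => δ.rs (gface hj b)) hk = δ.φ hk (𝟙 _) := by
  sorry

variable {β : ∀ j, j < k → Bool → Cy n d i (disc j)}

theorem IsBdC.isBd_a0 (hβ : IsBdC β) : IsBd (X := X') (fun j hj b => (β j hj b).a0) := by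
  sorry

theorem IsBdC.isBd_a1 (hβ : IsBdC β) (hk : k ≤ d) :
    IsBd (fun j hj b => (β j hj b).a1 j (hj.trans_le hk) (𝟙 _)) := by
  sorry

theorem bd_bφ (hβ : IsBdC β) (hk : k ≤ d) {j : ℕ} (x : cell X' j) (hj : k ≤ j)
    (hx : ∀ m (hm : m < k) b, fc (hm.trans_le hj) b x = (β m hm b).a0) :
    Bd n k (bφ β hk) x := by
  sorry

theorem fc_Tr_bφ (hβ : IsBdC β) (hk : k ≤ d) {j : ℕ} (x : cell X' j) (hj : k ≤ j)
    (hx : ∀ m (hm : m < k) b, fc (hm.trans_le hj) b x = (β m hm b).a0) (m : ℕ) (hm : m < k)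
    (b : Bool) : fc (hm.trans_le hj) b (Tr n k (bφ β hk) x) =
      ap i ((β m hm b).a1 m (hm.trans_le hk) (𝟙 _)) := by
  sorry

theorem mkDisc (hβ : IsBdC β) (a0 : cell X' k) (h0 : ∀ j hj b, fc hj b a0 = (β j hj b).a0)
    (a1 : k < d → cell X k)
    (h1 : ∀ hk j hj b, fc hj b (a1 hk) = (β j hj b).a1 j (hj.trans hk) (𝟙 _))
    (hlow : ∀ hk, k < n → ap i (a1 hk) = a0) (Φ : n ≤ k → k < d → cell X' (k + 1))
    (hs : ∀ hn hk, src (Φ hn hk) = Tr n k (bφ β hk.le) a0)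
    (ht : ∀ hn hk, tgt (Φ hn hk) = ap i (a1 hk)) :
    ∃ δ : Cy n d i (disc k), (∀ j hj b, δ.rs (gface hj b) = β j hj b) ∧ δ.a0 = a0 ∧
      (∀ hk, δ.a1 k hk (𝟙 _) = a1 hk) ∧ ∀ hn hk, δ.Φ k hn hk (𝟙 _) = Φ hn hk := by
  sorry

end Vale.Agent.P259B
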