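import Vale.Agent.P259B.PiT

/-!
# P259B, CylT: the mapping cylinder of `u : D ⟶ E` as a functor on `C`.

Plan.
* `exists_u`: recursion on `j` for maps `u j : Disc j → E (D j)` with
  `u (j+1) ∘ emb _ b = E (face) ∘ u j` (`fill_disc` with a boundary family; simplest: construct by strong
  recursion, or by `Nat.rec` a pair of consecutive maps with the invariant), then `ext_nat`.
* `nonempty_cylData`: `K0 S = pushout ((atI 1).app (D0 S)) (u.app S)`, a functor on `Table`
  (`pushout.map`). `exists_ext` with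
  `Rel f φ := in0 ≫ φ = D.map f ≫ in0 ∧ inE ≫ φ = E.map f ≫ inE`, where `in0 = (atI 0).app _ ≫ pushout.inl`.
  Gluing: glue the homotopy parts with `sums_DI`, then `pushout.desc` with `E.map f ≫ inE`
  (check on the two pieces with `sums_D0`). Lifting: `exists_bd` for the family
  `P j = K0 (disc j) ⟶ K0 S`, `sph_glue`, `NC.extend_cyl`; `NC (K0 S)` by `NC.dominated` from `hE`
  (the deformation `((x, s), r) ↦ (x, s + r - s r)`, glued by `isPushout_timesI`).
-/

namespace Vale.Agent.P259B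

open CategoryTheory Limits Opposite GlobExt unitInterval

variable {C : GlobExt}

theorem exists_u (E : Table ⥤ TopCat.{0}) (hE : ∀ n, NC (E.obj (disc n))) :
    Nonempty (D0 ⟶ E) := by
  sorry

/-- A cylinder functor. -/
structure CylData (D : DExt C) (E : C.Obj ⥤ TopCat.{0}) (u : D0 ⟶ C.ι ⋙ E) where
  Cy : C.Obj ⥤ TopCat.{0}
  in0 : D.F ⟶ Cy
  inE : E ⟶ Cy
  inI : D0 ⋙ timesI ⟶ C.ι ⋙ Cy
  at0 : ∀ S : Table, (atI 0).app (D0.obj S) ≫ inI.app S = in0.app ⟨S⟩
  po : ∀ S : Table, IsPushout ((atI 1).app (D0.obj S)) (u.app S) (inI.app S) (inE.app ⟨S⟩)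

theorem nonempty_cylData [HasLL C] (D : DExt C) (E : C.Obj ⥤ TopCat.{0})
    (hE : ∀ S : Table, NC (E.obj ⟨S⟩)) (u : D0 ⟶ C.ι ⋙ E) : Nonempty (CylData D E u) := by
  sorry

end Vale.Agent.P259B
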