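import Vale.Agent.P259B.Defs

/-!
# P259, Theta: elementary facts on `Θ₀` (the category `Table`).

Plan.
* `disc j ⟶ disc k` is `yoneda.obj ⟨j⟩ ⟶ yoneda.obj ⟨k⟩` by `rfl`, so it is `GHom j k` by the
  full faithfulness of `yoneda` (`gmap`, `gOf`).
* `incl : Table ⥤ GSet` is fully faithful; the defining squares are `IsPushout.of_hasPushout`.
  `coyoneda.obj (op (disc m))` is evaluation at `⟨m⟩` (Yoneda), which preserves pushouts of
  presheaves; pushouts of types are jointly surjective (`Types.eq_or_eq_of_isPushout` or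
  `Types.jointly_surjective_of_isColimit`) and give `snoc_desc`.
* `dens_ext`, `dens_desc`: induction on the table (`Table.ind`), `disc_ind`, `snoc_cases`,
  `IsPushout.hom_ext`, `IsPushout.desc`.
* `ext_nat`: define the component at `S` by `dens_desc` with `y j c = u j ≫ E.map c`, naturality by
  `dens_ext`.
-/

namespace Vale.Agent.P259B

open CategoryTheory Limits Opposite

universe v u

/-- Extend a family indexed by `j < d` to `j < d + 1`. -/
def extLt {P : ℕ → Sort*} {d : ℕ} (old : ∀ j, j < d → P j) (new : P d) (j : ℕ) (h : j < d + 1) :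
    P j :=
  if h' : j < d then old j h' else (show d = j by omega) ▸ new

theorem extLt_old {P : ℕ → Sort*} {d : ℕ} (old : ∀ j, j < d → P j) (new : P d) (j : ℕ)
    (h : j < d + 1) (h' : j < d) : extLt old new j h = old j h' := dif_pos h'

theorem extLt_new {P : ℕ → Sort*} {d : ℕ} (old : ∀ j, j < d → P j) (new : P d)
    (h : d < d + 1) : extLt old new d h = new := dif_neg (lt_irrefl d)

/-- A parallel pair in a globular family gives a full boundary family. -/
theorem exists_bd {P : ℕ → Type v} (F : ∀ {m n : ℕ}, m < n → Bool → P n → P m)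
    (hF : ∀ {l m n : ℕ} (h : l < m) (h' : m < n) (b b' : Bool) (x : P n),
      F h b (F h' b' x) = F (h.trans h') b x)
    {k : ℕ} (a a' : P k) (hp : ∀ m (h : m < k) e, F h e a = F h e a') :
    ∃ β : ∀ j, j < k + 1 → Bool → P j,
      (∀ j hj b m (h : m < j) e, F h e (β j hj b) = β m (h.trans hj) e) ∧
      β k (Nat.lt_succ_self k) false = a ∧ β k (Nat.lt_succ_self k) true = a' := by
  sorry

/-- `Θ₀` inside presheaves. -/
noncomputable def incl : Table ⥤ GSet where
  obj := Table.psh
  map f := f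

noncomputable def inclFF : incl.FullyFaithful where
  preimage f := f

theorem Table.ind {motive : Table → Prop} (hd : ∀ n, motive (disc n))
    (hs : ∀ T j i hl hi, motive T → motive (T.snoc j i hl hi)) : ∀ T, motive T := by
  sorry

@[simp] theorem disc_last (n : ℕ) : (disc n).last = n := rfl
@[simp] theorem snoc_last (T : Table) (j i hl hi) : (T.snoc j i hl hi).last = i := rfl
@[simp] theorem disc_dim (n : ℕ) : (disc n).dim = n := rfl
@[simp] theorem snoc_dim (T : Table) (j i hl hi) : (T.snoc j i hl hi).dim = max T.dim i := rfl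
theorem disc_lastι (n : ℕ) : (disc n).lastι = 𝟙 (disc n) := rfl

/-- Globe arrows as morphisms of `Θ₀`. -/
noncomputable def gmap {j k : ℕ} (g : GHom j k) : disc j ⟶ disc k :=
  yoneda.map (X := (⟨j⟩ : Globe)) (Y := ⟨k⟩) g

/-- The globe arrow behind a morphism of discs. -/
noncomputable def gOf {j k : ℕ} (g : disc j ⟶ disc k) : GHom j k :=
  yoneda.preimage (X := (⟨j⟩ : Globe)) (Y := ⟨k⟩) g

theorem gOf_gmap {j k : ℕ} (g : GHom j k) : gOf (gmap g) = g := by
  sorry

theorem gmap_gOf {j k : ℕ} (g : disc j ⟶ disc k) : gmap (gOf g) = g := by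
  sorry

theorem gmap_id (k : ℕ) : gmap (.id k) = 𝟙 (disc k) := by
  sorry

theorem gmap_face {j k : ℕ} (h : j < k) (b : Bool) : gmap (.face h b) = gface h b := rfl

@[reassoc]
theorem gface_comp {l m n : ℕ} (h : l < m) (h' : m < n) (b b' : Bool) :
    gface h b ≫ gface h' b' = gface (h.trans h') b := by
  sorry

theorem disc_ind {k : ℕ} {motive : ∀ j, (disc j ⟶ disc k) → Prop} (top : motive k (𝟙 _))
    (lo : ∀ j (h : j < k) b, motive j (gface h b)) : ∀ j g, motive j g := by
  sorry

/-- Define a family on the cells of a disc. -/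
noncomputable def discRec {k : ℕ} {P : ℕ → Sort*} (top : P k) (lo : ∀ j, j < k → Bool → P j)
    (j : ℕ) (g : disc j ⟶ disc k) : P j :=
  match j, gOf g with
  | _, .id _ => top
  | j, .face h b => lo j h b

theorem discRec_id {k : ℕ} {P : ℕ → Sort*} (top : P k) (lo : ∀ j, j < k → Bool → P j) :
    discRec top lo k (𝟙 _) = top := by
  sorry

theorem discRec_face {k : ℕ} {P : ℕ → Sort*} (top : P k) (lo : ∀ j, j < k → Bool → P j)
    (j : ℕ) (h : j < k) (b : Bool) : discRec top lo j (gface h b) = lo j h b := by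
  sorry

theorem sums_incl : PreservesSums incl := by
  sorry

theorem sums_id : PreservesSums (𝟭 Table) := by
  sorry

theorem PreservesSums.comp {E : Type u} [Category.{v} E] {E' : Type*} [Category E']
    {K : Table ⥤ E} (hK : PreservesSums K) (G : E ⥤ E')
    [PreservesColimitsOfShape WalkingSpan G] : PreservesSums (K ⋙ G) := by
  sorry

theorem PreservesSums.of_iso {E : Type u} [Category.{v} E] {K K' : Table ⥤ E}
    (hK : PreservesSums K) (e : K ≅ K') : PreservesSums K' := by
  sorry

@[reassoc]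
theorem snoc_w (T : Table) (j i : ℕ) (hl : j < T.last) (hi : j < i) :
    gface hl true ≫ T.lastι ≫ T.inl j i hl hi = gface hi false ≫ (T.snoc j i hl hi).lastι := by
  sorry

theorem snoc_cases {T : Table} {j i : ℕ} {hl : j < T.last} {hi : j < i} {m : ℕ}
    (g : disc m ⟶ T.snoc j i hl hi) :
    (∃ g' : disc m ⟶ T, g = g' ≫ T.inl j i hl hi) ∨
      ∃ g' : disc m ⟶ disc i, g = g' ≫ (T.snoc j i hl hi).lastι := by
  sorry

theorem snoc_desc {T : Table} {j i : ℕ} (hl : j < T.last) (hi : j < i) {m : ℕ} {P : Type}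
    (u : (disc m ⟶ T) → P) (w : (disc m ⟶ disc i) → P)
    (h : ∀ g : disc m ⟶ disc j, u (g ≫ gface hl true ≫ T.lastι) = w (g ≫ gface hi false)) :
    ∃ z : (disc m ⟶ T.snoc j i hl hi) → P, (∀ g, z (g ≫ T.inl j i hl hi) = u g) ∧
      ∀ g, z (g ≫ (T.snoc j i hl hi).lastι) = w g := by
  sorry

theorem le_dim {S : Table} {j : ℕ} (g : disc j ⟶ S) : j ≤ S.dim := by
  sorry

instance finite_el (S : Table) (j : ℕ) : Finite (disc j ⟶ S) := by
  sorry

theorem nonempty_el (S : Table) : Nonempty (disc 0 ⟶ S) := by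
  sorry

theorem dens_ext {E : Type u} [Category.{v} E] {K : Table ⥤ E} (hK : PreservesSums K)
    {S : Table} {Y : E} (f g : K.obj S ⟶ Y)
    (h : ∀ j (c : disc j ⟶ S), K.map c ≫ f = K.map c ≫ g) : f = g := by
  sorry

theorem dens_desc {E : Type u} [Category.{v} E] {K : Table ⥤ E} (hK : PreservesSums K)
    {S : Table} {Y : E} (y : ∀ j, (disc j ⟶ S) → (K.obj (disc j) ⟶ Y))
    (hy : ∀ j c m (h : m < j) b, K.map (gface h b) ≫ y j c = y m (gface h b ≫ c)) :
    ∃ f : K.obj S ⟶ Y, ∀ j c, K.map c ≫ f = y j c := by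
  sorry

theorem ext_nat {E : Type u} [Category.{v} E] {K : Table ⥤ E} (hK : PreservesSums K)
    (L : Table ⥤ E) (u : ∀ j, K.obj (disc j) ⟶ L.obj (disc j))
    (hu : ∀ m j (h : m < j) b, K.map (gface h b) ≫ u j = u m ≫ L.map (gface h b)) :
    ∃ α : K ⟶ L, ∀ j, α.app (disc j) = u j := by
  sorry

end Vale.Agent.P259B
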