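import Vale.Agent.P259B.Hemi
import Vale.Agent.P259B.Theta

/-!
# P259B, D0: the disc functor on `Θ₀`.

Plan.
* `discG` is the coglobular space of discs (`emb_emb`). `LG = yoneda.leftKanExtension discG`
  preserves colimits and `discG ≅ yoneda ⋙ LG` (`Mathlib/CategoryTheory/Limits/Presheaf.lean`; if only
  the `uliftYoneda` version is available, compare with `uliftYoneda.{0} ≅ yoneda`; any construction of
  a colimit preserving `LG` with such an isomorphism is fine, this is `exists_LG`).
* `D0` is `incl ⋙ LG` with its values on discs replaced by the discs themselves (`Functor.copyObj`).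
* `contractible_D0`: `Table.ind`. For a pushout `D0 T ⨿_{Disc j} Disc i`, glue the constant homotopy
  on `D0 T` and `disc_sdr` on `Disc i` (through `sums_DI`, `IsPushout.desc`) to a deformation of the
  pushout into `D0 T`; this gives a homotopy equivalence (or use `NC.dominated` for `nc_D0`).
* `sums_DI`: `- × I` preserves pushouts: a map `Z × I → Y` is a map `Z → C(I, Y)`
  (`ContinuousMap.curry`, `ContinuousMap.uncurry`, `I` locally compact); check `IsPushout` by
  `IsPushout.of_isColimit'` / `PushoutCocone.IsColimit.mk`.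
* `cg_D0`: `Table.ind`, `uCompactlyGeneratedSpace_of_continuous_maps`; a function on the pushout whose
  two restrictions are continuous is continuous (`IsPushout.desc` and joint surjectivity, since
  `forget TopCat` preserves colimits).
-/

namespace Vale.Agent.P259B

open CategoryTheory Limits Opposite unitInterval

/-- The coglobular space of discs. -/
noncomputable def discG : Globe ⥤ TopCat.{0} where
  obj a := TopCat.of (Disc a.dim)
  map {a b} g := match a, b, g with
    | ⟨_⟩, ⟨_⟩, .id _ => 𝟙 _
    | ⟨_⟩, ⟨_⟩, .face h e => TopCat.ofHom (emb h e)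
  map_id _ := rfl
  map_comp := by sorry

theorem exists_LG : ∃ L : GSet ⥤ TopCat.{0}, PreservesColimitsOfShape WalkingSpan L ∧
    Nonempty (yoneda ⋙ L ≅ discG) := by
  sorry

/-- The colimit preserving extension of the discs to globular sets. -/
noncomputable def LG : GSet ⥤ TopCat.{0} := exists_LG.choose

/-- The comparison on representables. -/
noncomputable def LGiso : yoneda ⋙ LG ≅ discG := exists_LG.choose_spec.2.some

/-- The spaces of the disc functor. -/
noncomputable def DObj : Table → TopCat.{0}
  | ⟨n, .disc _⟩ => TopCat.of (Disc n)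
  | ⟨_, .snoc T j i hl hi⟩ => LG.obj (Table.psh ⟨i, .snoc T j i hl hi⟩)

/-- The comparison isomorphisms. -/
noncomputable def DIso : ∀ S : Table, (incl ⋙ LG).obj S ≅ DObj S
  | ⟨n, .disc _⟩ => LGiso.app ⟨n⟩
  | ⟨_, .snoc _ _ _ _ _⟩ => Iso.refl _

/-- The disc functor on `Θ₀`. -/
noncomputable def D0 : Table ⥤ TopCat.{0} where
  obj := DObj
  map {S T} θ := (DIso S).inv ≫ (incl ⋙ LG).map θ ≫ (DIso T).hom
  map_id := by simp
  map_comp := by simp

example (n : ℕ) : D0.obj (disc n) = TopCat.of (Disc n) := rfl

theorem D0_gface {m n : ℕ} (h : m < n) (b : Bool) :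
    D0.map (gface h b) = TopCat.ofHom (emb h b) := by
  sorry

theorem sums_D0 : PreservesSums D0 := by
  sorry

/-- The functor `- × I`. -/
noncomputable def timesI : TopCat.{0} ⥤ TopCat.{0} where
  obj Z := TopCat.of (Z × I)
  map f := TopCat.ofHom (f.hom.prodMap (ContinuousMap.id I))

/-- The inclusion at height `s`. -/
noncomputable def atI (s : I) : 𝟭 TopCat.{0} ⟶ timesI where
  app Z := TopCat.ofHom ⟨fun z => (z, s), by fun_prop⟩

theorem isPushout_timesI {A B X P : TopCat.{0}} {f : A ⟶ B} {g : A ⟶ X} {u : B ⟶ P} {v : X ⟶ P}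
    (h : IsPushout f g u v) :
    IsPushout (timesI.map f) (timesI.map g) (timesI.map u) (timesI.map v) := by
  sorry

theorem sums_DI : PreservesSums (D0 ⋙ timesI) := fun T j i hl hi =>
  isPushout_timesI (sums_D0 T j i hl hi)

theorem nc_D0 (S : Table) : NC (D0.obj S) := by
  sorry

instance cg_D0 (S : Table) : UCompactlyGeneratedSpace.{0} (D0.obj S) := by
  sorry

end Vale.Agent.P259B
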