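import Mathlib

/-!
# P259, definitions: globes, globular sums, coherators, infinity-groupoids, disc functors.
-/

namespace Vale.Agent.P259B

open CategoryTheory Limits Opposite

/-! ## The globe category and globular sums -/

/-- Arrows `D_m ⟶ D_n` of the globe category in normal form: the identity, and for `m < n` the
iterated source face (`b = false`) and the iterated target face (`b = true`). -/
inductive GHom : ℕ → ℕ → Type
  | id (n : ℕ) : GHom n n
  | face {m n : ℕ} (h : m < n) (b : Bool) : GHom m n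

/-- Composition (diagrammatic order): the first face decides, which is the globe relation. -/
def GHom.comp : {l m n : ℕ} → GHom l m → GHom m n → GHom l n
  | _, _, _, .id _, g => g
  | _, _, _, .face h b, .id _ => .face h b
  | _, _, _, .face h b, .face h' _ => .face (h.trans h') b

/-- Objects `D_n` of the globe category. -/
structure Globe where
  dim : ℕ

instance : SmallCategory Globe where
  Hom a b := GHom a.dim b.dim
  id a := GHom.id a.dim
  comp f g := GHom.comp f g
  id_comp _ := rfl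
  comp_id := by rintro ⟨a⟩ ⟨b⟩ f; cases f <;> rfl
  assoc := by
    rintro ⟨a⟩ ⟨b⟩ ⟨c⟩ ⟨d⟩ f g h
    cases f <;> cases g <;> cases h <;> rfl

/-- The iterated face `D_m ⟶ D_n`; `face _ false` is the source, `face _ true` the target. -/
def face {m n : ℕ} (h : m < n) (b : Bool) : (⟨m⟩ : Globe) ⟶ ⟨n⟩ := GHom.face h b

/-- Presheaves on the globe category. -/
abbrev GSet := Globeᵒᵖ ⥤ Type

/-- Tables of dimensions `(i_1, j_1, …, i_k)` with last entry `l`. -/
inductive Tab : ℕ → Type
  | disc (i : ℕ) : Tab i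
  | snoc {l : ℕ} (T : Tab l) (j i : ℕ) (hl : j < l) (hi : j < i) : Tab i

/-- The dimension `max i_l`. -/
def Tab.dim : {l : ℕ} → Tab l → ℕ
  | _, .disc i => i
  | _, .snoc T _ i _ _ => max T.dim i

/-- The iterated pushout of a table (target of the previous last disc glued to the source of the
new disc), with the inclusion of its last disc. -/
noncomputable def Tab.sum : {l : ℕ} → Tab l → Under (yoneda.obj (⟨l⟩ : Globe))
  | _, .disc _ => Under.mk (𝟙 _)
  | _, .snoc T _ _ hl hi =>
      Under.mk (pushout.inr (yoneda.map (face hl true) ≫ T.sum.hom) (yoneda.map (face hi false)))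

/-- Objects of `Θ₀`: tables of dimensions. -/
structure Table where
  last : ℕ
  tab : Tab last

/-- The globular sum of a table, a presheaf on the globe category. -/
noncomputable def Table.psh (T : Table) : GSet := T.tab.sum.right

/-- `Θ₀`: the morphisms are all maps of presheaves between the globular sums. -/
noncomputable instance : SmallCategory Table where
  Hom S T := S.psh ⟶ T.psh
  id S := 𝟙 S.psh
  comp f g := f ≫ g

/-- The dimension of a globular sum. -/
def Table.dim (T : Table) : ℕ := T.tab.dim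

/-- The disc `D_n` as a globular sum. -/
def disc (n : ℕ) : Table := ⟨n, .disc n⟩

/-- Glue one more disc `D_i` along `D_j`. -/
def Table.snoc (T : Table) (j i : ℕ) (hl : j < T.last) (hi : j < i) : Table :=
  ⟨i, .snoc T.tab j i hl hi⟩

/-- Faces as morphisms of `Θ₀`. -/
noncomputable def gface {m n : ℕ} (h : m < n) (b : Bool) : disc m ⟶ disc n :=
  yoneda.map (face h b)

/-- The last disc of a globular sum. -/
noncomputable def Table.lastι (T : Table) : disc T.last ⟶ T := T.tab.sum.hom

/-- The inclusion of `T` in `T ⨿_{D_j} D_i`. -/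
noncomputable def Table.inl (T : Table) (j i : ℕ) (hl : j < T.last) (hi : j < i) :
    T ⟶ T.snoc j i hl hi :=
  pushout.inl (yoneda.map (face hl true) ≫ T.tab.sum.hom) (yoneda.map (face hi false))

/-- A functor on `Θ₀` preserves globular sums: it sends the defining pushout squares to pushouts. -/
def PreservesSums {E : Type*} [Category E] (F : Table ⥤ E) : Prop :=
  ∀ (T : Table) (j i : ℕ) (hl : j < T.last) (hi : j < i),
    IsPushout (F.map (gface hl true ≫ T.lastι)) (F.map (gface hi false))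
      (F.map (T.inl j i hl hi)) (F.map (T.snoc j i hl hi).lastι)

/-! ## Globular extensions and coherators -/

/-- A category structure on the set of tables. -/
structure CatOn where
  cat : SmallCategory Table

/-- The tables as objects of the category structure `c`. -/
structure Ob (c : CatOn) where
  tab : Table

instance (c : CatOn) : SmallCategory (Ob c) where
  Hom a b := c.cat.Hom a.tab b.tab
  id a := c.cat.id a.tab
  comp f g := c.cat.comp f g
  id_comp := c.cat.id_comp
  comp_id := c.cat.comp_id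
  assoc := c.cat.assoc

/-- A globular extension: a category with the objects of `Θ₀` and a functor from `Θ₀` that is the
identity on objects and preserves globular sums. -/
structure GlobExt where
  cat : CatOn
  map : ∀ {S T : Table}, (S ⟶ T) → ((⟨S⟩ : Ob cat) ⟶ ⟨T⟩)
  map_id : ∀ S : Table, map (𝟙 S) = 𝟙 _
  map_comp : ∀ {S T U : Table} (f : S ⟶ T) (g : T ⟶ U), map (f ≫ g) = map f ≫ map g
  sums : PreservesSums
    ({ obj := fun S => ⟨S⟩, map := map, map_id := map_id, map_comp := map_comp } : Table ⥤ Ob cat)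

namespace GlobExt

/-- The underlying category. -/
abbrev Obj (C : GlobExt) := Ob C.cat

/-- The structure functor `Θ₀ ⥤ C`. -/
def ι (C : GlobExt) : Table ⥤ C.Obj where
  obj S := ⟨S⟩
  map := C.map
  map_id := C.map_id
  map_comp := C.map_comp

/-- The disc `D_n` in `C`. -/
abbrev D (C : GlobExt) (n : ℕ) : C.Obj := ⟨disc n⟩

/-- `σ_n : D_n ⟶ D_{n+1}`. -/
noncomputable def σ (C : GlobExt) (n : ℕ) : C.D n ⟶ C.D (n + 1) :=
  C.map (gface (Nat.lt_succ_self n) false)

/-- `τ_n : D_n ⟶ D_{n+1}`. -/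
noncomputable def τ (C : GlobExt) (n : ℕ) : C.D n ⟶ C.D (n + 1) :=
  C.map (gface (Nat.lt_succ_self n) true)

/-- Parallel maps `D_n ⟶ S`. -/
def Par (C : GlobExt) : {n : ℕ} → {S : C.Obj} → (C.D n ⟶ S) → (C.D n ⟶ S) → Prop
  | 0, _, _, _ => True
  | n + 1, _, f, g => C.σ n ≫ f = C.σ n ≫ g ∧ C.τ n ≫ f = C.τ n ≫ g

/-- `h` is a lift of the pair `(f, g)`. -/
def IsLift (C : GlobExt) {n : ℕ} {S : C.Obj} (f g : C.D n ⟶ S) (h : C.D (n + 1) ⟶ S) : Prop :=
  C.σ n ≫ h = f ∧ C.τ n ≫ h = g

/-- Parallel pairs `D_n ⇉ S`. -/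
structure Pair (C : GlobExt) where
  n : ℕ
  S : Table
  f : C.D n ⟶ ⟨S⟩
  g : C.D n ⟶ ⟨S⟩
  par : C.Par f g

/-- Morphisms of globular extensions: functors under `Θ₀`. -/
@[ext]
structure Mor (C E : GlobExt) where
  map : ∀ {S T : Table}, ((⟨S⟩ : C.Obj) ⟶ ⟨T⟩) → ((⟨S⟩ : E.Obj) ⟶ ⟨T⟩)
  map_id : ∀ S : Table, map (𝟙 (⟨S⟩ : C.Obj)) = 𝟙 _
  map_comp : ∀ {S T U : Table} (f : (⟨S⟩ : C.Obj) ⟶ ⟨T⟩) (g : (⟨T⟩ : C.Obj) ⟶ ⟨U⟩),
    map (f ≫ g) = map f ≫ map g
  map_ι : ∀ {S T : Table} (f : S ⟶ T), map (C.map f) = E.map f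

/-- Composition of morphisms of globular extensions (diagrammatic order). -/
def Mor.comp {C E F : GlobExt} (p : Mor C E) (q : Mor E F) : Mor C F where
  map f := q.map (p.map f)
  map_id S := by rw [p.map_id, q.map_id]
  map_comp f g := by rw [p.map_comp, q.map_comp]
  map_ι f := by rw [p.map_ι, q.map_ι]

/-- `p : C ⟶ C'` universally adjoins lifts of the pairs in `A`. -/
def AdjoinsLifts {C C' : GlobExt} (p : Mor C C') (A : Set C.Pair) : Prop :=
  ∃ l : ∀ a ∈ A, (C'.D (a.n + 1) ⟶ ⟨a.S⟩),
    (∀ a ha, C'.IsLift (p.map a.f) (p.map a.g) (l a ha)) ∧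
    ∀ (E : GlobExt) (q : Mor C E) (h : ∀ a ∈ A, (E.D (a.n + 1) ⟶ ⟨a.S⟩)),
      (∀ a ha, E.IsLift (q.map a.f) (q.map a.g) (h a ha)) →
      ∃! r : Mor C' E, p.comp r = q ∧ ∀ a ha, r.map (l a ha) = h a ha

end GlobExt

open GlobExt

/-- `C` is a coherator: the colimit of a tower starting at `Θ₀` in which each stage universally
adjoins lifts of a set of parallel pairs `D_n ⇉ S` with `dim S ≤ n + 1`, and every parallel pair
of `C` has a lift. -/
structure Coherator (C : GlobExt) where
  stage : ℕ → GlobExt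
  step : ∀ k, Mor (stage k) (stage (k + 1))
  zero : ∀ S T : Table, Function.Bijective (fun f : S ⟶ T => (stage 0).map f)
  pairs : ∀ k, Set (stage k).Pair
  dim_le : ∀ k, ∀ a ∈ pairs k, a.S.dim ≤ a.n + 1
  free : ∀ k, AdjoinsLifts (step k) (pairs k)
  incl : ∀ k, Mor (stage k) C
  comm : ∀ k, (step k).comp (incl (k + 1)) = incl k
  colim : ∀ (E : GlobExt) (q : ∀ k, Mor (stage k) E), (∀ k, (step k).comp (q (k + 1)) = q k) →
    ∃! r : Mor C E, ∀ k, (incl k).comp r = q k
  contr : ∀ a : C.Pair, ∃ h, C.IsLift a.f a.g h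

/-! ## Infinity-groupoids and their homotopy groups -/

/-- `X` sends globular sums to iterated fibre products. -/
def IsModel (C : GlobExt) : ObjectProperty (C.Objᵒᵖ ⥤ Type) := fun X =>
  ∀ (T : Table) (j i : ℕ) (hl : j < T.last) (hi : j < i),
    IsPullback (X.map (C.map (T.inl j i hl hi)).op) (X.map (C.map (T.snoc j i hl hi).lastι).op)
      (X.map (C.map (gface hl true ≫ T.lastι)).op) (X.map (C.map (gface hi false)).op)

/-- The category of `C`-infinity-groupoids. -/
abbrev Mod (C : GlobExt) := (IsModel C).FullSubcategory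

/-- A choice of the lifts that give identity cells. -/
structure Units (C : GlobExt) where
  κ : ∀ n, C.D (n + 1) ⟶ C.D n
  lift : ∀ n, C.IsLift (𝟙 _) (𝟙 _) (κ n)

variable {C : GlobExt}

/-- The `n`-cells. -/
abbrev cell (X : Mod C) (n : ℕ) : Type := X.obj.obj (op (C.D n))

/-- Source of a cell. -/
noncomputable def src {X : Mod C} {n : ℕ} (c : cell X (n + 1)) : cell X n :=
  X.obj.map (C.σ n).op c

/-- Target of a cell. -/
noncomputable def tgt {X : Mod C} {n : ℕ} (c : cell X (n + 1)) : cell X n :=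
  X.obj.map (C.τ n).op c

/-- The action of a morphism of infinity-groupoids on cells. -/
def ap {X Y : Mod C} (f : X ⟶ Y) {S : C.Obj} (c : X.obj.obj (op S)) : Y.obj.obj (op S) :=
  f.hom.app (op S) c

theorem ap_map {X Y : Mod C} (f : X ⟶ Y) {S T : C.Obj} (g : S ⟶ T) (c : X.obj.obj (op T)) :
    ap f (X.obj.map g.op c) = Y.obj.map g.op (ap f c) :=
  ConcreteCategory.congr_hom (f.hom.naturality g.op) c

/-- There is an `(n+1)`-cell from `a` to `b`. -/
def Hot {X : Mod C} {n : ℕ} (a b : cell X n) : Prop :=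
  ∃ c : cell X (n + 1), src c = a ∧ tgt c = b

theorem Hot.ap {X Y : Mod C} (f : X ⟶ Y) {n : ℕ} {a b : cell X n} (h : Hot a b) :
    Hot (ap f a) (ap f b) := by
  obtain ⟨c, rfl, rfl⟩ := h
  exact ⟨P259B.ap f c, (ap_map f _ c).symm, (ap_map f _ c).symm⟩

/-- The iterated identity cells `1^n_x`. -/
def iterId (u : Units C) {X : Mod C} (x : cell X 0) : ∀ n, cell X n
  | 0 => x
  | n + 1 => X.obj.map (u.κ n).op (iterId u x n)

theorem ap_iterId (u : Units C) {X Y : Mod C} (f : X ⟶ Y) (x : cell X 0) :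
    ∀ n, ap f (iterId u x n) = iterId u (ap f x) n
  | 0 => rfl
  | n + 1 => by rw [iterId, iterId, ap_map, ap_iterId u f x n]

/-- `π₀ X`. -/
def Pi0 (X : Mod C) : Type := Quot (fun a b : cell X 0 => Hot a b)

/-- The `(n+1)`-cells `1^n_x ⟶ 1^n_x`. -/
abbrev Loop (u : Units C) {X : Mod C} (x : cell X 0) (n : ℕ) : Type :=
  {c : cell X (n + 1) // src c = iterId u x n ∧ tgt c = iterId u x n}

/-- `π_{n+1}(X, x)`. -/
def PiS (u : Units C) {X : Mod C} (x : cell X 0) (n : ℕ) : Type :=
  Quot (fun a b : Loop u x n => Hot a.1 b.1)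

/-- The map induced on `π₀`. -/
def Pi0.map {X Y : Mod C} (f : X ⟶ Y) : Pi0 X → Pi0 Y :=
  Quot.map (fun a => ap f a) (fun _ _ h => h.ap f)

/-- The map induced on loops. -/
def Loop.map (u : Units C) {X Y : Mod C} (f : X ⟶ Y) (x : cell X 0) (n : ℕ) (c : Loop u x n) :
    Loop u (ap f x) n :=
  ⟨ap f c.1, (ap_map f _ _).symm.trans ((congrArg (ap f) c.2.1).trans (ap_iterId u f x n)),
    (ap_map f _ _).symm.trans ((congrArg (ap f) c.2.2).trans (ap_iterId u f x n))⟩

/-- The map induced on `π_{n+1}`. -/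
def PiS.map (u : Units C) {X Y : Mod C} (f : X ⟶ Y) (x : cell X 0) (n : ℕ) :
    PiS u x n → PiS u (ap f x) n :=
  Quot.map (Loop.map u f x n) (fun _ _ h => h.ap f)

/-- Weak equivalences of infinity-groupoids. -/
def Weq (u : Units C) : MorphismProperty (Mod C) := fun _ _ f =>
  Function.Bijective (Pi0.map f) ∧ ∀ x n, Function.Bijective (PiS.map u f x n)

/-! ## Spaces, discs and disc functors -/

/-- Compactly generated spaces. -/
abbrev CG := CompactlyGenerated.{0, 0}

/-- The closed `n`-disc. -/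
abbrev Disc (n : ℕ) : Type := Metric.closedBall (0 : EuclideanSpace ℝ (Fin n)) 1

/-- The point `(x, ±√(1 - ‖x‖²), 0, …, 0)`, with sign `-` for `b = false`. -/
noncomputable def embV {m : ℕ} (n : ℕ) (b : Bool) (x : EuclideanSpace ℝ (Fin m)) :
    EuclideanSpace ℝ (Fin n) :=
  WithLp.toLp 2 fun i => if h : i.1 < m then x ⟨i.1, h⟩
    else if i.1 = m then (if b then 1 else -1) * √(1 - ‖x‖ ^ 2) else 0

theorem norm_embV {m n : ℕ} (h : m < n) (b : Bool) (x : Disc m) : ‖embV n b x.1‖ = 1 := by
  have hx : ‖x.1‖ ≤ 1 := mem_closedBall_zero_iff.1 x.2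
  have h0 : 0 ≤ 1 - ‖x.1‖ ^ 2 := by nlinarith [norm_nonneg x.1]
  let g : ℕ → ℝ := fun i => (if h : i < m then x.1 ⟨i, h⟩
    else if i = m then (if b then 1 else -1) * √(1 - ‖x.1‖ ^ 2) else 0) ^ 2
  have h1 : ‖embV n b x.1‖ ^ 2 = ∑ i ∈ Finset.range n, g i := by
    rw [EuclideanSpace.real_norm_sq_eq, ← Fin.sum_univ_eq_sum_range]
    rfl
  have h2 : ∑ i ∈ Finset.range n, g i = ∑ i ∈ Finset.range (m + 1), g i := by
    symm
    refine Finset.sum_subset (Finset.range_subset_range.2 h) fun i _ hi => ?_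
    have : m + 1 ≤ i := by simpa using hi
    simp only [g]
    rw [dif_neg (by omega), if_neg (by omega)]
    simp
  have h3 : ∑ i ∈ Finset.range m, g i = ‖x.1‖ ^ 2 := by
    rw [EuclideanSpace.real_norm_sq_eq, ← Fin.sum_univ_eq_sum_range]
    refine Finset.sum_congr rfl fun i _ => ?_
    simp [g]
  have h4 : g m = 1 - ‖x.1‖ ^ 2 := by
    simp only [g, lt_irrefl, dite_false, if_true, mul_pow, Real.sq_sqrt h0]
    cases b <;> simp
  have h5 : ‖embV n b x.1‖ ^ 2 = 1 := by
    rw [h1, h2, Finset.sum_range_succ, h3, h4]; ring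
  nlinarith [norm_nonneg (embV n b x.1)]

theorem continuous_embV {m : ℕ} (n : ℕ) (b : Bool) : Continuous (embV (m := m) n b) := by
  refine (PiLp.continuous_toLp 2 _).comp (continuous_pi fun i => ?_)
  split_ifs <;> fun_prop

/-- For `n = m + 1` the inclusion of the `m`-disc as the lower (`b = false`) or upper (`b = true`)
boundary hemisphere of the `(m+1)`-disc; in general the iterated inclusion. -/
noncomputable def emb {m n : ℕ} (h : m < n) (b : Bool) : C(Disc m, Disc n) where
  toFun x := ⟨embV n b x.1, by simp [norm_embV h b x]⟩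
  continuous_toFun := ((continuous_embV n b).comp continuous_subtype_val).subtype_mk _

/-- A disc functor for `C`. -/
structure DiscFunctor (C : GlobExt) where
  F : C.Obj ⥤ CG
  sums : PreservesSums (C.ι ⋙ F)
  e : ∀ n, F.obj (C.D n) ≅ CompactlyGenerated.of (Disc n)
  e_σ : ∀ n, F.map (C.σ n) ≫ (e (n + 1)).hom =
    (e n).hom ≫ CompactlyGenerated.ofHom (emb (Nat.lt_succ_self n) false)
  e_τ : ∀ n, F.map (C.τ n) ≫ (e (n + 1)).hom =
    (e n).hom ≫ CompactlyGenerated.ofHom (emb (Nat.lt_succ_self n) true)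

theorem isModel_hom {E : Type*} [Category.{0} E] (F : C.Obj ⥤ E) (hF : PreservesSums (C.ι ⋙ F))
    (Y : E) : IsModel C (F.op ⋙ yoneda.obj Y) := fun T j i hl hi =>
  ((hF T j i hl hi).op.map (yoneda.obj Y)).flip

/-- The fundamental infinity-groupoid functor `Y ↦ Hom(D(-), Y)`. -/
noncomputable def DiscFunctor.Pi (D : DiscFunctor C) : CG ⥤ Mod C :=
  (IsModel C).lift (yoneda ⋙ (Functor.whiskeringLeft _ _ _).obj D.F.op) (isModel_hom D.F D.sums)

/-- The map induced on path components. -/
def zerothMap {X Y : Type} [TopologicalSpace X] [TopologicalSpace Y] (f : C(X, Y)) :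
    ZerothHomotopy X → ZerothHomotopy Y :=
  Quotient.map f (fun _ _ h => h.elim fun p => ⟨p.map f.continuous⟩)

/-- The map induced on homotopy groups. -/
def piMap {X Y : Type} [TopologicalSpace X] [TopologicalSpace Y] (f : C(X, Y)) (n : ℕ) (x : X) :
    HomotopyGroup.Pi n X x → HomotopyGroup.Pi n Y (f x) :=
  Quotient.map (fun p => ⟨f.comp p.1, fun y hy => congrArg f (p.2 y hy)⟩)
    (fun _ _ h => ContinuousMap.HomotopicRel.comp_continuousMap h f)

/-- Weak homotopy equivalences. -/
def Whe : MorphismProperty CG := fun _ _ f =>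
  Function.Bijective (zerothMap (f.hom.hom)) ∧
    ∀ x n, Function.Bijective (piMap (f.hom.hom) (n + 1) x)

end Vale.Agent.P259B
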