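import Vale.Agent.P259B.GridW

/-!
# P259B, Delta: cell by cell extension over the grid, and lifting of points.

Plan.
* `exists_delta`: induction over lower sets `V ⊇ U` of the finite poset (e.g. strong induction on the
  cardinality of the complement, adding a minimal element `σ ∉ V`; or well-founded recursion on `<`
  with choice). For the new cell `σ`, define `f z = Ψ.map (car z ≤ σ) (δ (car z) z)` on
  `σ.cel ∩ sphere` (`exists_car`, `cel_sphere`); on `τ.cel`, `τ < σ`, it equals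
  `Ψ.map (τ ≤ σ) ∘ δ τ`, so it is continuous on the finite closed union
  (`ContinuousOn` on a locally finite closed cover, `LocallyFinite.continuousOn_iUnion`), and
  `NC.extend_radial` (`cel_subset_ball`, `cel_radial`) extends it. `Function.update` for the family.
* `exists_dd`: for `z` in the box with carrier `τ` and `0 < s z i`, the arrow `(c z).ar (m τ) i` is
  `Arrow.mk f` with `f : S τ ⟶ a`; put `dd i = some ⟨a, Φ.map f (δ τ z)⟩` (use an untyped action of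
  arrows on `Tot Φ`, as `pull` in Low.lean). The same formula holds with any `σ` such that
  `z ∈ σ.cel` (`ar_comp`, compatibility of `δ`). `PCont`: the set `{z | ∃ y ∈ U, dd z i = some y}` is
  open in the box since its trace on each of the finitely many closed cells is relatively open
  (`ar_const`-free argument: the fibres of `ar (m σ) i` are open).
-/

namespace Vale.Agent.P259B

open CategoryTheory Opposite

theorem exists_delta {n N : ℕ} (Ψ : Cl n N ⥤ TopCat.{0}) (hΨ : ∀ τ, NC (Ψ.obj τ))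
    {U : Set (Cl n N)} (hU : IsLowerSet U) (γ : ∀ τ, (Fin n → ℝ) → Ψ.obj τ)
    (hγ : ∀ τ ∈ U, ContinuousOn (γ τ) τ.cel)
    (hc : ∀ τ σ (h : τ ≤ σ), σ ∈ U → ∀ z ∈ τ.cel, γ σ z = Ψ.map (homOfLE h) (γ τ z)) :
    ∃ δ : ∀ τ, (Fin n → ℝ) → Ψ.obj τ, (∀ τ, ContinuousOn (δ τ) τ.cel) ∧
      (∀ τ σ (h : τ ≤ σ), ∀ z ∈ τ.cel, δ σ z = Ψ.map (homOfLE h) (δ τ z)) ∧
      ∀ τ ∈ U, ∀ z ∈ τ.cel, δ τ z = γ τ z := by
  sorry

theorem exists_dd {A : Type} [SmallCategory A] {ξ : Aᵒᵖ ⥤ Type} {Φ : A ⥤ TopCat.{0}} {n N : ℕ}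
    (c : C(Fin n → ℝ, Mil ξ)) (G : GridW n N fun z => (c z).t) (S : Cl n N ⥤ A)
    (hS : ∀ (τ σ : Cl n N) (h : τ ≤ σ), ∀ z ∈ σ.star,
      (c z).ar (G.m τ) (G.m σ) = some (Arrow.mk (S.map (homOfLE h))))
    (δ : ∀ τ : Cl n N, (Fin n → ℝ) → Φ.obj (S.obj τ)) (hδ : ∀ τ, ContinuousOn (δ τ) τ.cel)
    (hc : ∀ τ σ (h : τ ≤ σ), ∀ z ∈ τ.cel, δ σ z = Φ.map (S.map (homOfLE h)) (δ τ z))
    (hrw : ∀ z : box n N, (c z).Rw (G.s z)) :
    ∃ l : C(box n N, MilD ξ Φ), (∀ z, (l z).q = (c z).rw (G.s z) (hrw z)) ∧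
      ∀ (z : box n N) (τ : Cl n N), z.1 ∈ τ.cel → ∀ i (a : A) (f : S.obj τ ⟶ a), 0 < G.s z i →
        (c z).ar (G.m τ) i = some (Arrow.mk f) → (l z).dd i = some ⟨a, Φ.map f (δ τ z)⟩ := by
  sorry

end Vale.Agent.P259B
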