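import Vale.Agent.P259B.Tr

/-!
# P259, Div: whiskering and transport are injective on homotopy classes.

Plan. Fix `m`. For `Cmp m e e' x` put `V e e' x = W m (inv e) (inv e') (W m e e' x)` (composable by
`fc_W_src`, `fc_W_tgt`); it has the same faces as `x` in dimensions `≤ m` and commutes with faces
of dimension `> m` and with maps. For `i > m` let `Y i = yo C (T3 m i _)` with generic cells
`a, y, a'` (`res (g1 ..) (gen ..)` etc., `cmp_res`), and for `Cmp m e e' x`, `x` of dimension `i`, let
`ev e e' x : Y i ⟶ X` be `yel` of the glued element (`exists_glue3`, choice; `glue3_ext` gives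
`ev e e' x ≫ f = ev (f e) (f e') (f x)`). Define by well-founded recursion on `i`
cells `ψ i : cell (Y i) (i + 1)`; for `x` of dimension `j` let
`φ x : Dat X (m+1) j := fun i _ hi b => ap (ev e e' (fc hi b x)) (ψ i)`; `ψ i` is chosen (if it
exists, else `one y`) with `src (ψ i) = Tr (m+1) i (φ y) y` and `tgt (ψ i) = V a a' y`.
Strong induction on `i`: if this holds below `i` then `Bd (m+1) j (φ x) x` for all `x` of
dimension `j ≤ i` (`ap_Tr`), and `Tr (m+1) i (φ y) y` is parallel to `V a a' y` (`fc_Tr_mid`,
`fc_Tr_lo`), so the filler exists (`conn_yo`). Hence `Hot (Tr (m+1) j (φ x) x) (V e e' x)`, and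
`φ x = φ x'` for parallel `x, x'`. (An alternative without well-founded definitions: induction on
`k` for the existence of `ψ` on `m < i < k`, extended with `extLt`.)
Main induction on `r` with `j ≤ m + 1 + r`... : `W_inj` at all levels `> m` gives `Tr_inj` for
`Tr (m+1)` (induction on `k`, `Bd.cmp`, `Par.Tr`), which gives `W_inj` at level `m`:
`W x ≃ W x'` implies `V x ≃ V x'` (`Hot.W`), so `Tr x ≃ Tr x'`.
-/

namespace Vale.Agent.P259B

open CategoryTheory Limits Opposite GlobExt

variable {C : GlobExt} [Contr C] {X : Mod C}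

theorem W_inj {m j : ℕ} {e e' : cell X (m + 1)} {x x' : cell X j} (h : Cmp m e e' x)
    (hp : Par x x') (H : Hot (W m e e' x) (W m e e' x')) : Hot x x' := by
  sorry

theorem Tr_inj {n k j : ℕ} {φ : Dat X n k} {x x' : cell X j} (h : Bd n k φ x) (hp : Par x x')
    (H : Hot (Tr n k φ x) (Tr n k φ x')) : Hot x x' := by
  sorry

end Vale.Agent.P259B
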