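import Vale.Agent.P259B.Hair
import Vale.Agent.P259B.Cy

/-!
# P259, Eta: the universal cylinder is connected.

Plan.
* `cy_lift`: cylinders for identity arrows lift along `JF C (n+1)` once `a0` and the level `n`
  cells are lifted. Induction on `d` with `Cy.trunc`, `Cy.extend`, `Cy.ext_trunc` (for `d = 0` use
  the structure constructor). New level `d`: if `d < n` put `a g = res g a0`; if `d = n` put
  `Ψ g = q g`, `a g = tgt (q g)` (`Tr_of_le`); if `n < d` let `Ψ g` be a lift of `z'.Φ d _ _ g` with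
  source `Tr n d (y.φ _ g) (res g a0)` (`ap_Tr`, `Cy.bd`), `a g = tgt (Ψ g)`; faces by `Cy.fc_Tr`.
  (In the induction the hypothesis on `q` is only available when `n < d`; state it that way.)
* `conn_univ_cy`: `K.right` with `z0' = z0.map K.hom (𝟙 _) _ : Cy n d (𝟙 K.right) S` corepresents
  `Y ↦ Cy n d (𝟙 Y) S` (squares from `K` to `Arrow.mk (𝟙 Y)` are maps `K.right ⟶ Y`). Let `H` be the
  hair on `yo C S` at all `n`-cells of `S` (`exists_hair`, `finite_el`), `η : H ⟶ K.right` given by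
  `yel z0.a0` and `z0.Φ n`. `η` is in `JCof C (n+1)` by `cy_lift` (`JCof.of_lift`, `IsHair.ext`), `H` is
  cofibrant (`cofib_yo`, `IsHair.jcof`) and `ConnLt d` (`conn_hair`); apply `hB`.
-/

namespace Vale.Agent.P259B

open CategoryTheory Limits Opposite GlobExt

variable {C : GlobExt} [Contr C]

theorem cy_lift {n d : ℕ} {Y Y' : Mod C} {p : Y ⟶ Y'} (hp : JF C (n + 1) p) {S : Table}
    (z' : Cy n d (𝟙 Y') S) (a0 : val Y S) (h0 : ap p a0 = z'.a0)
    (q : (disc n ⟶ S) → cell Y (n + 1)) (hq : ∀ g, src (q g) = res g a0)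
    (hq' : ∀ (hn : n < d) g, ap p (q g) = z'.Φ n le_rfl hn g) :
    ∃ z : Cy n d (𝟙 Y) S, z.map p p (by simp) = z' ∧ z.a0 = a0 ∧
      ∀ (hn : n < d) g, z.Φ n le_rfl hn g = q g := by
  sorry

theorem conn_univ_cy {n d : ℕ} (hn : n < d) (hB : BProp C (n + 1) d) (S : Table)
    (K : Arrow (Mod C)) (z0 : (CyF C n d S).obj K)
    (hz : ∀ (B : Arrow (Mod C)) (y : (CyF C n d S).obj B), ∃! α : K ⟶ B,
      (CyF C n d S).map α z0 = y) : ConnLt d K.right := by
  sorry

end Vale.Agent.P259B
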