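import Mathlib

/-!
# P259B, Small: a small family closed under finitary diagram operations.

Plan. Define sets `T r : Set K` by `T 0 = range s`,
`T (r+1) = T r ∪ {op k F z | ∀ j, F.obj j ∈ T r}`. Each `T r` is small: the functors `F : J k ⥤ K` with
values in a small set inject into `Σ o : J k → T r, ∀ j j', (j ⟶ j') → ((o j).1 ⟶ (o j').1)`
(`small_of_injective`, `small_sigma`, `small_pi`; `Functor.ext` or `Functor.hext` for injectivity; or
use a surjection from the functors `J k ⥤ InducedCategory K (Subtype.val ∘ (equivShrink _).symm)`).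
The union is small (`small_iUnion`), closed by finiteness of `J k` and monotonicity; put
`A = Shrink (⋃ r, T r)`.
-/

namespace Vale.Agent.P259B

open CategoryTheory

theorem small_closure {K : Type 1} [Category.{0} K] {ι : Type} (J : ι → Type)
    [∀ k, SmallCategory (J k)] [∀ k, Finite (J k)] (κ : ι → Type)
    (op : ∀ k, (J k ⥤ K) → κ k → K) {ι0 : Type} (s : ι0 → K) :
    ∃ (A : Type) (v : A → K), (∀ i, s i ∈ Set.range v) ∧
      ∀ k (F : J k ⥤ K), (∀ j, F.obj j ∈ Set.range v) → ∀ z, op k F z ∈ Set.range v := by
  sorry

end Vale.Agent.P259B
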