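import Vale.Agent.P259B.PlusB
import Vale.Agent.P259B.Small

/-!
# P259B, Fam: the small family of cofibrant contractible models.

Plan. Apply `small_closure` with `ι = (ℕ × ℕ) ⊕ (ℕ × ℕ)`, shapes `Cl n N` and `Pl n N`, operations
`S ↦ fun τ => (exists_proj S).choose.obj τ` and `F ↦ WU F univ`, seeds `yo C S`. Restrict to the
members that are `Cofib` and `Conn` (`cofib_yo`, `conn_yo`). For `plus`: `F` the chosen replacement of
`S ⋙ inducedFunctor v` (values `Conn` by `TF.conn`, cofibrant by `PCf.cofib`), `w` the face maps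
composed with `ω`, `plus_good`. Choose members `a τ` with `v (a τ) = F.obj τ` and transport with
`eqToHom` (or `Functor.copyObj` with `eqToIso`); `θ j hj b` is `gen` pushed by `wι` at the face;
the universal map is `wu_desc`.
-/

namespace Vale.Agent.P259B

open CategoryTheory Limits Opposite

variable {C : GlobExt}

/-- The conclusion of the grid construction for a diagram `S` in the family. -/
structure PlusData {A : Type} (v : A → Mod C) {n N : ℕ} (S : Cl n N ⥤ InducedCategory (Mod C) v)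
    (w : FaceMaps (S ⋙ inducedFunctor v)) where
  W : Cl n N ⥤ InducedCategory (Mod C) v
  ω : W ⟶ S
  a : A
  can : ∀ τ, v (W.obj τ) ⟶ v a
  can_nat : ∀ τ σ (h : τ ≤ σ), (W.map (homOfLE h)).hom ≫ can σ = can τ
  θ : ∀ j, j < n → Bool → cell (v a) j
  isBd : IsBd θ
  can_face : ∀ j hj b τ hτ, can τ = (ω.app τ).hom ≫ w.w j hj b τ hτ ≫ yel (θ j hj b)
  desc : ∀ (X : Mod C) (x : ∀ τ, v (S.obj τ) ⟶ X) (β : ∀ j, j < n → Bool → cell X j),
    (∀ τ σ (h : τ ≤ σ), (S.map (homOfLE h)).hom ≫ x σ = x τ) → IsBd β →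
    (∀ j hj b τ hτ, w.w j hj b τ hτ ≫ yel (β j hj b) = x τ) →
    ∃ ξ : v a ⟶ X, (∀ τ, can τ ≫ ξ = (ω.app τ).hom ≫ x τ) ∧ ∀ j hj b, ap ξ (θ j hj b) = β j hj b

/-- A small family of cofibrant contractible models closed under the grid construction. -/
structure Family (C : GlobExt) where
  A : Type
  v : A → Mod C
  good : ∀ a, Cofib (v a) ∧ Conn (v a)
  rep : ∀ S : Table, ∃ a, v a = yo C S
  plus : ∀ (n N : ℕ), 0 < N → ∀ (S : Cl n N ⥤ InducedCategory (Mod C) v)
    (w : FaceMaps (S ⋙ inducedFunctor v)), Nonempty (PlusData v S w)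

theorem nonempty_family (C : GlobExt) [Contr C] [HasLL C] : Nonempty (Family C) := by
  sorry

end Vale.Agent.P259B
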