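import Vale.Agent.P259B.Hemi

/-!
# P259B, Radial: the radial comparison of the round disc with the cube `[-1, 1]^n`.

Plan. `ρ x = (‖x‖₂ / ‖x‖∞) • x` and `κ y = (‖y‖∞ / ‖y‖₂ / max 1 ‖y‖∞) • y` (both `0` at `0`);
continuity at `0` from `‖ρ x‖∞ = ‖x‖₂`, `‖κ y‖₂ ≤ ‖y‖∞` (squeeze), elsewhere by `fun_prop`/`ContinuousAt.div`.
At the origin take the scalar `1`.
-/

namespace Vale.Agent.P259B

open Metric

/-- Radial comparison data. -/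
structure Radial (n : ℕ) where
  ρ : C(Disc n, Fin n → ℝ)
  κ : C(Fin n → ℝ, Disc n)
  κ_ρ : ∀ x, κ (ρ x) = x
  ρ_κ : ∀ y, ‖y‖ ≤ 1 → ρ (κ y) = y
  norm_ρ : ∀ x, ‖ρ x‖ = ‖x.1‖
  scal : ∀ x, ∃ l : ℝ, 0 < l ∧ ∀ k, ρ x k = l * x.1 k

theorem nonempty_radial (n : ℕ) : Nonempty (Radial n) := by
  sorry

end Vale.Agent.P259B
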