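import Vale.Agent.P259B.PiT
import Vale.Agent.P259B.Radial

/-!
# P259B, W3: `Π f` is a weak equivalence iff `f` is a weak homotopy equivalence.

Plan. `Disc 0` is a point, so `0`-cells of `Π Y` are points (`pt`), and `iterId u x n` is the constant
map (it factors through `D.map (κ ..)` to the point). `Hot` on `0`-cells is `Joined`
(`htpy_of_cell`, `cell_of_htpy0`). For loops use the homeomorphism of pairs
`(I^n, boundary) ≅ (Disc n, sphere)`, `t ↦ κ (2 t - 1)` with inverse `x ↦ (ρ x + 1)/2` (`Radial`);
`Hot` corresponds to `GenLoop.Homotopic` (`htpy_of_cell`; conversely `cell_of_htpy0` with a constant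
homotopy). This gives bijections `Pi0 (Π Y) ≃ ZerothHomotopy Y`, `PiS u x n ≃ π_ (n+1) Y (pt x)`
commuting with the induced maps; then `Function.Bijective.of_comp_iff` and its variant.
-/

namespace Vale.Agent.P259B

open CategoryTheory Limits Opposite GlobExt

/-- Weak homotopy equivalences of spaces. -/
def WheT : MorphismProperty TopCat.{0} := fun _ _ f =>
  Function.Bijective (zerothMap f.hom) ∧ ∀ x n, Function.Bijective (piMap f.hom (n + 1) x)

theorem weq_pi_iff {C : GlobExt} [Contr C] (D : DExt C) (u : Units C) {Y Z : TopCat.{0}}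
    (f : Y ⟶ Z) : Weq u (D.PiT.map f) ↔ WheT f := by
  sorry

end Vale.Agent.P259B
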