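import Vale.Agent.P259B.Zig
import Vale.Agent.P259B.W3

/-!
# P259B, Final: passage to compactly generated spaces and to the localizations.

Plan.
* `loc_equiv`: `Localization.isEquivalence` with `F = G ⋙ W1.Q`, `F' = Localization.lift F _ W2.Q`;
  the isomorphisms come from `asIso (whiskerRight ev W1.Q)` etc. (`NatIso.isIso_of_isIso_app`,
  `Localization.inverts`) and `Lifting.iso`.
* `exists_kif`: `k Y` is `Y` with the topology `compactlyGenerated.{0} Y` (it is compactly generated since
  maps from compact Hausdorff spaces stay continuous, `continuous_coinduced_rng`); a map from a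
  compactly generated space is continuous into `k Y` iff it is continuous into `Y`
  (`continuous_from_uCompactlyGeneratedSpace`).
* `main`: `D` from `nonempty_dExt`; the disc functor is `D.F` lifted to `CG` (`cg_D0`; pushouts are
  reflected by the fully faithful inclusion, `IsPushout.of_map`), `e n = Iso.refl`. `Pi ≅ ι ⋙ D.PiT`
  (fully faithful `ι`), `Whe f ↔ WheT (ι.map f)` by `Iff.rfl`, `weq_pi_iff`. `PiT.map (ε.app Y)` is an
  isomorphism. Take `G ⋙ k`, and correct `q`, `ev` by these isomorphisms (`Weq.of_isIso`, `Weq.comp`,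
  `Weq.of_comp_left`).
-/

namespace Vale.Agent.P259B

open CategoryTheory Limits Opposite GlobExt

theorem loc_equiv {X Y : Type 1} [Category.{0} X] [Category.{0} Y] {W1 : MorphismProperty X}
    {W2 : MorphismProperty Y} (P : X ⥤ Y) (h : W1 ≤ W2.inverseImage P) (G : Y ⥤ X)
    (hG : W2 ≤ W1.inverseImage G) (Z : Y ⥤ Y) (p : Z ⟶ 𝟭 Y) (q : Z ⟶ G ⋙ P)
    (ev : P ⋙ G ⟶ 𝟭 X) (hp : ∀ y, W2 (p.app y)) (hq : ∀ y, W2 (q.app y))
    (hev : ∀ x, W1 (ev.app x)) :
    ((LocalizerMorphism.mk P h).localizedFunctor W1.Q W2.Q).IsEquivalence := by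
  sorry

theorem exists_kif : ∃ (k : TopCat.{0} ⥤ CG)
    (ε : k ⋙ CompactlyGenerated.compactlyGeneratedToTop ⟶ 𝟭 TopCat.{0}),
    ∀ (Z Y : TopCat.{0}) [UCompactlyGeneratedSpace.{0} Z],
      Function.Bijective fun f : Z ⟶ (k.obj Y).toTop => f ≫ ε.app Y := by
  sorry

theorem main (C : GlobExt) (hC : Coherator C) :
    Nonempty (Units C) ∧ ∃ D : DiscFunctor C, ∀ u : Units C,
      ∃ h : Whe ≤ (Weq u).inverseImage D.Pi,
        ((LocalizerMorphism.mk D.Pi h).localizedFunctor Whe.Q (Weq u).Q).IsEquivalence := by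
  sorry

end Vale.Agent.P259B
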