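import Mathlib

/-!
# P259B, Grid: the cubical grid on `[-2N, 2N]^n`.

A cell is coded by its centre `τ : Fin n → ℤ`; an even coordinate is a vertex, an odd coordinate `a`
is the interval `[a - 1, a + 1]`. `rad a = a % 2`.

Plan. Everything is coordinatewise; use `Int.emod_two_eq_zero_or_one`, `abs_le`, `abs_lt`, `omega`,
and casts. The carrier of `z` has `k`-th coordinate `2 ⌊z k / 2⌋` if `z k = 2 ⌊z k / 2⌋`, and
`2 ⌊z k / 2⌋ + 1` otherwise. `opn_chain`: if `θ ≤ θ'` are the thresholds of `σ`, `τ` then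
`τ ≤ σ` (an odd coordinate of `τ` with `|z - τ| < 1 - θ'` cannot have `σ` even with `|z - σ| < θ`).
`opn_cover`: choose `θ ∈ (0,1)` different from the finitely many distances of `z k` to `2ℤ`
(`Set.Infinite.exists_notMem_finset`, `Set.Ioo_infinite`). `exists_mu`: `IsOpen.exists_contDiff_support_eq`
or `Metric.infDist` to the complement. `exists_idx`: `LinearExtension`, `Fintype.orderIsoFinOfCardEq`
(or `monoEquivOfFin`), then shift below `N0`.
-/

namespace Vale.Agent.P259B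

open Set

/-- Radius of a coordinate. -/
def rad (a : ℤ) : ℤ := a % 2

/-- Cells of the grid. -/
def Cl (n N : ℕ) : Type := {τ : Fin n → ℤ // ∀ k, |τ k| ≤ 2 * N}

variable {n N : ℕ}

instance : PartialOrder (Cl n N) where
  le τ σ := ∀ k, |τ.1 k - σ.1 k| + rad (τ.1 k) ≤ rad (σ.1 k)
  le_refl := by sorry
  le_trans := by sorry
  le_antisymm := by sorry

theorem Cl.le_def {τ σ : Cl n N} : τ ≤ σ ↔ ∀ k, |τ.1 k - σ.1 k| + rad (τ.1 k) ≤ rad (σ.1 k) :=
  Iff.rfl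

instance : Finite (Cl n N) := by
  sorry

/-- The centre. -/
def Cl.ctr (τ : Cl n N) : Fin n → ℝ := fun k => τ.1 k

/-- The closed cell. -/
def Cl.cel (τ : Cl n N) : Set (Fin n → ℝ) := {z | ∀ k, |z k - τ.1 k| ≤ rad (τ.1 k)}

/-- The closed star. -/
def Cl.star (τ : Cl n N) : Set (Fin n → ℝ) := {z | ∀ k, |z k - τ.1 k| ≤ 2 - rad (τ.1 k)}

/-- The open sets of the barycentric cover. -/
def Cl.opn (τ : Cl n N) : Set (Fin n → ℝ) :=
  {z | ∃ θ : ℝ, 0 < θ ∧ θ < 1 ∧ ∀ k, |z k - τ.1 k| < if rad (τ.1 k) = 0 then θ else 1 - θ}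

/-- The cube. -/
def box (n N : ℕ) : Set (Fin n → ℝ) := {z | ∀ k, |z k| ≤ 2 * N}

/-- The boundary of the cube. -/
def bdS (n N : ℕ) : Set (Fin n → ℝ) := {z | z ∈ box n N ∧ ∃ k, |z k| = 2 * N}

/-- The globular face of dimension `j` and sign `b`. -/
def faceS (n N j : ℕ) (b : Bool) : Set (Fin n → ℝ) :=
  {z | z ∈ bdS n N ∧ (∀ k : Fin n, j < k.1 → z k = 0) ∧
    ∀ k : Fin n, k.1 = j → if b then 0 ≤ z k else z k ≤ 0}

/-- Cells in the boundary. -/
def bdC (n N : ℕ) : Set (Cl n N) := {τ | τ.ctr ∈ bdS n N}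

/-- Cells in a globular face. -/
def faceC (n N j : ℕ) (b : Bool) : Set (Cl n N) := {τ | τ.ctr ∈ faceS n N j b}

/-- Cells in the sphere of dimension `j - 1`. -/
def sphC (n N j : ℕ) : Set (Cl n N) := {τ | τ ∈ bdC n N ∧ ∀ k : Fin n, j ≤ k.1 → τ.1 k = 0}

namespace Cl

theorem ctr_mem_cel (τ : Cl n N) : τ.ctr ∈ τ.cel := by
  sorry

theorem cel_mono {τ σ : Cl n N} (h : τ ≤ σ) : τ.cel ⊆ σ.cel := by
  sorry

theorem cel_subset_star (τ : Cl n N) : τ.cel ⊆ τ.star := by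
  sorry

theorem star_anti {τ σ : Cl n N} (h : τ ≤ σ) : σ.star ⊆ τ.star := by
  sorry

theorem opn_subset_star (τ : Cl n N) : τ.opn ⊆ τ.star := by
  sorry

theorem cel_subset_box (τ : Cl n N) : τ.cel ⊆ box n N := by
  sorry

theorem isOpen_opn (τ : Cl n N) : IsOpen τ.opn := by
  sorry

theorem isCompact_cel (τ : Cl n N) : IsCompact τ.cel := by
  sorry

theorem convex_cel (τ : Cl n N) : Convex ℝ τ.cel := by
  sorry

theorem convex_star (τ : Cl n N) : Convex ℝ τ.star := by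
  sorry

theorem norm_sub_le_of_star {τ : Cl n N} {z : Fin n → ℝ} (h : z ∈ τ.star) : ‖z - τ.ctr‖ ≤ 2 := by
  sorry

theorem opn_chain {τ σ : Cl n N} {z : Fin n → ℝ} (h : z ∈ τ.opn) (h' : z ∈ σ.opn) :
    τ ≤ σ ∨ σ ≤ τ := by
  sorry

theorem opn_cover {z : Fin n → ℝ} (h : z ∈ box n N) : ∃ τ : Cl n N, z ∈ τ.opn := by
  sorry

/-- The carrier of a point of the cube. -/
theorem exists_car {z : Fin n → ℝ} (h : z ∈ box n N) :
    ∃ τ : Cl n N, ∀ σ : Cl n N, z ∈ σ.cel ↔ τ ≤ σ := by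
  sorry

theorem cel_subset_ball (σ : Cl n N) : σ.cel ⊆ Metric.closedBall σ.ctr 1 := by
  sorry

theorem cel_radial (σ : Cl n N) : ∀ z ∈ σ.cel, z ≠ σ.ctr →
    σ.ctr + ‖z - σ.ctr‖⁻¹ • (z - σ.ctr) ∈ σ.cel := by
  sorry

theorem cel_sphere (σ : Cl n N) :
    σ.cel ∩ Metric.sphere σ.ctr 1 = ⋃ τ ∈ {τ : Cl n N | τ < σ}, τ.cel := by
  sorry

theorem cel_subset_bdS {σ : Cl n N} (h : σ ∈ bdC n N) : σ.cel ⊆ bdS n N := by
  sorry

theorem mem_bdC_of_car {z : Fin n → ℝ} (hz : z ∈ bdS n N) {τ : Cl n N}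
    (h : ∀ σ : Cl n N, z ∈ σ.cel ↔ τ ≤ σ) : τ ∈ bdC n N := by
  sorry

theorem cel_subset_faceS {j : ℕ} {b : Bool} {σ : Cl n N} (h : σ ∈ faceC n N j b) :
    σ.cel ⊆ faceS n N j b := by
  sorry

theorem face_of_opn {j : ℕ} {b : Bool} {τ : Cl n N} {z : Fin n → ℝ} (hz : z ∈ faceS n N j b)
    (h : z ∈ τ.opn) : τ ∈ faceC n N j b ∧ segment ℝ z τ.ctr ⊆ faceS n N j b := by
  sorry

end Cl

theorem isLowerSet_bdC : IsLowerSet (bdC n N) := by
  sorry

theorem isLowerSet_faceC (j : ℕ) (b : Bool) : IsLowerSet (faceC n N j b) := by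
  sorry

theorem isLowerSet_sphC (j : ℕ) : IsLowerSet (sphC n N j) := by
  sorry

theorem faceS_mono {m j : ℕ} (h : m < j) (e b : Bool) : faceS n N m e ⊆ faceS n N j b := by
  sorry

theorem faceC_mono {m j : ℕ} (h : m < j) (e b : Bool) : faceC n N m e ⊆ faceC n N j b :=
  fun _ hτ => faceS_mono h e b hτ

theorem sphC_zero (hN : 0 < N) : sphC n N 0 = ∅ := by
  sorry

theorem faceC_union (j : ℕ) : faceC n N j false ∪ faceC n N j true = sphC n N (j + 1) := by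
  sorry

theorem faceC_inter (j : ℕ) : faceC n N j false ∩ faceC n N j true = sphC n N j := by
  sorry

theorem exists_mu (n N : ℕ) : ∃ μ : Cl n N → C(Fin n → ℝ, ℝ),
    (∀ τ z, 0 ≤ μ τ z) ∧ ∀ τ z, 0 < μ τ z ↔ z ∈ τ.opn := by
  sorry

theorem exists_idx (P : Type) [PartialOrder P] [Finite P] (N0 : ℤ) :
    ∃ idx : P → ℤ, Function.Injective idx ∧ Monotone idx ∧ ∀ τ, idx τ < N0 := by
  sorry

end Vale.Agent.P259B
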