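import Vale.Agent.P259B.Grid
import Vale.Agent.P259B.Cone

/-!
# P259B, GridW: a grid adapted to a map into a chain space.

Plan.
* `exists_gridW`: apply `exists_trunc` on the compact ball of radius `2`; the finitely many `t0 · i`,
  `i ∈ I0`, are uniformly continuous there; choose `N` with `2 / N < δ`. Put
  `s z i = max (t0 ((2N)⁻¹ • z) i - ε) 0` for `i ∈ I0` and `0` otherwise, `N0 = min I0`, and let `m τ` be
  the least `i ∈ I0` with `0 < s z i` for some `z ∈ τ.star` (`Finset.min'`; the centre shows that the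
  set is nonempty). Two points of a star are at distance `≤ 4` (`norm_sub_le_of_star`), and
  `(2N)⁻¹ • z` has norm `≤ 2` on stars.
* `exists_gridS`: let `⟨S τ, x τ⟩` be the label of `c τ.ctr` at `m τ`; `ob_const`, `ar_const` on the
  convex stars; for `τ ≤ σ` the arrow is given by `rel` at `σ.ctr`; functoriality by `ar_id`,
  `ar_comp`, `Arrow.mk_injective`.
-/

namespace Vale.Agent.P259B

open CategoryTheory Opposite

/-- A grid and truncated weights adapted to the weights `t`. -/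
structure GridW (n N : ℕ) (t : (Fin n → ℝ) → ℤ → ℝ) where
  s : C(Fin n → ℝ, ℤ → ℝ)
  N0 : ℤ
  m : Cl n N → ℤ
  nonneg : ∀ z i, 0 ≤ s z i
  ne : ∀ z ∈ box n N, ∃ i, 0 < s z i
  sub : ∀ z i, 0 < s z i → N0 ≤ i ∧ 0 < t z i
  le : ∀ τ : Cl n N, ∀ z ∈ τ.star, ∀ i, 0 < s z i → m τ ≤ i ∧ ∀ z' ∈ τ.star, 0 < t z' i
  pos : ∀ τ : Cl n N, ∀ z ∈ τ.star, 0 < t z (m τ)
  mono : Monotone m

theorem exists_gridW {n : ℕ} (t0 : C(Fin n → ℝ, ℤ → ℝ)) (hne : ∀ y, ∃ i, 0 < t0 y i) :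
    ∃ N : ℕ, 0 < N ∧ Nonempty (GridW n N fun z => t0 ((2 * N : ℝ)⁻¹ • z)) := by
  sorry

theorem exists_gridS {A : Type} [SmallCategory A] {ξ : Aᵒᵖ ⥤ Type} {n N : ℕ}
    (c : C(Fin n → ℝ, Mil ξ)) (m : Cl n N → ℤ) (hm : Monotone m)
    (hpos : ∀ τ : Cl n N, ∀ z ∈ τ.star, 0 < (c z).t (m τ)) :
    ∃ (S : Cl n N ⥤ A) (x : ∀ τ, ξ.obj (op (S.obj τ))),
      (∀ τ : Cl n N, ∀ z ∈ τ.star, (c z).ob (m τ) = some ⟨S.obj τ, x τ⟩) ∧
      (∀ (τ σ : Cl n N) (h : τ ≤ σ), ∀ z ∈ σ.star,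
        (c z).ar (m τ) (m σ) = some (Arrow.mk (S.map (homOfLE h)))) ∧
      ∀ (τ σ : Cl n N) (h : τ ≤ σ), x τ = ξ.map (S.map (homOfLE h)).op (x σ) := by
  sorry

end Vale.Agent.P259B
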