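import Vale.Agent.P259B.Theta

/-!
# P259, HairT: gluing an `(n+1)`-disc along (a cell parallel to) an `n`-cell of a table gives a
table.

Plan. Write `lastTgt T h : disc n ⟶ T` (for `h : n ≤ T.last`) for the target `n`-face of the last
disc (`gface _ true ≫ T.lastι` if `n < T.last`, and `T.lastι` itself if `n = T.last`; it is
convenient to introduce `tle (h : n ≤ l) : disc n ⟶ disc l`, the identity or `gface _ true`, with
`gface h' b ≫ tle h = gface _ b`).
* (End) For `n ≤ T.last` there are `T''` with `T''.last = n + 1`, `θ : T ⟶ T''` such that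
  `K` sends `(lastTgt T, gface _ false; θ, T''.lastι)` to a pushout. If `n < T.last` take
  `T.snoc n (n+1)`. If `n = T.last`: `T = disc n`, take `disc (n+1)`; `T = T0.snoc j n`, take
  `T0.snoc j (n+1)`, `θ` from the pushout property in `Table` (`sums_id`), and the pasting lemma
  (`IsPushout.of_left`, `of_top`, `paste_horiz`, ... applied to the images under `K`).
* (Main) by `Table.ind`, for every `c : disc n ⟶ T`: either (a) `n ≤ T.last` and
  `TPar (lastTgt T) c`, or (b) there are `T' θ c1 p` as in the theorem with, in addition,
  `T'.last = T.last` and `T.lastι ≫ θ = T'.lastι` (state it with `T' = ⟨T.last, t⟩`,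
  `t : Tab T.last`, to avoid casts). Step `T = T0.snoc j i`, `snoc_cases c`: a cell of the last disc
  gives (a). For `c = c0 ≫ inl`: case (b) for `T0`: take `T0'.snoc j i`; the square
  `T0 → T, T0' → T'` is a pushout after `K` by pasting. Case (a) for `T0` and `n ≤ j`: (a) holds for
  `T` by `snoc_w`. Case (a) and `j < n`: take `T0''` from (End) and `T0''.snoc j i`.
* The theorem: (a) is turned into the conclusion by (End).
-/

namespace Vale.Agent.P259B

open CategoryTheory Limits Opposite

universe v u

/-- Parallel cells of a table. -/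
def TPar {T : Table} {n : ℕ} (c c' : disc n ⟶ T) : Prop :=
  ∀ m (h : m < n) b, gface h b ≫ c = gface h b ≫ c'

theorem hair_table {E : Type u} [Category.{v} E] {K : Table ⥤ E} (hK : PreservesSums K)
    (T : Table) (n : ℕ) (c : disc n ⟶ T) :
    ∃ (T' : Table) (θ : T ⟶ T') (c1 : disc n ⟶ T) (p : disc (n + 1) ⟶ T'), TPar c1 c ∧
      IsPushout (K.map c1) (K.map (gface (Nat.lt_succ_self n) false)) (K.map θ) (K.map p) := by
  sorry

end Vale.Agent.P259B
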