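import Vale.Agent.P259B.Ops
import Vale.Agent.P259B.Colim
import Vale.Agent.P259B.HairT

/-!
# P259, Hair: freely attached cells with prescribed source.

Plan.
* `exists_hair`: pushout of `∐ yo (disc n) ⟶ ∐ yo (disc (n+1))` along `Sigma.desc (yel ∘ x)`.
* `IsHair.jcof`: `JCof.of_lift`, choose the lifts of the `p k` one by one, `desc`, `ext`.
* `hair_slide`: choose `β k : x' k ⟶ x k`. Let `H2` be the hair on `H'` at the `(n+1)`-cells
  `q k = cmp (inv (ap a' (β k))) (p' k)`, with new cells `r k`. It is `ConnLt d` by `hB` (`H'` is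
  cofibrant). `H` is a retract: `H ⟶ H2` sends `p k` to `tgt (r k)`; `H2 ⟶ H` is
  `p' k ↦ cmp (ap a (β k)) (p k)` on `H'` and sends `r k` to the cell given by `hot_cmp_inv`.
* `conn_hair`: `Finite.induction_empty_option` on `ι`, for all `T c H a p` (the equivalence case is
  reindexing; the empty case: `a` has a section-retraction pair and `conn_yo`). For `Option ι`: take
  `T', θ, c1, p1` from `hair_table (sums_yo C)` for `c none`; slide the hair at `c none` to `c1`
  (`conn_yo` gives `Hot`, from `TPar`), and observe with `IsHair.option` that the slid object is a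
  hair over `yo C T'` at the cells `c (some k) ≫ θ`.
-/

namespace Vale.Agent.P259B

open CategoryTheory Limits Opposite GlobExt

variable {C : GlobExt}

/-- `H` is obtained from `X` by freely adding cells `p k` with source `x k`. -/
structure IsHair {X H : Mod C} {n : ℕ} {ι : Type} (x : ι → cell X n) (a : X ⟶ H)
    (p : ι → cell H (n + 1)) : Prop where
  src : ∀ k, src (p k) = ap a (x k)
  desc : ∀ (Y : Mod C) (a' : X ⟶ Y) (p' : ι → cell Y (n + 1)),
    (∀ k, P259B.src (p' k) = ap a' (x k)) → ∃ α : H ⟶ Y, a ≫ α = a' ∧ ∀ k, ap α (p k) = p' k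
  ext : ∀ (Y : Mod C) (α β : H ⟶ Y), a ≫ α = a ≫ β → (∀ k, ap α (p k) = ap β (p k)) → α = β

/-- Expansions in dimensions `≥ n` of cofibrant models preserve connectivity below `d`. -/
def BProp (C : GlobExt) (n d : ℕ) : Prop :=
  ∀ (X X' : Mod C) (i : X ⟶ X'), Cofib X → JCof C n i → ConnLt d X → ConnLt d X'

theorem exists_hair {X : Mod C} {n : ℕ} {ι : Type} (x : ι → cell X n) :
    ∃ (H : Mod C) (a : X ⟶ H) (p : ι → cell H (n + 1)), IsHair x a p := by
  sorry

theorem IsHair.jcof {X H : Mod C} {n : ℕ} {ι : Type} {x : ι → cell X n} {a : X ⟶ H}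
    {p : ι → cell H (n + 1)} (h : IsHair x a p) : JCof C n a := by
  sorry

theorem IsHair.option {X X1 H : Mod C} {n : ℕ} {ι : Type} {x : Option ι → cell X n} {a : X ⟶ H}
    {p : Option ι → cell H (n + 1)} (h : IsHair x a p) {θ : X ⟶ X1} {q : cell X1 (n + 1)}
    (sq : IsPushout (yel (x none)) (ymap C (gface (Nat.lt_succ_self n) false)) θ (yel q)) :
    ∃ a1 : X1 ⟶ H, IsHair (fun k => ap θ (x (some k))) a1 (fun k => p (some k)) := by
  sorry

variable [Contr C]

theorem hair_slide {n d : ℕ} (hB : BProp C (n + 1) d) {X H H' : Mod C} (hX : Cofib X) {ι : Type}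
    {x x' : ι → cell X n} {a : X ⟶ H} {p : ι → cell H (n + 1)} {a' : X ⟶ H'}
    {p' : ι → cell H' (n + 1)} (h : IsHair x a p) (h' : IsHair x' a' p')
    (hx : ∀ k, Hot (x' k) (x k)) (hc : ConnLt d H') : ConnLt d H := by
  sorry

theorem conn_hair {n d : ℕ} (hB : BProp C (n + 1) d) {ι : Type} [Finite ι] {T : Table}
    (c : ι → (disc n ⟶ T)) {H : Mod C} {a : yo C T ⟶ H} {p : ι → cell H (n + 1)}
    (h : IsHair (fun k => res (c k) (gen C T)) a p) : ConnLt d H := by
  sorry

end Vale.Agent.P259B
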