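import Vale.Agent.P259B.Ball

/-!
# P259B, Hemi: hemispheres, gluing on spheres, cells from homotopies.

Plan.
* `prj` keeps the first `m` coordinates (norm does not increase). A point `x` of `Sph (k+1)` is
  `emb _ b (prj x)` with `b` the sign of the last coordinate (`‖x‖² = ‖prj x‖² + x_last²`).
* `sph_glue`: `n = 0`: `Sph 0` is empty. `n = k + 1`: on the closed sets `x_last ≤ 0`, `x_last ≥ 0` use
  `G k _ false (prj x, z)` and `G k _ true (prj x, z)`; on the intersection `prj x` lies on the sphere,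
  so `sph_cases` and `hG` show that they agree.
* `cell_of_htpy0`: for `w = (x, z)` in `Disc (n+1)`, `ρ = ‖w‖`, let
  `R w = (x / max ρ (1/2), max (2ρ - 1) 0)`, and `K w = F (R w)` for `z ≤ 0`, `F' (R w)` for `z ≥ 0`.
* `htpy_of_cell`: `H (x, s) = K (x, (2 s - 1) √(1 - ‖x‖²))`.
* `box_cell`: `c = (f ∪ h) ∘ R` with `R x = (x / max ‖x‖ (1/2), max (2‖x‖ - 1) 0)`, i.e. `c x = f (2x)` for
  `‖x‖ ≤ 1/2` and `h (x/‖x‖, 2‖x‖ - 1)` otherwise. Extend into the disc `Disc (n+1)` (`nc_disc`,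
  `NC.extend_cyl`) the maps `emb false (x/2)`, `emb true x`, `emb false ((1+s)/2 • x)`, and compose
  with `K`.
* `path_lift`: with `Δ x = x_last + √(1 - ‖prj x‖²) ∈ [0, 2]`, let `pt (x, s)` have the first coordinates
  of `x` and last coordinate `max (-√(1 - ‖prj x‖²)) (x_last - 4 s)`; `F (x, s) = F0 (pt (x, s))` for
  `s ≤ Δ/4` and `h (prj x, (s - Δ/4)/(1 - Δ/4))` otherwise.
* `disc_sdr`: the straight line from `x` to `emb h b (prj x)`.
-/

namespace Vale.Agent.P259B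

open unitInterval Metric

/-- Projection to the first coordinates. -/
noncomputable def prj {m n : ℕ} (h : m ≤ n) : C(Disc n, Disc m) where
  toFun x := ⟨WithLp.toLp 2 fun i => x.1 (Fin.castLE h i), by sorry⟩
  continuous_toFun := by sorry

theorem prj_apply {m n : ℕ} (h : m ≤ n) (x : Disc n) (i : Fin m) :
    (prj h x).1 i = x.1 (Fin.castLE h i) := rfl

theorem emb_apply {m n : ℕ} (h : m < n) (b : Bool) (x : Disc m) (i : Fin n) :
    (emb h b x).1 i = if h : i.1 < m then x.1 ⟨i.1, h⟩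
      else if i.1 = m then (if b then 1 else -1) * √(1 - ‖x.1‖ ^ 2) else 0 := rfl

theorem norm_emb {m n : ℕ} (h : m < n) (b : Bool) (x : Disc m) : ‖(emb h b x).1‖ = 1 :=
  norm_embV h b x

theorem prj_emb {m n : ℕ} (h : m < n) (b : Bool) (x : Disc m) : prj h.le (emb h b x) = x := by
  sorry

theorem emb_emb {l m n : ℕ} (h : l < m) (h' : m < n) (b b' : Bool) (x : Disc l) :
    emb h' b' (emb h b x) = emb (h.trans h') b x := by
  sorry

theorem emb_sph {m n : ℕ} (h : m < n) (b b' : Bool) (x : Disc m) (hx : ‖x.1‖ = 1) :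
    emb h b x = emb h b' x := by
  sorry

/-- A point of norm one with vanishing coordinates above `j` and the right sign at `j`. -/
theorem eq_emb_prj {j n : ℕ} (h : j < n) (b : Bool) (x : Disc n) (hx : ‖x.1‖ = 1)
    (hz : ∀ k : Fin n, j < k.1 → x.1 k = 0)
    (hs : if b then 0 ≤ x.1 ⟨j, h⟩ else x.1 ⟨j, h⟩ ≤ 0) : x = emb h b (prj h.le x) := by
  sorry

theorem sph_cases {n : ℕ} (x : Disc n) (hx : ‖x.1‖ = 1) :
    ∃ (j : ℕ) (h : j < n) (b : Bool) (y : Disc j), x = emb h b y := by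
  sorry

variable {Y Z : Type} [TopologicalSpace Y] [TopologicalSpace Z]

theorem sph_glue {n : ℕ} (G : ∀ j, j < n → Bool → C(Disc j × Z, Y))
    (hG : ∀ j hj b m (h : m < j) e y z, G j hj b (emb h e y, z) = G m (h.trans hj) e (y, z)) :
    ∃ g : C(Sph n × Z, Y), ∀ j hj b y z, g (⟨emb hj b y, norm_emb hj b y⟩, z) = G j hj b (y, z) := by
  sorry

theorem sph_glue' {n : ℕ} (G : ∀ j, j < n → Bool → C(Disc j, Y))
    (hG : ∀ j hj b m (h : m < j) e y, G j hj b (emb h e y) = G m (h.trans hj) e y) :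
    ∃ g : C(Sph n, Y), ∀ j hj b y, g ⟨emb hj b y, norm_emb hj b y⟩ = G j hj b y := by
  sorry

theorem cell_of_htpy0 {n : ℕ} (F F' : C(Disc n × I, Y)) (h0 : ∀ x, F (x, 0) = F' (x, 0))
    (hs : ∀ (x : Disc n) s, ‖x.1‖ = 1 → F (x, s) = F' (x, s)) :
    ∃ K : C(Disc (n + 1), Y), (∀ x, K (emb (Nat.lt_succ_self n) false x) = F (x, 1)) ∧
      ∀ x, K (emb (Nat.lt_succ_self n) true x) = F' (x, 1) := by
  sorry

theorem cell_of_htpy1 {n : ℕ} (F F' : C(Disc n × I, Y)) (h1 : ∀ x, F (x, 1) = F' (x, 1))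
    (hs : ∀ (x : Disc n) s, ‖x.1‖ = 1 → F (x, s) = F' (x, s)) :
    ∃ K : C(Disc (n + 1), Y), (∀ x, K (emb (Nat.lt_succ_self n) false x) = F (x, 0)) ∧
      ∀ x, K (emb (Nat.lt_succ_self n) true x) = F' (x, 0) := by
  sorry

theorem htpy_of_cell {n : ℕ} (K : C(Disc (n + 1), Y)) :
    ∃ H : C(Disc n × I, Y), (∀ x, H (x, 0) = K (emb (Nat.lt_succ_self n) false x)) ∧
      (∀ x, H (x, 1) = K (emb (Nat.lt_succ_self n) true x)) ∧
      ∀ (x : Disc n) s, ‖x.1‖ = 1 → H (x, s) = K (emb (Nat.lt_succ_self n) false x) := by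
  sorry

theorem box_cell {n : ℕ} (f : C(Disc n, Y)) (h : C(Sph n × I, Y)) (h0 : ∀ x, h (x, 0) = f x.1) :
    ∃ c : C(Disc n, Y), (∀ x : Sph n, c x.1 = h (x, 1)) ∧
      ∀ K : C(Disc (n + 1), Y), (∀ x, K (emb (Nat.lt_succ_self n) false x) = c x) →
        ∃ F : C(Disc n × I, Y), (∀ x, F (x, 0) = f x) ∧ (∀ (x : Sph n) s, F (x.1, s) = h (x, s)) ∧
          ∀ x, F (x, 1) = K (emb (Nat.lt_succ_self n) true x) := by
  sorry

theorem path_lift {m : ℕ} (F0 : C(Disc (m + 1), Y)) (h : C(Disc m × I, Y)) (y0 : Y)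
    (h0 : ∀ x, h (x, 0) = F0 (emb (Nat.lt_succ_self m) false x)) (h1 : ∀ x, h (x, 1) = y0) :
    ∃ F : C(Disc (m + 1) × I, Y), (∀ x, F (x, 0) = F0 x) ∧ (∀ x, F (x, 1) = y0) ∧
      ∀ x s, F (emb (Nat.lt_succ_self m) false x, s) = h (x, s) := by
  sorry

theorem disc_sdr {m n : ℕ} (h : m < n) (b : Bool) :
    ∃ δ : C(Disc n × I, Disc n), (∀ x, δ (x, 0) = x) ∧ (∀ x, δ (x, 1) = emb h b (prj h.le x)) ∧
      ∀ y s, δ (emb h b y, s) = emb h b y := by
  sorry

end Vale.Agent.P259B
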