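import Vale.Agent.P259B.Cells

/-!
# P259, LL: the lifting lemma for coherators and its functor form.

Plan.
* `Coherator.hasLL`: build by recursion `s k : Mor (stage k) E` with `(s k).comp q = incl k` and
  `(step k).comp (s (k+1)) = s k` (recursion into a subtype, with choice). `s 0` uses `zero`
  (`Function.surjInv` or `Equiv.ofBijective`). For the step, a pair `a ∈ pairs k` is mapped to a pair
  of `E` (a `Mor` preserves `σ`, `τ`, `Par`, `IsLift`), its image under `q` has the lift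
  `(incl (k+1)).map (l a ha)`; choose lifts over it, take `s (k+1)` from the universal property, and
  use uniqueness (target `C`) for `(s (k+1)).comp q = incl (k+1)`. Then `colim` twice.
* `exists_ext`: let `E` have morphisms `Shrink.{0} {p : (⟨S⟩ ⟶ ⟨T⟩) × (K.obj S ⟶ K.obj T) // Rel p.1 p.2}`
  (or first treat `v = 0` without `Shrink` and then apply it to the category
  `ShrinkHoms (InducedCategory V K.obj)`); identities come from `hι` (`C.map_id`); the pushout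
  property from `C.sums` and `hglue`; the lifting hypothesis from `hlift` (parallel in `E` gives the
  hypothesis for all faces through `gface_comp`). The section gives the functor.
-/

namespace Vale.Agent.P259B

open CategoryTheory Limits Opposite GlobExt

universe v u

/-- The lifting lemma as a property of `C`. -/
class HasLL (C : GlobExt) : Prop where
  ll : ∀ (E : GlobExt) (q : Mor E C),
    (∀ a : E.Pair, a.S.dim ≤ a.n + 1 → ∀ h, C.IsLift (q.map a.f) (q.map a.g) h →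
      ∃ h', E.IsLift a.f a.g h' ∧ q.map h' = h) →
    ∃ s : Mor C E, ∀ (S T : Table) (f : (⟨S⟩ : C.Obj) ⟶ ⟨T⟩), q.map (s.map f) = f

theorem Coherator.contr' {C : GlobExt} (h : Coherator C) : Contr C := ⟨h.contr⟩

theorem Coherator.hasLL {C : GlobExt} (h : Coherator C) : HasLL C := by
  sorry

/-- An extension to `C` of a functor on `Θ₀`, compatible with a relation. -/
structure Ext (C : GlobExt) {V : Type u} [Category.{v} V] (K : Table ⥤ V)
    (Rel : ∀ {S T : Table}, ((⟨S⟩ : C.Obj) ⟶ ⟨T⟩) → (K.obj S ⟶ K.obj T) → Prop) where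
  map : ∀ {S T : Table}, ((⟨S⟩ : C.Obj) ⟶ ⟨T⟩) → (K.obj S ⟶ K.obj T)
  map_id : ∀ S : Table, map (𝟙 (⟨S⟩ : C.Obj)) = 𝟙 _
  map_comp : ∀ {S T U : Table} (f : (⟨S⟩ : C.Obj) ⟶ ⟨T⟩) (g : (⟨T⟩ : C.Obj) ⟶ ⟨U⟩),
    map (f ≫ g) = map f ≫ map g
  map_ι : ∀ {S T : Table} (θ : S ⟶ T), map (C.map θ) = K.map θ
  rel : ∀ {S T : Table} (f : (⟨S⟩ : C.Obj) ⟶ ⟨T⟩), Rel f (map f)

/-- The extended functor. -/
def Ext.F {C : GlobExt} {V : Type u} [Category.{v} V] {K : Table ⥤ V}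
    {Rel : ∀ {S T : Table}, ((⟨S⟩ : C.Obj) ⟶ ⟨T⟩) → (K.obj S ⟶ K.obj T) → Prop}
    (e : Ext C K Rel) : C.Obj ⥤ V where
  obj a := K.obj a.tab
  map f := e.map f
  map_id a := e.map_id a.tab
  map_comp f g := e.map_comp f g

theorem exists_ext {C : GlobExt} [HasLL C] {V : Type u} [Category.{v} V] (K : Table ⥤ V)
    (hsmall : ∀ S T, Small.{0} (K.obj S ⟶ K.obj T))
    (Rel : ∀ {S T : Table}, ((⟨S⟩ : C.Obj) ⟶ ⟨T⟩) → (K.obj S ⟶ K.obj T) → Prop)
    (hι : ∀ {S T : Table} (θ : S ⟶ T), Rel (C.map θ) (K.map θ))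
    (hcomp : ∀ {S T U : Table} {f : (⟨S⟩ : C.Obj) ⟶ ⟨T⟩} {g : (⟨T⟩ : C.Obj) ⟶ ⟨U⟩}
      {φ : K.obj S ⟶ K.obj T} {ψ : K.obj T ⟶ K.obj U}, Rel f φ → Rel g ψ → Rel (f ≫ g) (φ ≫ ψ))
    (hglue : ∀ (T : Table) (j i : ℕ) (hl : j < T.last) (hi : j < i) (U : Table)
      (f : (⟨T.snoc j i hl hi⟩ : C.Obj) ⟶ ⟨U⟩) (φ : K.obj T ⟶ K.obj U)
      (ψ : K.obj (disc i) ⟶ K.obj U), Rel (C.map (T.inl j i hl hi) ≫ f) φ →
      Rel (C.map (T.snoc j i hl hi).lastι ≫ f) ψ →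
      K.map (gface hl true ≫ T.lastι) ≫ φ = K.map (gface hi false) ≫ ψ →
      ∃! χ : K.obj (T.snoc j i hl hi) ⟶ K.obj U, Rel f χ ∧ K.map (T.inl j i hl hi) ≫ χ = φ ∧
        K.map (T.snoc j i hl hi).lastι ≫ χ = ψ)
    (hlift : ∀ (n : ℕ) (S : Table), S.dim ≤ n + 1 → ∀ (h : C.D (n + 1) ⟶ ⟨S⟩)
      (φ ψ : K.obj (disc n) ⟶ K.obj S), Rel (C.σ n ≫ h) φ → Rel (C.τ n ≫ h) ψ →
      (∀ m (hm : m < n) b, K.map (gface hm b) ≫ φ = K.map (gface hm b) ≫ ψ) →
      ∃ χ : K.obj (disc (n + 1)) ⟶ K.obj S, Rel h χ ∧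
        K.map (gface (Nat.lt_succ_self n) false) ≫ χ = φ ∧
        K.map (gface (Nat.lt_succ_self n) true) ≫ χ = ψ) :
    Nonempty (Ext C K Rel) := by
  sorry

end Vale.Agent.P259B
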