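import Vale.Agent.P259B.Mil

/-!
# P259B, Low: inserting a chain of a finite poset below a weighted chain.

`glue L q s μ` has the weights `s` on the old indices and `μ τ` at the index `idx τ`; the new objects
are `W τ`, mapped to the old chain through `ω τ : W τ ⟶ S τ`, where `S τ` is the old object at `m τ`.

Plan. First `sel_idx : L.sel (L.idx τ) = some τ`, `lowAt` facts: if `lowAt μ i = some τ` then
`idx τ = i`, `0 < μ τ`, and then `s i = 0` (by `above`); `lw μ i > 0 ↔ lowAt μ i ≠ none`.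
`pull (mk f) ⟨b, y⟩ = ⟨a, ξ.map f.op y⟩`, `acomp (mk f) (mk g) = mk (f ≫ g)`.
The axioms by cases on `lowAt μ i`, `lowAt μ j`, `lowAt μ k`, using `Mil.of_ar` for the anchors,
`ω.naturality`, `ar_comp` of `q`. Two low indices `idx τ ≤ idx σ` satisfy `τ ≤ σ` (`chain`, `idx_mono`,
`idx_inj`). Continuity: `continuous_mil_iff`; a point where `ob i = some e` has an open neighbourhood
(`0 < μ τ`, or `0 < s i`, where all `μ` vanish or all `idx` are below `i`) on which the formula is
constant in its branch.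
-/

namespace Vale.Agent.P259B

open CategoryTheory Opposite Topology

variable {A : Type} [SmallCategory A] {P : Type} [PartialOrder P] {ξ ξ' : Aᵒᵖ ⥤ Type}

/-- Data for inserting a chain. -/
structure LowData (A : Type) [SmallCategory A] (P : Type) [PartialOrder P] where
  idx : P → ℤ
  idx_inj : Function.Injective idx
  idx_mono : Monotone idx
  m : P → ℤ
  S : P ⥤ A
  W : P ⥤ A
  ω : W ⟶ S

open Classical in
/-- Pull an element back along an arrow. -/
noncomputable def pull (l : Arrow A) (e : El ξ) : El ξ :=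
  if h : l.right = e.1 then ⟨l.left, ξ.map (l.hom ≫ eqToHom h).op e.2⟩ else e

open Classical in
/-- Compose arrows. -/
noncomputable def acomp (l l' : Arrow A) : Arrow A :=
  if h : l.right = l'.left then Arrow.mk (l.hom ≫ eqToHom h ≫ l'.hom) else l'

namespace LowData

variable (L : LowData A P)

open Classical in
/-- The element placed at index `i`. -/
noncomputable def sel (i : ℤ) : Option P := if h : ∃ τ, L.idx τ = i then some h.choose else none

open Classical in
/-- The active element placed at index `i`. -/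
noncomputable def lowAt (μ : P → ℝ) (i : ℤ) : Option P :=
  (L.sel i).bind fun τ => if 0 < μ τ then some τ else none

/-- The weight placed at index `i`. -/
noncomputable def lw (μ : P → ℝ) (i : ℤ) : ℝ := ((L.sel i).map μ).getD 0

open Classical in
/-- The arrow between two low elements. -/
noncomputable def lowAr (τ σ : P) : Option (Arrow A) :=
  if h : τ ≤ σ then some (Arrow.mk (L.W.map (homOfLE h))) else none

/-- Admissible low weights. -/
structure Ch (μ : P → ℝ) : Prop where
  nonneg : ∀ τ, 0 ≤ μ τ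
  chain : ∀ τ σ, 0 < μ τ → 0 < μ σ → τ ≤ σ ∨ σ ≤ τ

/-- Admissible data for `glue`. -/
structure Valid (q : Mil ξ) (s : ℤ → ℝ) (μ : P → ℝ) : Prop where
  ch : Ch μ
  nonneg : ∀ i, 0 ≤ s i
  ne : (∃ i, 0 < s i) ∨ ∃ τ, 0 < μ τ
  sub : ∀ i, 0 < s i → 0 < q.t i
  above : ∀ τ i, 0 < μ τ → 0 < s i → L.m τ ≤ i ∧ ∀ σ, L.idx σ < i
  anchor : ∀ τ σ (h : τ ≤ σ), 0 < μ τ → 0 < μ σ →
    q.ar (L.m τ) (L.m σ) = some (Arrow.mk (L.S.map (homOfLE h)))

theorem Valid.map {L : LowData A P} {q : Mil ξ} {s : ℤ → ℝ} {μ : P → ℝ} (h : L.Valid q s μ)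
    (α : ξ ⟶ ξ') : L.Valid (q.map α) s μ :=
  ⟨h.ch, h.nonneg, h.ne, h.sub, h.above, h.anchor⟩

open Classical in
/-- Insert the low chain. -/
noncomputable def glue (q : Mil ξ) (s : ℤ → ℝ) (μ : P → ℝ) (h : L.Valid q s μ) : Mil ξ where
  t i := s i + L.lw μ i
  ob i := match L.lowAt μ i with
    | some τ => (q.ob (L.m τ)).map (pull (Arrow.mk (L.ω.app τ)))
    | none => if 0 < s i then q.ob i else none
  ar i j := match L.lowAt μ i, L.lowAt μ j with
    | some τ, some σ => L.lowAr τ σ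
    | some τ, none =>
        if 0 < s j then (q.ar (L.m τ) j).map (acomp (Arrow.mk (L.ω.app τ))) else none
    | none, some _ => none
    | none, none => if 0 < s i ∧ 0 < s j then q.ar i j else none
  nonneg := by sorry
  ne := by sorry
  ob_none := by sorry
  ar_none := by sorry
  rel := by sorry
  ar_id := by sorry
  ar_comp := by sorry

/-- The low chain alone. -/
noncomputable def low (z : ∀ τ, ξ.obj (op (L.W.obj τ)))
    (hz : ∀ τ σ (h : τ ≤ σ), z τ = ξ.map (L.W.map (homOfLE h)).op (z σ)) (μ : P → ℝ)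
    (h : Ch μ) (hne : ∃ τ, 0 < μ τ) : Mil ξ where
  t := L.lw μ
  ob i := (L.lowAt μ i).map fun τ => ⟨L.W.obj τ, z τ⟩
  ar i j := match L.lowAt μ i, L.lowAt μ j with
    | some τ, some σ => L.lowAr τ σ
    | _, _ => none
  nonneg := by sorry
  ne := by sorry
  ob_none := by sorry
  ar_none := by sorry
  rel := by sorry
  ar_id := by sorry
  ar_comp := by sorry

theorem glue_map (α : ξ ⟶ ξ') (q : Mil ξ) (s : ℤ → ℝ) (μ : P → ℝ) (h : L.Valid q s μ) :
    (L.glue q s μ h).map α = L.glue (q.map α) s μ (h.map α) := by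
  sorry

theorem glue_self (q : Mil ξ) {s : ℤ → ℝ} {μ : P → ℝ} (h : L.Valid q s μ) (hs : s = q.t)
    (hμ : ∀ τ, μ τ = 0) : L.glue q s μ h = q := by
  sorry

theorem glue_low (q : Mil ξ) {s : ℤ → ℝ} {μ : P → ℝ} (h : L.Valid q s μ) (hs : ∀ i, s i = 0)
    (z : ∀ τ, ξ.obj (op (L.W.obj τ)))
    (hz : ∀ τ σ (h : τ ≤ σ), z τ = ξ.map (L.W.map (homOfLE h)).op (z σ)) (hne : ∃ τ, 0 < μ τ)
    (hq : ∀ τ, 0 < μ τ → ∃ x, q.ob (L.m τ) = some ⟨L.S.obj τ, x⟩ ∧ z τ = ξ.map (L.ω.app τ).op x) :
    L.glue q s μ h = L.low z hz μ h.ch hne := by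
  sorry

theorem continuous_glue {K : Type*} [TopologicalSpace K] {c : K → Mil ξ} (hc : Continuous c)
    {s : K → ℤ → ℝ} (hs : Continuous s) {μ : K → P → ℝ} (hμ : Continuous μ)
    (h : ∀ k, L.Valid (c k) (s k) (μ k)) : Continuous fun k => L.glue (c k) (s k) (μ k) (h k) := by
  sorry

theorem continuous_low {K : Type*} [TopologicalSpace K] (z : ∀ τ, ξ.obj (op (L.W.obj τ)))
    (hz : ∀ τ σ (h : τ ≤ σ), z τ = ξ.map (L.W.map (homOfLE h)).op (z σ)) {μ : K → P → ℝ}
    (hμ : Continuous μ) (h : ∀ k, Ch (μ k)) (hne : ∀ k, ∃ τ, 0 < μ k τ) :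
    Continuous fun k => L.low z hz (μ k) (h k) (hne k) := by
  sorry

end LowData

end Vale.Agent.P259B
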