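import Vale.Agent.P259B.Ball

/-!
# P259B, Mil: the space of weighted chains of a category of elements.

A point is a family of weights `t i ≥ 0` (`i : ℤ`, not all zero), for each active index an element
`⟨a, x⟩` of the presheaf `ξ`, and for active `i ≤ j` an arrow, functorially. The topology is generated by
the weights and the (Sierpinski valued) predicates `ob i = some e`, `ar i j = some l`.
`MilD ξ Φ` adds points `d i ∈ Φ (a i)` carried to each other by the arrows.

Plan. `continuous_mil_iff`: `continuous_induced_rng`, `continuous_pi_iff`, `continuous_Prop`.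
`ob_const`, `ar_const`: a function on a preconnected set whose fibres are relatively open is
constant (`IsPreconnected.constant`-like argument with the two open sets `φ = some e` and
`⋃ e' ≠ e, φ = some e'`). `Arrow.mk_injective`, `Arrow.mk_eq_mk_iff` for arrows.
-/

namespace Vale.Agent.P259B

open CategoryTheory Opposite Topology Filter

variable {A : Type} [SmallCategory A]

/-- Elements of a presheaf. -/
abbrev El (ξ : Aᵒᵖ ⥤ Type) : Type := Σ a : A, ξ.obj (op a)

/-- Weighted chains. -/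
@[ext]
structure Mil (ξ : Aᵒᵖ ⥤ Type) where
  t : ℤ → ℝ
  ob : ℤ → Option (El ξ)
  ar : ℤ → ℤ → Option (Arrow A)
  nonneg : ∀ i, 0 ≤ t i
  ne : ∃ i, 0 < t i
  ob_none : ∀ i, ob i = none ↔ t i = 0
  ar_none : ∀ i j, j < i ∨ t i = 0 ∨ t j = 0 → ar i j = none
  rel : ∀ i j, i ≤ j → ∀ a x b y, ob i = some ⟨a, x⟩ → ob j = some ⟨b, y⟩ →
    ∃ f : a ⟶ b, ar i j = some (Arrow.mk f) ∧ x = ξ.map f.op y
  ar_id : ∀ i a x, ob i = some ⟨a, x⟩ → ar i i = some (Arrow.mk (𝟙 a))
  ar_comp : ∀ i j k (a b c : A) (f : a ⟶ b) (g : b ⟶ c), ar i j = some (Arrow.mk f) →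
    ar j k = some (Arrow.mk g) → ar i k = some (Arrow.mk (f ≫ g))

variable {ξ ξ' ξ'' : Aᵒᵖ ⥤ Type}

instance : TopologicalSpace (Mil ξ) :=
  TopologicalSpace.induced (fun p : Mil ξ =>
    ((p.t, fun i e => p.ob i = some e, fun i j l => p.ar i j = some l) :
      (ℤ → ℝ) × (ℤ → El ξ → Prop) × (ℤ → ℤ → Arrow A → Prop))) inferInstance

theorem continuous_mil_iff {K : Type*} [TopologicalSpace K] (c : K → Mil ξ) :
    Continuous c ↔ (∀ i, Continuous fun k => (c k).t i) ∧
      (∀ i e, IsOpen {k | (c k).ob i = some e}) ∧ ∀ i j l, IsOpen {k | (c k).ar i j = some l} := by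
  sorry

theorem Mil.continuous_t : Continuous (Mil.t : Mil ξ → ℤ → ℝ) := by
  sorry

theorem Mil.exists_ob (p : Mil ξ) {i : ℤ} (h : 0 < p.t i) : ∃ a x, p.ob i = some ⟨a, x⟩ := by
  sorry

theorem Mil.pos_of_ob (p : Mil ξ) {i : ℤ} {e : El ξ} (h : p.ob i = some e) : 0 < p.t i := by
  sorry

/-- An arrow of the chain knows its ends. -/
theorem Mil.of_ar (p : Mil ξ) {i j : ℤ} {a b : A} {f : a ⟶ b} (h : p.ar i j = some (Arrow.mk f)) :
    i ≤ j ∧ ∃ y, p.ob i = some ⟨a, ξ.map f.op y⟩ ∧ p.ob j = some ⟨b, y⟩ := by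
  sorry

theorem ob_const {K : Type*} [TopologicalSpace K] {c : K → Mil ξ} {s : Set K}
    (hc : ContinuousOn c s) (hs : IsPreconnected s) {i : ℤ} (h : ∀ k ∈ s, 0 < (c k).t i)
    {k k' : K} (hk : k ∈ s) (hk' : k' ∈ s) : (c k).ob i = (c k').ob i := by
  sorry

theorem ar_const {K : Type*} [TopologicalSpace K] {c : K → Mil ξ} {s : Set K}
    (hc : ContinuousOn c s) (hs : IsPreconnected s) {i j : ℤ} (h : ∀ k ∈ s, 0 < (c k).t i)
    (h' : ∀ k ∈ s, 0 < (c k).t j) {k k' : K} (hk : k ∈ s) (hk' : k' ∈ s) :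
    (c k).ar i j = (c k').ar i j := by
  sorry

/-- Functoriality on elements. -/
def El.map (α : ξ ⟶ ξ') (e : El ξ) : El ξ' := ⟨e.1, α.app (op e.1) e.2⟩

/-- Functoriality in the presheaf. -/
def Mil.map (α : ξ ⟶ ξ') (p : Mil ξ) : Mil ξ' where
  t := p.t
  ob i := (p.ob i).map (El.map α)
  ar := p.ar
  nonneg := p.nonneg
  ne := p.ne
  ob_none := by sorry
  ar_none := p.ar_none
  rel := by sorry
  ar_id := by sorry
  ar_comp := p.ar_comp

theorem Mil.continuous_map (α : ξ ⟶ ξ') : Continuous (Mil.map α) := by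
  sorry

theorem Mil.map_id (p : Mil ξ) : p.map (𝟙 ξ) = p := by
  sorry

theorem Mil.map_comp (α : ξ ⟶ ξ') (β : ξ' ⟶ ξ'') (p : Mil ξ) :
    p.map (α ≫ β) = (p.map α).map β := by
  sorry

/-- Admissible new weights. -/
structure Mil.Rw (p : Mil ξ) (s : ℤ → ℝ) : Prop where
  nonneg : ∀ i, 0 ≤ s i
  ne : ∃ i, 0 < s i
  sub : ∀ i, 0 < s i → 0 < p.t i

open Classical in
/-- Change the weights, forgetting the indices that become inactive. -/
noncomputable def Mil.rw (p : Mil ξ) (s : ℤ → ℝ) (h : p.Rw s) : Mil ξ where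
  t := s
  ob i := if 0 < s i then p.ob i else none
  ar i j := if 0 < s i ∧ 0 < s j then p.ar i j else none
  nonneg := h.nonneg
  ne := h.ne
  ob_none := by sorry
  ar_none := by sorry
  rel := by sorry
  ar_id := by sorry
  ar_comp := by sorry

theorem Mil.rw_self (p : Mil ξ) (h : p.Rw p.t) : p.rw p.t h = p := by
  sorry

theorem Mil.continuous_rw {K : Type*} [TopologicalSpace K] {c : K → Mil ξ} (hc : Continuous c)
    {s : K → ℤ → ℝ} (hs : Continuous s) (h : ∀ k, (c k).Rw (s k)) :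
    Continuous fun k => (c k).rw (s k) (h k) := by
  sorry

/-! ## Chains with points -/

/-- The total space of `Φ`. -/
abbrev Tot (Φ : A ⥤ TopCat.{0}) : Type := Σ a : A, Φ.obj a

/-- Continuity of partial maps: open domain, continuous on it. -/
def PCont {K Y : Type*} [TopologicalSpace K] [TopologicalSpace Y] (φ : K → Option Y) : Prop :=
  ∀ U : Set Y, IsOpen U → IsOpen {k | ∃ y ∈ U, φ k = some y}

theorem pcont_of_local {K Y : Type*} [TopologicalSpace K] [TopologicalSpace Y] {φ : K → Option Y}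
    (h : ∀ k y, φ k = some y → ∃ ψ : K → Y, ContinuousAt ψ k ∧ ∀ᶠ k' in 𝓝 k, φ k' = some (ψ k')) :
    PCont φ := by
  sorry

theorem PCont.local {K Y : Type*} [TopologicalSpace K] [TopologicalSpace Y] {φ : K → Option Y}
    (h : PCont φ) {k : K} {y : Y} (hk : φ k = some y) :
    ContinuousAt (fun k' => (φ k').getD y) k ∧ ∀ᶠ k' in 𝓝 k, φ k' = some ((φ k').getD y) := by
  sorry

theorem PCont.comp {K K' Y : Type*} [TopologicalSpace K] [TopologicalSpace K']
    [TopologicalSpace Y] {φ : K → Option Y} (h : PCont φ) {g : K' → K} (hg : Continuous g) :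
    PCont (φ ∘ g) := fun U hU => (h U hU).preimage hg

/-- Weighted chains with compatible points. -/
@[ext]
structure MilD (ξ : Aᵒᵖ ⥤ Type) (Φ : A ⥤ TopCat.{0}) where
  q : Mil ξ
  dd : ℤ → Option (Tot Φ)
  dd_none : ∀ i, q.t i = 0 → dd i = none
  dd_ob : ∀ i a x, q.ob i = some ⟨a, x⟩ → ∃ d, dd i = some ⟨a, d⟩
  dd_ar : ∀ i j (a b : A) (f : a ⟶ b) d, q.ar i j = some (Arrow.mk f) → dd i = some ⟨a, d⟩ →
    dd j = some ⟨b, Φ.map f d⟩

variable {Φ : A ⥤ TopCat.{0}}

instance : TopologicalSpace (MilD ξ Φ) :=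
  TopologicalSpace.induced (fun p : MilD ξ Φ =>
    ((p.q, fun i U => ∃ y ∈ U.1, p.dd i = some y) :
      Mil ξ × (ℤ → {U : Set (Tot Φ) // IsOpen U} → Prop))) inferInstance

theorem continuous_milD_iff {K : Type*} [TopologicalSpace K] (c : K → MilD ξ Φ) :
    Continuous c ↔ Continuous (fun k => (c k).q) ∧ ∀ i, PCont fun k => (c k).dd i := by
  sorry

theorem MilD.continuous_q : Continuous (MilD.q : MilD ξ Φ → Mil ξ) := by
  sorry

/-- Functoriality in the presheaf. -/
def MilD.map (α : ξ ⟶ ξ') (p : MilD ξ Φ) : MilD ξ' Φ where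
  q := p.q.map α
  dd := p.dd
  dd_none := p.dd_none
  dd_ob := by sorry
  dd_ar := p.dd_ar

theorem MilD.continuous_map (α : ξ ⟶ ξ') : Continuous (MilD.map (Φ := Φ) α) := by
  sorry

open Classical in
/-- Change the weights. -/
noncomputable def MilD.rw (p : MilD ξ Φ) (s : ℤ → ℝ) (h : p.q.Rw s) : MilD ξ Φ where
  q := p.q.rw s h
  dd i := if 0 < s i then p.dd i else none
  dd_none := by sorry
  dd_ob := by sorry
  dd_ar := by sorry

theorem MilD.rw_self (p : MilD ξ Φ) (h : p.q.Rw p.q.t) : p.rw p.q.t h = p := by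
  sorry

theorem MilD.continuous_rw {K : Type*} [TopologicalSpace K] {c : K → MilD ξ Φ}
    (hc : Continuous c) {s : K → ℤ → ℝ} (hs : Continuous s) (h : ∀ k, (c k).q.Rw (s k)) :
    Continuous fun k => (c k).rw (s k) (h k) := by
  sorry

/-- The chain space as a functor. -/
def MilF (A : Type) [SmallCategory A] : (Aᵒᵖ ⥤ Type) ⥤ TopCat.{0} where
  obj ξ := TopCat.of (Mil ξ)
  map α := TopCat.ofHom ⟨Mil.map α, Mil.continuous_map α⟩
  map_id := by sorry
  map_comp := by sorry

/-- The pointed chain space as a functor. -/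
def MilDF (Φ : A ⥤ TopCat.{0}) : (Aᵒᵖ ⥤ Type) ⥤ TopCat.{0} where
  obj ξ := TopCat.of (MilD ξ Φ)
  map α := TopCat.ofHom ⟨MilD.map α, MilD.continuous_map α⟩
  map_id := by sorry
  map_comp := by sorry

/-- Forget the points. -/
def prN (Φ : A ⥤ TopCat.{0}) : MilDF Φ ⟶ MilF A where
  app _ := TopCat.ofHom ⟨MilD.q, MilD.continuous_q⟩

end Vale.Agent.P259B
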