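import Vale.Agent.P259B.Cy

/-!
# P259, Mo: the mapping path model built from operations on cylinders.

Plan. The model property is `Cy.glue`, `Cy.snoc_ext` (pullbacks of types, elementwise:
`Types.isPullback_iff` or a direct `PullbackCone.IsLimit.mk`), after rewriting with `op_ι`.
-/

namespace Vale.Agent.P259B

open CategoryTheory Limits Opposite GlobExt

/-- An action of all morphisms of `C` on cylinders, natural in the arrow. -/
structure PathData (C : GlobExt) [Contr C] (n d : ℕ) where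
  op : ∀ {S T : Table}, ((⟨S⟩ : C.Obj) ⟶ ⟨T⟩) → (CyF C n d T ⟶ CyF C n d S)
  op_id : ∀ S : Table, op (𝟙 (⟨S⟩ : C.Obj)) = 𝟙 _
  op_comp : ∀ {S T U : Table} (f : (⟨S⟩ : C.Obj) ⟶ ⟨T⟩) (g : (⟨T⟩ : C.Obj) ⟶ ⟨U⟩),
    op (f ≫ g) = op g ≫ op f
  op_ι : ∀ {S T : Table} (θ : S ⟶ T), op (C.map θ) = CyF.rs C n d θ
  a0 : ∀ {S T : Table} (f : (⟨S⟩ : C.Obj) ⟶ ⟨T⟩) (a : Arrow (Mod C)) (z : Cy n d a.hom T),
    Cy.a0 (i := a.hom) ((op f).app a z) = act f z.a0

namespace PathData

variable {C : GlobExt} [Contr C] {n d : ℕ} (P : PathData C n d)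

/-- The presheaf of cylinders. -/
noncomputable def psh (a : Arrow (Mod C)) : C.Objᵒᵖ ⥤ Type where
  obj S := Cy n d a.hom S.unop.tab
  map f := (P.op f.unop).app a
  map_id := by sorry
  map_comp := by sorry

theorem isModel (a : Arrow (Mod C)) : IsModel C (P.psh a) := by
  sorry

/-- The mapping path model. -/
noncomputable def Mo (a : Arrow (Mod C)) : Mod C := ⟨P.psh a, P.isModel a⟩

/-- An element of the path model as a cylinder. -/
def cy {a : Arrow (Mod C)} {S : Table} (z : val (P.Mo a) S) : Cy n d a.hom S := z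

/-- A cylinder as an element of the path model. -/
def el {a : Arrow (Mod C)} {S : Table} (z : Cy n d a.hom S) : val (P.Mo a) S := z

theorem cy_el {a : Arrow (Mod C)} {S : Table} (z : Cy n d a.hom S) : P.cy (P.el z) = z := rfl

theorem el_cy {a : Arrow (Mod C)} {S : Table} (z : val (P.Mo a) S) : P.el (P.cy z) = z := rfl

theorem cy_res {a : Arrow (Mod C)} {S T : Table} (θ : S ⟶ T) (z : val (P.Mo a) T) :
    P.cy (res θ z) = (P.cy z).rs θ := by
  sorry

theorem cy_fc {a : Arrow (Mod C)} {m k : ℕ} (h : m < k) (b : Bool) (z : cell (P.Mo a) k) :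
    P.cy (fc h b z) = (P.cy z).rs (gface h b) := P.cy_res _ z

/-- The projection to the starting end. -/
noncomputable def π0 (a : Arrow (Mod C)) : P.Mo a ⟶ a.right :=
  ObjectProperty.homMk
    { app := fun S => TypeCat.ofHom fun z : Cy n d a.hom S.unop.tab => z.a0
      naturality := by sorry }

theorem ap_π0 (a : Arrow (Mod C)) {S : Table} (z : val (P.Mo a) S) :
    ap (P.π0 a) z = (P.cy z).a0 := rfl

/-- Functoriality in the arrow. -/
noncomputable def mapMo {a a' : Arrow (Mod C)} (sq : a ⟶ a') : P.Mo a ⟶ P.Mo a' :=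
  ObjectProperty.homMk
    { app := fun S => (CyF C n d S.unop.tab).map sq
      naturality := by sorry }

theorem mapMo_π0 {a a' : Arrow (Mod C)} (sq : a ⟶ a') :
    P.mapMo sq ≫ P.π0 a' = P.π0 a ≫ sq.right := by
  sorry

end PathData

end Vale.Agent.P259B
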