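import Vale.Agent.P259B.Cells

/-!
# P259, Ops: identities, inverses, ternary whiskering, and the generic-shape principle.

Plan.
* `exists_glue3`, `glue3_ext`: twice `snoc_glue`, `snoc_ext`.
* `exists_W`. Fix `m`. Construct by recursion on `j` cells `w j : (h : m < j) → cell (yo C (T3 m j h)) j`
  and put `W e e' x = ap (yel (glue3 e x e')) (w j h)` when `Cmp m e e' x` (else `x`). The recursion
  carries the invariant `Inv (w j)`: for all models `X` and `e e' x x'` with `Cmp m e e' x` and
  `Par x x'`, the two values are parallel. Step `j + 1`: if `m < j`, `w (j+1)` is a filler in the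
  contractible model `yo C (T3 m (j+1) _)` (`conn_yo`) of the pair
  `(W g1 g3 (src g2), W g1 g3 (tgt g2))`, parallel by the invariant; otherwise (`m = j`) a filler of
  `(fc _ false g1, fc _ true g3)` (parallel since `g1, g2, g3` are composable). Use
  `Nat.rec` into a subtype, or `Classical.choose` with an `if` on the existence and a strong
  induction for the properties. Naturality: `glue3_ext`. The general face formula follows from the
  one-step formula by induction on `j - i` (`fc_fc`).
* All homotopy laws come from `generic3`: both sides are images of parallel cells of a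
  contractible model.
  `exists_psi`: apply `generic3` to `(inv Φ, one (tgt Q), Q)`, get `(a, a', y)`, let `Ψ'` be a filler
  from `tgt y` to `src a` and compare `W m a Ψ' y` with `one (src a)`.
  `hot_cmp_inv`: apply `generic3` to `(α, one (tgt p), p)`.
-/

namespace Vale.Agent.P259B

open CategoryTheory Limits Opposite GlobExt

variable {C : GlobExt}

/-- The table `D_{m+1} ⨿_{D_m} D_j ⨿_{D_m} D_{m+1}`. -/
def T3 (m j : ℕ) (h : m < j) : Table :=
  ((disc (m + 1)).snoc m j (Nat.lt_succ_self m) h).snoc m (m + 1) h (Nat.lt_succ_self m)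

/-- First disc of `T3`. -/
noncomputable def g1 (m j : ℕ) (h : m < j) : disc (m + 1) ⟶ T3 m j h :=
  (disc (m + 1)).inl m j (Nat.lt_succ_self m) h ≫
    ((disc (m + 1)).snoc m j (Nat.lt_succ_self m) h).inl m (m + 1) h (Nat.lt_succ_self m)

/-- Middle disc of `T3`. -/
noncomputable def g2 (m j : ℕ) (h : m < j) : disc j ⟶ T3 m j h :=
  ((disc (m + 1)).snoc m j (Nat.lt_succ_self m) h).lastι ≫
    ((disc (m + 1)).snoc m j (Nat.lt_succ_self m) h).inl m (m + 1) h (Nat.lt_succ_self m)

/-- Last disc of `T3`. -/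
noncomputable def g3 (m j : ℕ) (h : m < j) : disc (m + 1) ⟶ T3 m j h := (T3 m j h).lastι

/-- `e`, `x`, `e'` are composable along `m`-cells. -/
def Cmp {X : Mod C} (m : ℕ) (e e' : cell X (m + 1)) {j : ℕ} (x : cell X j) : Prop :=
  ∃ h : m < j, tgt e = fc h false x ∧ fc h true x = src e'

section glue
variable {X Y : Mod C} {m j : ℕ}

theorem exists_glue3 (h : m < j) {e e' : cell X (m + 1)} {x : cell X j}
    (h1 : tgt e = fc h false x) (h2 : fc h true x = src e') :
    ∃ w : val X (T3 m j h), res (g1 m j h) w = e ∧ res (g2 m j h) w = x ∧ res (g3 m j h) w = e' := by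
  sorry

theorem glue3_ext {h : m < j} {w w' : val X (T3 m j h)}
    (h1 : res (g1 m j h) w = res (g1 m j h) w') (h2 : res (g2 m j h) w = res (g2 m j h) w')
    (h3 : res (g3 m j h) w = res (g3 m j h) w') : w = w' := by
  sorry

theorem cmp_res (h : m < j) (w : val X (T3 m j h)) :
    Cmp m (res (g1 m j h) w) (res (g3 m j h) w) (res (g2 m j h) w) := by
  sorry

theorem Cmp.ap {e e' : cell X (m + 1)} {x : cell X j} (h : Cmp m e e' x) (f : X ⟶ Y) :
    Cmp m (ap f e) (ap f e') (ap f x) := by
  sorry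

theorem Cmp.fc {e e' : cell X (m + 1)} {x : cell X j} (h : Cmp m e e' x) {i : ℕ} (hi : i < j)
    (b : Bool) (hm : m < i) : Cmp m e e' (fc hi b x) := by
  sorry

theorem Cmp.of_par {e e' : cell X (m + 1)} {x x' : cell X j} (h : Cmp m e e' x) (hp : Par x x') :
    Cmp m e e' x' := by
  sorry

theorem generic3 [Contr C] {e e' : cell X (m + 1)} {x : cell X j} (h : Cmp m e e' x) :
    ∃ (Y : Mod C) (φ : Y ⟶ X) (a a' : cell Y (m + 1)) (y : cell Y j),
      Conn Y ∧ Cmp m a a' y ∧ ap φ a = e ∧ ap φ a' = e' ∧ ap φ y = x := by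
  sorry

end glue

variable [Contr C]

theorem exists_oneC (C : GlobExt) [Contr C] (n : ℕ) :
    ∃ h : C.D (n + 1) ⟶ C.D n, C.IsLift (𝟙 _) (𝟙 _) h := by
  sorry

theorem exists_invC (C : GlobExt) [Contr C] (n : ℕ) :
    ∃ h : C.D (n + 1) ⟶ C.D (n + 1), C.IsLift (C.τ n) (C.σ n) h := by
  sorry

theorem nonempty_units (C : GlobExt) [Contr C] : Nonempty (Units C) :=
  ⟨⟨fun n => (exists_oneC C n).choose, fun n => (exists_oneC C n).choose_spec⟩⟩

/-- Identity cells. -/
noncomputable def one {X : Mod C} {n : ℕ} (a : cell X n) : cell X (n + 1) :=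
  act (exists_oneC C n).choose a

/-- Inverse cells. -/
noncomputable def inv {X : Mod C} {n : ℕ} (a : cell X (n + 1)) : cell X (n + 1) :=
  act (exists_invC C n).choose a

theorem exists_W (C : GlobExt) [Contr C] :
    ∃ W : ∀ (X : Mod C) (m : ℕ), cell X (m + 1) → cell X (m + 1) → ∀ j, cell X j → cell X j,
      (∀ X Y (f : X ⟶ Y) m e e' j (x : cell X j), Cmp m e e' x →
        ap f (W X m e e' j x) = W Y m (ap f e) (ap f e') j (ap f x)) ∧
      (∀ X m e e' j (x : cell X j), Cmp m e e' x → ∀ i (h : i < j) b, m < i →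
        fc h b (W X m e e' j x) = W X m e e' i (fc h b x)) ∧
      (∀ X m e e' j (x : cell X j), Cmp m e e' x → ∀ h : m < j,
        fc h false (W X m e e' j x) = src e ∧ fc h true (W X m e e' j x) = tgt e') := by
  sorry

/-- Ternary whiskering `e · x · e'` along `m`-cells. -/
noncomputable def W {X : Mod C} (m : ℕ) (e e' : cell X (m + 1)) {j : ℕ} (x : cell X j) :
    cell X j := (exists_W C).choose X m e e' j x

/-- Composition of two `(n+1)`-cells. -/
noncomputable def cmp {X : Mod C} {n : ℕ} (a b : cell X (n + 1)) : cell X (n + 1) :=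
  W n a b (one (tgt a))

section laws
variable {X Y : Mod C} {m j n : ℕ}

theorem src_one (a : cell X n) : src (one a) = a := by
  sorry

theorem tgt_one (a : cell X n) : tgt (one a) = a := by
  sorry

theorem ap_one (f : X ⟶ Y) (a : cell X n) : ap f (one a) = one (ap f a) := ap_act _ _ _

theorem src_inv (a : cell X (n + 1)) : src (inv a) = tgt a := by
  sorry

theorem tgt_inv (a : cell X (n + 1)) : tgt (inv a) = src a := by
  sorry

theorem ap_inv (f : X ⟶ Y) (a : cell X (n + 1)) : ap f (inv a) = inv (ap f a) := ap_act _ _ _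

theorem ap_W (f : X ⟶ Y) {e e' : cell X (m + 1)} {x : cell X j} (h : Cmp m e e' x) :
    ap f (W m e e' x) = W m (ap f e) (ap f e') (ap f x) :=
  (exists_W C).choose_spec.1 X Y f m e e' j x h

theorem fc_W_hi {e e' : cell X (m + 1)} {x : cell X j} (h : Cmp m e e' x) {i : ℕ} (hi : i < j)
    (b : Bool) (hm : m < i) : fc hi b (W m e e' x) = W m e e' (fc hi b x) :=
  (exists_W C).choose_spec.2.1 X m e e' j x h i hi b hm

theorem fc_W_src {e e' : cell X (m + 1)} {x : cell X j} (h : Cmp m e e' x) (hm : m < j) :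
    fc hm false (W m e e' x) = src e :=
  ((exists_W C).choose_spec.2.2 X m e e' j x h hm).1

theorem fc_W_tgt {e e' : cell X (m + 1)} {x : cell X j} (h : Cmp m e e' x) (hm : m < j) :
    fc hm true (W m e e' x) = tgt e' :=
  ((exists_W C).choose_spec.2.2 X m e e' j x h hm).2

theorem fc_W_lo {e e' : cell X (m + 1)} {x : cell X j} (h : Cmp m e e' x) {i : ℕ} (hi : i < j)
    (b : Bool) (hm : i < m) : fc hi b (W m e e' x) = fc hi b x := by
  sorry

theorem Par.W {e e' : cell X (m + 1)} {x x' : cell X j} (h : Cmp m e e' x) (hp : Par x x') :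
    Par (W m e e' x) (W m e e' x') := by
  sorry

theorem Hot.W {e e' : cell X (m + 1)} {x x' : cell X j} (h : Cmp m e e' x) (hp : Hot x x') :
    Hot (W m e e' x) (W m e e' x') := by
  sorry

theorem cmp_cmp {a b : cell X (n + 1)} (h : tgt a = src b) : Cmp n a b (one (tgt a)) := by
  sorry

theorem src_cmp {a b : cell X (n + 1)} (h : tgt a = src b) : src (cmp a b) = src a :=
  fc_W_src (cmp_cmp h) _

theorem tgt_cmp {a b : cell X (n + 1)} (h : tgt a = src b) : tgt (cmp a b) = tgt b :=
  fc_W_tgt (cmp_cmp h) _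

theorem ap_cmp (f : X ⟶ Y) {a b : cell X (n + 1)} (h : tgt a = src b) :
    ap f (cmp a b) = cmp (ap f a) (ap f b) := by
  rw [cmp, ap_W f (cmp_cmp h), ap_one, ap_tgt]; rfl

theorem Hot.refl (a : cell X n) : Hot a a := ⟨one a, src_one a, tgt_one a⟩

theorem Hot.symm {a b : cell X n} (h : Hot a b) : Hot b a := by
  obtain ⟨c, rfl, rfl⟩ := h
  exact ⟨inv c, src_inv c, tgt_inv c⟩

theorem Hot.trans {a b c : cell X n} (h : Hot a b) (h' : Hot b c) : Hot a c := by
  obtain ⟨p, rfl, hp⟩ := h
  obtain ⟨q, hq, rfl⟩ := h'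
  exact ⟨cmp p q, src_cmp (hp.trans hq.symm), tgt_cmp (hp.trans hq.symm)⟩

theorem exists_psi (Q Φ : cell X (m + 1)) (h : src Q = src Φ) :
    ∃ Ψ : cell X (m + 1), src Ψ = tgt Q ∧ tgt Ψ = tgt Φ ∧
      Hot (W m (inv Φ) Ψ Q) (one (tgt Φ)) := by
  sorry

theorem hot_cmp_inv (α p : cell X (n + 1)) (h : tgt α = src p) :
    Hot (cmp (inv α) (cmp α p)) p := by
  sorry

end laws

end Vale.Agent.P259B
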