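import Vale.Agent.P259B.Mo
import Vale.Agent.P259B.CyFill
import Vale.Agent.P259B.Div
import Vale.Agent.P259B.Hair

/-!
# P259, Path: the path model detects connectivity.

Plan.
* `tf_π0`: `TF.of_fill`; a boundary family of cells of `Mo` is an `IsBdC` family (`cy_fc`);
  `mkDisc` with `a1 = Tr n k (bφ β _) c` (faces: `fc_Tr_bφ`; low: `Tr_of_le`) and `Φ = one a1`.
* `jf_π0`: given `γ` of dimension `m ≥ n` and `c` with `src c = γ.a0`. First build `γ'` parallel to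
  `γ` with `mkDisc` on the boundary family of `γ` (`isBdC_rs`, `bφ_rs`): `a0 = tgt c`, the same `a1`,
  and `Φ = Ψ` from `exists_psi (Tr n m (γ.φ _ (𝟙 _)) c) (γ.Φ m _ _ (𝟙 _))` (`fc_Tr_hi`, `Cy.bd`,
  `Bd.of_faces`). Then `exists_isBdC` and `mkDisc` in dimension `m + 1` with `a0 = c`,
  `a1 = one (γ.a1 ..)` and `Φ` the homotopy of `exists_psi` (`Tr_succ`).
* `deform`: for parallel `a, b` of dimension `k < d`, the cylinders `s a`, `s b` are parallel, their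
  `a1` tops are parallel, hence homotopic; if `k < n` use `low`, otherwise `Φ_src`, `Φ_tgt`,
  `Hot.trans`, `Hot.symm` and `Tr_inj` (the two boundary data `φ` agree).
* `bprop`: a section of `π0 (𝟙 X)` exists since `X` is cofibrant; lift `i` against `π0 (Arrow.mk i)`.
-/

namespace Vale.Agent.P259B

open CategoryTheory Limits Opposite GlobExt

namespace PathData

variable {C : GlobExt} [Contr C] {n d : ℕ} (P : PathData C n d)

theorem path_isBdC {a : Arrow (Mod C)} {k : ℕ} {β : ∀ j, j < k → Bool → cell (P.Mo a) j}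
    (hβ : IsBd β) : IsBdC (fun j hj b => P.cy (β j hj b)) := by
  intro j hj b m h e
  rw [← P.cy_fc, hβ j hj b m h e]

theorem path_fill_id {X : Mod C} {k : ℕ} {β : ∀ j, j < k → Bool → Cy n d (𝟙 X) (disc j)}
    (hβ : IsBdC β) (c : cell X k) (hc : ∀ j hj b, fc hj b c = (β j hj b).a0) :
    ∃ δ : Cy n d (𝟙 X) (disc k), (∀ j hj b, δ.rs (gface hj b) = β j hj b) ∧ δ.a0 = c := by
  obtain ⟨δ, h1, h2, -, -⟩ := mkDisc hβ c hc (fun hk => Tr n k (bφ β hk.le) c)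
    (fun hk j hj b => fc_Tr_bφ hβ hk.le c le_rfl hc j hj b)
    (fun hk h => Tr_of_le h.le _ _) (fun _ hk => one (Tr n k (bφ β hk.le) c))
    (fun _ _ => src_one _) (fun _ _ => tgt_one _)
  exact ⟨δ, h1, h2⟩

theorem path_a1_fc {X X' : Mod C} {i : X ⟶ X'} {k : ℕ} (γ : Cy n d i (disc k)) (hk : k < d)
    {j : ℕ} (hj : j < k) (b : Bool) :
    fc hj b (γ.a1 k hk (𝟙 _)) = (γ.rs (gface hj b)).a1 j (hj.trans hk) (𝟙 _) := by
  rw [γ.a1_fc, Category.comp_id]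
  exact congrArg (γ.a1 j _) (Category.id_comp _).symm

theorem path_bd {X X' : Mod C} {i : X ⟶ X'} {k : ℕ} (γ : Cy n d i (disc k)) (hk : k ≤ d) :
    Bd n k (γ.φ hk (𝟙 _)) γ.a0 := by
  have := γ.bd hk (𝟙 _)
  rwa [res_id] at this

theorem path_Φ_src {X X' : Mod C} {i : X ⟶ X'} {k : ℕ} (γ : Cy n d i (disc k)) (hn : n ≤ k)
    (hk : k < d) : src (γ.Φ k hn hk (𝟙 _)) = Tr n k (γ.φ hk.le (𝟙 _)) γ.a0 := by
  rw [γ.Φ_src, res_id]

theorem path_lift {X X' : Mod C} {i : X ⟶ X'} {m : ℕ} (hn : n ≤ m) (γ : Cy n d i (disc m))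
    (c : cell X' (m + 1)) (hc : src c = γ.a0) :
    ∃ δ : Cy n d i (disc (m + 1)), δ.rs (gface (Nat.lt_succ_self m) false) = γ ∧ δ.a0 = c := by
  have hbd : ∀ hk : m ≤ d, Bd n m (γ.φ hk (𝟙 _)) c := fun hk =>
    (path_bd γ hk).of_faces (Nat.le_succ m) fun j hj hj' b _ => by rw [← hc, fc_src]
  have hpsi : ∀ hk : m < d, ∃ Ψ : cell X' (m + 1),
      src Ψ = Tr n m (γ.φ hk.le (𝟙 _)) (tgt c) ∧ tgt Ψ = ap i (γ.a1 m hk (𝟙 _)) ∧
      Hot (W m (inv (γ.Φ m hn hk (𝟙 _))) Ψ (Tr n m (γ.φ hk.le (𝟙 _)) c))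
        (ap i (one (γ.a1 m hk (𝟙 _)))) := by
    intro hk
    obtain ⟨Ψ, h1, h2, h3⟩ := exists_psi (Tr n m (γ.φ hk.le (𝟙 _)) c) (γ.Φ m hn hk (𝟙 _)) (by
      rw [path_Φ_src, src_eq, fc_Tr_hi (hbd hk.le) _ _ le_rfl, ← src_eq, hc])
    refine ⟨Ψ, ?_, ?_, ?_⟩
    · rw [h1, tgt_eq, fc_Tr_hi (hbd hk.le) _ _ le_rfl, ← tgt_eq]
    · rw [h2, γ.Φ_tgt]
    · rw [ap_one, ← γ.Φ_tgt m hn]
      exact h3
  choose Ψ h1 h2 h3 using hpsi
  obtain ⟨γ', g1, g2, g3, g4⟩ := mkDisc (isBdC_rs γ) (tgt c)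
    (fun j hj b => by
      rw [fc_tgt, ← fc_src hj, hc]; rfl)
    (fun hk => γ.a1 m hk (𝟙 _)) (fun hk j hj b => path_a1_fc γ hk hj b)
    (fun _ h => absurd h (not_lt.2 hn)) (fun _ hk => Ψ hk)
    (fun _ hk => by rw [bφ_rs, h1]) (fun _ hk => h2 hk)
  obtain ⟨β, hβ, b1, b2⟩ := exists_isBdC (γ := γ) (γ' := γ') fun j hj e => (g1 j hj e).symm
  choose H k1 k2 using h3
  obtain ⟨δ, d1, d2, -, -⟩ := mkDisc hβ c
    (hβ.isBd_a0.fc_eq (by rw [hc, b1]) (by rw [b2, g2]))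
    (fun hk => one (γ.a1 m ((Nat.lt_succ_self m).trans hk) (𝟙 _)))
    (fun hk => (hβ.isBd_a1 hk.le).fc_eq (by rw [src_one, b1]) (by rw [tgt_one, b2, g3]))
    (fun _ h => absurd h (by omega)) (fun _ hk => H ((Nat.lt_succ_self m).trans hk))
    (fun _ hk => by
      have e : (bφ β hk.le).rs (Nat.le_succ m) =
          γ.φ ((Nat.lt_succ_self m).trans hk).le (𝟙 _) := by
        rw [← bφ_rs]
        funext j hj hj' b
        have := hβ m (Nat.lt_succ_self m) false j hj' b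
        rw [b1] at this
        exact congrArg (fun z : Cy n d i (disc j) => z.Φ j hj _ (𝟙 _)) this.symm
      have e1 : bφ β hk.le m hn (Nat.lt_succ_self m) false =
          γ.Φ m hn ((Nat.lt_succ_self m).trans hk) (𝟙 _) :=
        congrArg (fun z : Cy n d i (disc m) => z.Φ m hn _ (𝟙 _)) b1
      have e2 : bφ β hk.le m hn (Nat.lt_succ_self m) true = Ψ ((Nat.lt_succ_self m).trans hk) :=
        (congrArg (fun z : Cy n d i (disc m) => z.Φ m hn _ (𝟙 _)) b2).trans (g4 _ _)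
      rw [k1, Tr_succ hn, e, e1, e2])
    (fun _ hk => k2 _)
  exact ⟨δ, (d1 m _ false).trans b1, d2⟩

theorem path_hot {X X' : Mod C} {i : X ⟶ X'} (h : ConnLt d X) {k : ℕ} (hk : k < d)
    (z z' : Cy n d i (disc k)) (hz : ∀ m (hm : m < k) e, z.rs (gface hm e) = z'.rs (gface hm e)) :
    Hot z.a0 z'.a0 := by
  have hp : Par (z.a1 k hk (𝟙 _)) (z'.a1 k hk (𝟙 _)) := fun m hm e => by
    rw [path_a1_fc, path_a1_fc, hz]
  have H := (h.2 k hk _ _ hp).ap i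
  by_cases hn : k < n
  · rwa [z.low k hk _ hn, z'.low k hk _ hn, res_id, res_id] at H
  · have hn' : n ≤ k := not_lt.1 hn
    have e : z.φ hk.le (𝟙 _) = z'.φ hk.le (𝟙 _) := by
      rw [← bφ_rs, ← bφ_rs]
      funext j hj hj' b
      exact congrArg (fun y : Cy n d i (disc j) => y.Φ j hj _ (𝟙 _)) (hz j hj' b)
    have H1 : Hot (Tr n k (z.φ hk.le (𝟙 _)) z.a0) (ap i (z.a1 k hk (𝟙 _))) :=
      ⟨z.Φ k hn' hk (𝟙 _), path_Φ_src z hn' hk, z.Φ_tgt _ _ _ _⟩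
    have H2 : Hot (Tr n k (z.φ hk.le (𝟙 _)) z'.a0) (ap i (z'.a1 k hk (𝟙 _))) :=
      ⟨z'.Φ k hn' hk (𝟙 _), by rw [e]; exact path_Φ_src z' hn' hk, z'.Φ_tgt _ _ _ _⟩
    refine Tr_inj (path_bd z hk.le) (fun m hm b => ?_) ((H1.trans H).trans H2.symm)
    exact congrArg Cy.a0 (hz m hm b)

theorem tf_π0 (X : Mod C) : TF C (P.π0 (Arrow.mk (𝟙 X))) := by
  refine TF.of_fill fun k β hβ c hc => ?_
  obtain ⟨δ, h1, h2⟩ := path_fill_id (X := X) (P.path_isBdC hβ) c hc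
  refine ⟨P.el δ, fun j hj b => ?_, h2⟩
  rw [← P.el_cy (fc hj b _), P.cy_fc, P.cy_el]
  exact congrArg P.el (h1 j hj b)

theorem jf_π0 (a : Arrow (Mod C)) : JF C n (P.π0 a) := by
  intro m hm γ c hc
  obtain ⟨δ, h1, h2⟩ := path_lift hm (P.cy γ) c hc
  refine ⟨P.el δ, ?_, h2⟩
  rw [src_eq, ← P.el_cy (fc _ _ _), P.cy_fc, P.cy_el]
  exact congrArg P.el h1

theorem deform (a : Arrow (Mod C)) (s : a.right ⟶ P.Mo a) (hs : s ≫ P.π0 a = 𝟙 _)
    (h0 : Nonempty (cell a.right 0)) (h : ConnLt d a.left) : ConnLt d a.right := by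
  refine ⟨h0, fun k hk x y hxy => ?_⟩
  have e : ∀ x : cell a.right k, (P.cy (ap s x)).a0 = x := fun x => by
    rw [← P.ap_π0, ← ap_comp, hs, ap_id]
  have H := path_hot h hk (P.cy (ap s x)) (P.cy (ap s y)) fun m hm b => by
    rw [← P.cy_fc, ← P.cy_fc, hxy.ap s m hm b]
  rwa [e, e] at H

include P in
theorem bprop : BProp C n d := by
  intro X X' i hX hi hc
  obtain ⟨s, hs⟩ := hX _ (P.tf_π0 X) (𝟙 X)
  let sq : Arrow.mk (𝟙 X) ⟶ Arrow.mk i := Arrow.homMk (𝟙 X) i rfl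
  obtain ⟨l, -, hl⟩ := hi.lift (P.jf_π0 (Arrow.mk i)) (s ≫ P.mapMo sq) (𝟙 X') (by
    rw [Category.assoc, P.mapMo_π0, ← Category.assoc, hs]
    exact (Category.id_comp i).trans (Category.comp_id i).symm)
  obtain ⟨x⟩ := hc.1
  exact P.deform (Arrow.mk i) l hl ⟨ap i x⟩ hc

end PathData

end Vale.Agent.P259B
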