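import Vale.Agent.P259B.Mo
import Vale.Agent.P259B.Eta
import Vale.Agent.P259B.Corep
import Vale.Agent.P259B.CyFill
import Vale.Agent.P259B.LL

/-!
# P259, PathEx: existence of the path operations.

Plan. Apply `exists_ext` to `V = (Arrow (Mod C) ⥤ Type)ᵒᵖ`, `K S = op (CyF C n d S)`,
`K θ = (CyF.rs C n d θ).op`, and
`Rel f φ := ∀ a z, (φ.unop.app a z).a0 = act f z.a0 ∧ ∀ x, z.Ind x → (φ.unop.app a z).Ind (act f x)`.
Smallness: `corep_cy`, `Corep.small`. Gluing: pointwise `Cy.glue` with choice, natural and unique by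
`Cy.snoc_ext` (`Cy.map_rs`); `Rel` by `snoc_ext` and `snoc_cases`.
Lifting, dimension `k + 1`, `S.dim ≤ k + 1`: take the universal `(K, z0)`, `γ = φ z0`, `γ' = ψ z0`,
a boundary family `β` (`exists_isBdC`), `a0 = act h z0.a0` (faces by `IsBd.fc_eq`). If `k + 1 < d`
let `x` induce `z0` (`Cy.exists_ind`) and `a1 = act h x` (faces from `Rel`, `low` from `Ind.low`);
if moreover `n ≤ k + 1`, `Tr n (k+1) (bφ β _) a0` is parallel to `ap K.hom a1` (`fc_Tr_bφ`), so `Φ`
exists by `conn_univ_cy`. `mkDisc` gives `δ`, `exists_nat_of_univ` the operation `χ`; the face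
equations by `nat_ext_of_univ`; `Rel h χ` by writing `z = map α z0`, `disc_ind`, and `Ind.unique`
for the top cell.
-/

namespace Vale.Agent.P259B

open CategoryTheory Limits Opposite GlobExt

theorem nonempty_pathData (C : GlobExt) [Contr C] [HasLL C] (n d : ℕ)
    (hB : n < d → BProp C (n + 1) d) : Nonempty (PathData C n d) := by
  sorry

end Vale.Agent.P259B
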