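import Vale.Agent.P259B.Ops

/-!
# P259, Weq: weak equivalences of models.

Plan. `Hot` is an equivalence relation (`Hot.refl/symm/trans`), so `Quot.mk _ a = Quot.mk _ b ↔
Hot a b` (`Quot.eqvGen_exact`/`Quot.eq` and `Equivalence.eqvGen_iff`), both for `Pi0` and `PiS`.
`PiS.map u (f ≫ g) x n = PiS.map u g (ap f x) n ∘ PiS.map u f x n` (by `Quot.ind`, `rfl`).
`tf_of_jf_conn`: fill the boundary upstairs by `c'`, connect `ap p c'` to `c` downstairs, lift that
cell along the source, and take the target of the lift.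
-/

namespace Vale.Agent.P259B

open CategoryTheory Limits Opposite GlobExt

variable {C : GlobExt} [Contr C] {X Y Z : Mod C}

theorem TF.we {p : X ⟶ Y} (hp : TF C p) : WE C p := by
  sorry

theorem WE.inj {p : X ⟶ Y} (hp : WE C p) {n : ℕ} {a b : cell X n} (h : Par a b)
    (H : Hot (ap p a) (ap p b)) : Hot a b := by
  sorry

theorem WE.weq (u : Units C) {p : X ⟶ Y} (hp : WE C p) : Weq u p := by
  sorry

theorem TF.weq (u : Units C) {p : X ⟶ Y} (hp : TF C p) : Weq u p := hp.we.weq u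

theorem Weq.of_isIso (u : Units C) (p : X ⟶ Y) [IsIso p] : Weq u p := (TF.of_isIso p).weq u

theorem Weq.comp {u : Units C} {f : X ⟶ Y} {g : Y ⟶ Z} (hf : Weq u f) (hg : Weq u g) :
    Weq u (f ≫ g) := by
  sorry

theorem Weq.of_comp_left {u : Units C} {f : X ⟶ Y} {g : Y ⟶ Z} (hg : Weq u g)
    (h : Weq u (f ≫ g)) : Weq u f := by
  sorry

theorem Weq.of_comp_right {u : Units C} {f : X ⟶ Y} {g : Y ⟶ Z} (hf : Weq u f)
    (hs : ∀ y : cell Y 0, ∃ x : cell X 0, ap f x = y) (h : Weq u (f ≫ g)) : Weq u g := by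
  sorry

theorem tf_of_jf_conn {p : X ⟶ Y} (hp : JF C 0 p) (hX : Conn X) (hY : Conn Y) : TF C p := by
  sorry

end Vale.Agent.P259B
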