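import Vale.Agent.P259B.Path
import Vale.Agent.P259B.PathEx
import Vale.Agent.P259B.Weq

/-!
# P259, ThmB: expansions preserve contractibility; the gluing lemma.

Plan. `bprop_all`: induction on `r` for all `n` with `d ≤ n + r`. `jcof_of_cof`: factor with
`fac_jcof_jf`, `tf_of_jf_conn`, retract argument (`MorphismProperty.of_retract`, or directly with
`JCof.of_lift`). `conn_pushout`: `JCof` is stable under cobase change
(`MorphismProperty.of_isPushout`). `exists_retract_jcof`: factor a point `yo C (disc 0) ⟶ X`.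
-/

namespace Vale.Agent.P259B

open CategoryTheory Limits Opposite GlobExt

variable {C : GlobExt} [Contr C] [HasLL C]

theorem bprop_all (C : GlobExt) [Contr C] [HasLL C] (n d : ℕ) : BProp C n d := by
  have key : ∀ r n : ℕ, d ≤ n + r → BProp C n d := by
    intro r
    induction r with
    | zero =>
      intro n h
      obtain ⟨P⟩ := nonempty_pathData C n d (fun h' => absurd h' (by omega))
      exact P.bprop
    | succ r ih =>
      intro n h
      obtain ⟨P⟩ := nonempty_pathData C n d (fun _ => ih (n + 1) (by omega))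
      exact P.bprop
  exact key d n (by omega)

theorem conn_of_jcof {X Y : Mod C} {i : X ⟶ Y} (hi : JCof C 0 i) (hX : Cofib X) (hc : Conn X) :
    Conn Y := by
  exact conn_iff.2 fun d => bprop_all C 0 d X Y i hX hi (conn_iff.1 hc d)

theorem jcof_of_cof {X Y : Mod C} {i : X ⟶ Y} (hi : Cof C i) (hX : Cofib X) (hc : Conn X)
    (hY : Conn Y) : JCof C 0 i := by
  obtain ⟨Z, j, p, hj, hp, w⟩ := fac_jcof_jf i
  have hp' : TF C p := tf_of_jf_conn hp (conn_of_jcof hj hX hc) hY
  obtain ⟨l, hl, hl'⟩ := hi.lift hp' j (𝟙 Y) (by rw [w, Category.comp_id])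
  refine JCof.of_lift fun A B q hq f g e => ?_
  obtain ⟨h, hh, hh'⟩ := hj.lift hq f (p ≫ g) (by rw [e, ← w, Category.assoc])
  refine ⟨l ≫ h, ?_, ?_⟩
  · rw [← Category.assoc, hl, hh]
  · rw [Category.assoc, hh', ← Category.assoc, hl', Category.id_comp]

theorem conn_pushout {A X B P : Mod C} {f : A ⟶ X} {g : A ⟶ B} {u : X ⟶ P} {v : B ⟶ P}
    (sq : IsPushout f g u v) (hf : Cof C f) (hA : Cofib A) (hB : Cofib B) (cA : Conn A)
    (cX : Conn X) (cB : Conn B) : Conn P := by
  have hf' : JCof C 0 f := jcof_of_cof hf hA cA cX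
  have hv : JCof C 0 v := by
    refine JCof.of_lift fun A' B' q hq a b e => ?_
    obtain ⟨h, hh, hh'⟩ := hf'.lift hq (g ≫ a) (u ≫ b)
      (by rw [Category.assoc, e, ← Category.assoc, ← sq.w, Category.assoc])
    refine ⟨sq.desc h a hh, sq.inr_desc _ _ _, sq.hom_ext ?_ ?_⟩
    · rw [← Category.assoc, sq.inl_desc, hh']
    · rw [← Category.assoc, sq.inr_desc, e]
  exact conn_of_jcof hv hB cB

theorem exists_retract_jcof {X : Mod C} (hX : Cofib X) (hc : Conn X) :
    ∃ (Y : Mod C) (i : yo C (disc 0) ⟶ Y) (s : X ⟶ Y) (r : Y ⟶ X), JCof C 0 i ∧ s ≫ r = 𝟙 X := by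
  obtain ⟨x⟩ := hc.1
  obtain ⟨Y, i, r, hi, hr, -⟩ := fac_jcof_jf (yel (S := disc 0) x)
  have hr' : TF C r := tf_of_jf_conn hr (conn_of_jcof hi (cofib_yo _) (conn_yo _)) hc
  obtain ⟨s, hs⟩ := hX r hr' (𝟙 X)
  exact ⟨Y, i, s, r, hi, hs⟩

end Vale.Agent.P259B
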