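import Vale.Agent.P259B.D0
import Vale.Agent.P259B.LL
import Vale.Agent.P259B.ThmB

/-!
# P259B, PiT: the disc functor on `C`, the fundamental groupoid functor on all spaces, realization.

Plan.
* `nonempty_dExt`: `exists_ext` with the trivial relation; gluing by `sums_D0`; lifting by
  `sph_glue'` (boundary family from `exists_bd` for `P j = C(Disc j, Y)`) and `NC.extend_sph`
  (`nc_D0`). It is convenient to prove `conn_piT`-like filling for maps `Disc n → Y` first
  (`fill_disc`).
* `exists_Re`: `yoneda.leftKanExtension D.F` is left adjoint to the restricted Yoneda functor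
  (`Presheaf.yonedaAdjunction` / `uliftYonedaAdjunction`, `restrictedYoneda`); restrict to the full
  subcategory (`Adjunction.mkOfHomEquiv`, or `Adjunction.restrictFullyFaithful`).
* `nc_Re`: `exists_retract_jcof` gives `X` as a retract of `Y` with `i : yo (disc 0) ⟶ Y` in `JCof 0`.
  Let `T = Re.obj Y`, `y0` the point of `i`, `PT = {γ : C(I, T) // γ 1 = y0}`, `ev0 : PT ⟶ T`.
  `PiT.map ev0` is in `JF C 0` by `path_lift` (curry, uncurry). Lift the unit; the adjoint map is a
  section of `ev0`, hence a contraction of `T`; `nc_of_contractible`, `NC.retract`.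
-/

namespace Vale.Agent.P259B

open CategoryTheory Limits Opposite GlobExt unitInterval

variable {C : GlobExt}

/-- Extensions of the disc functor to `C`. -/
abbrev DExt (C : GlobExt) := Ext C D0 (fun _ _ => True)

theorem fill_disc {Y : Type} [TopologicalSpace Y] (hY : NC Y) {n : ℕ}
    (G : ∀ j, j < n → Bool → C(Disc j, Y))
    (hG : ∀ j hj b m (h : m < j) e y, G j hj b (emb h e y) = G m (h.trans hj) e y) :
    ∃ F : C(Disc n, Y), ∀ j hj b y, F (emb hj b y) = G j hj b y := by
  sorry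

theorem nonempty_dExt (C : GlobExt) [HasLL C] : Nonempty (DExt C) := by
  sorry

namespace Ext

variable (D : DExt C)

theorem sums : PreservesSums (C.ι ⋙ D.F) := by
  sorry

/-- The fundamental infinity-groupoid of a space. -/
noncomputable def PiT : TopCat.{0} ⥤ Mod C :=
  (IsModel C).lift (yoneda ⋙ (Functor.whiskeringLeft _ _ _).obj D.F.op) (isModel_hom D.F D.sums)

/-- An element of `Π Y` as a map of spaces. -/
def mp {Y : TopCat.{0}} {S : Table} (x : val (D.PiT.obj Y) S) : D0.obj S ⟶ Y := x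

/-- A map of spaces as an element of `Π Y`. -/
def el {Y : TopCat.{0}} {S : Table} (x : D0.obj S ⟶ Y) : val (D.PiT.obj Y) S := x

/-- A cell of `Π Y` as a continuous map on the disc. -/
noncomputable def cm {Y : TopCat.{0}} {n : ℕ} (x : cell (D.PiT.obj Y) n) : C(Disc n, Y) := (D.mp x).hom

/-- A continuous map on the disc as a cell of `Π Y`. -/
noncomputable def mc {Y : TopCat.{0}} {n : ℕ} (x : C(Disc n, Y)) : cell (D.PiT.obj Y) n :=
  D.el (S := disc n) (TopCat.ofHom x)

variable {Y Z : TopCat.{0}} {S T : Table}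

theorem mp_el (x : D0.obj S ⟶ Y) : D.mp (D.el x) = x := rfl
theorem el_mp (x : val (D.PiT.obj Y) S) : D.el (D.mp x) = x := rfl
theorem cm_mc {n : ℕ} (x : C(Disc n, Y)) : D.cm (D.mc x) = x := rfl
theorem mc_cm {n : ℕ} (x : cell (D.PiT.obj Y) n) : D.mc (D.cm x) = x := rfl

theorem mp_act (f : (⟨S⟩ : C.Obj) ⟶ ⟨T⟩) (x : val (D.PiT.obj Y) T) :
    D.mp (act f x) = D.map f ≫ D.mp x := rfl

theorem mp_res (θ : S ⟶ T) (x : val (D.PiT.obj Y) T) : D.mp (res θ x) = D0.map θ ≫ D.mp x := by
  rw [res, mp_act, D.map_ι]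

theorem mp_ap (g : Y ⟶ Z) (x : val (D.PiT.obj Y) S) : D.mp (ap (D.PiT.map g) x) = D.mp x ≫ g := rfl

theorem cm_ap (g : Y ⟶ Z) {n : ℕ} (x : cell (D.PiT.obj Y) n) (y : Disc n) :
    D.cm (ap (D.PiT.map g) x) y = g (D.cm x y) := rfl

theorem cm_fc {m n : ℕ} (h : m < n) (b : Bool) (x : cell (D.PiT.obj Y) n) (y : Disc m) :
    D.cm (fc h b x) y = D.cm x (emb h b y) := by
  sorry

theorem cm_ext {n : ℕ} {x x' : cell (D.PiT.obj Y) n} (h : ∀ y, D.cm x y = D.cm x' y) : x = x' := by
  sorry

theorem hot_iff {n : ℕ} {x x' : cell (D.PiT.obj Y) n} : Hot x x' ↔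
    ∃ K : C(Disc (n + 1), Y), (∀ y, K (emb (Nat.lt_succ_self n) false y) = D.cm x y) ∧
      ∀ y, K (emb (Nat.lt_succ_self n) true y) = D.cm x' y := by
  sorry

theorem par_iff {n : ℕ} {x x' : cell (D.PiT.obj Y) n} : Par x x' ↔
    ∀ y : Disc n, ‖y.1‖ = 1 → D.cm x y = D.cm x' y := by
  sorry

theorem exists_Re : ∃ L : Mod C ⥤ TopCat.{0}, Nonempty (L ⊣ D.PiT) := by
  sorry

/-- Realization. -/
noncomputable def Re : Mod C ⥤ TopCat.{0} := D.exists_Re.choose

/-- Realization is left adjoint to `Π`. -/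
noncomputable def adj : D.Re ⊣ D.PiT := D.exists_Re.choose_spec.some

theorem nc_Re [Contr C] [HasLL C] {X : Mod C} (hX : Cofib X) (hc : Conn X) : NC (D.Re.obj X) := by
  sorry

end Ext

end Vale.Agent.P259B
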