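import Vale.Agent.P259B.ThmB

/-!
# P259B, PlusA: colimits over lower sets of a poset.

Plan. `colimit.ι`, `colimit.desc`, `colimit.hom_ext`. `isPushout_union`: `IsPushout.of_isColimit'` or
`PushoutCocone.IsColimit.mk`; the family on `U ∪ V` is defined by cases, compatible because both
sets are lower sets. The rules for `CofU`, `CofibU`, `ConnU` follow from stability of `Cof` under
composition and cobase change, `Cofib.of_cof` and `conn_pushout`.
-/

namespace Vale.Agent.P259B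

open CategoryTheory Limits Set

variable {C : GlobExt} {P : Type} [Preorder P] (F : P ⥤ Mod C)

/-- The colimit over a subset. -/
noncomputable def WU (U : Set P) : Mod C :=
  colimit ((Subtype.mono_coe (· ∈ U)).functor ⋙ F)

/-- The structure maps. -/
noncomputable def wι (U : Set P) (τ : P) (h : τ ∈ U) : F.obj τ ⟶ WU F U :=
  colimit.ι ((Subtype.mono_coe (· ∈ U)).functor ⋙ F) ⟨τ, h⟩

@[reassoc]
theorem wι_nat (U : Set P) {τ σ : P} (h : τ ≤ σ) (hτ : τ ∈ U) (hσ : σ ∈ U) :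
    F.map (homOfLE h) ≫ wι F U σ hσ = wι F U τ hτ := by
  sorry

theorem wu_ext {U : Set P} {Y : Mod C} {f g : WU F U ⟶ Y}
    (h : ∀ τ hτ, wι F U τ hτ ≫ f = wι F U τ hτ ≫ g) : f = g := by
  sorry

theorem wu_desc (U : Set P) {Y : Mod C} (y : ∀ τ ∈ U, (F.obj τ ⟶ Y))
    (hy : ∀ τ σ (h : τ ≤ σ) hτ hσ, F.map (homOfLE h) ≫ y σ hσ = y τ hτ) :
    ∃ f : WU F U ⟶ Y, ∀ τ hτ, wι F U τ hτ ≫ f = y τ hτ := by
  sorry

/-- The map induced by an inclusion. -/
noncomputable def wincl {U V : Set P} (h : U ⊆ V) : WU F U ⟶ WU F V :=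
  (wu_desc F U (fun τ hτ => wι F V τ (h hτ)) fun _ _ hle _ _ => wι_nat F V hle _ _).choose

@[reassoc]
theorem wι_wincl {U V : Set P} (h : U ⊆ V) (τ : P) (hτ : τ ∈ U) :
    wι F U τ hτ ≫ wincl F h = wι F V τ (h hτ) :=
  (wu_desc F U (fun τ hτ => wι F V τ (h hτ)) fun _ _ hle _ _ => wι_nat F V hle _ _).choose_spec τ hτ

theorem wincl_comp {U V Z : Set P} (h : U ⊆ V) (h' : V ⊆ Z) :
    wincl F h ≫ wincl F h' = wincl F (h.trans h') := by
  sorry

theorem isPushout_union {U V : Set P} (hU : IsLowerSet U) (hV : IsLowerSet V) :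
    IsPushout (wincl F (inter_subset_right : U ∩ V ⊆ V)) (wincl F (inter_subset_left : U ∩ V ⊆ U))
      (wincl F (subset_union_right : V ⊆ U ∪ V)) (wincl F (subset_union_left : U ⊆ U ∪ V)) := by
  sorry

theorem isIso_wι_Iic (τ : P) : IsIso (wι F (Iic τ) τ (mem_Iic.2 le_rfl)) := by
  sorry

/-- The inclusion induces a cofibration. -/
def CofU (U V : Set P) : Prop := ∃ h : U ⊆ V, Cof C (wincl F h)

variable {F}

theorem cofib_empty : Cofib (WU F ∅) := by
  sorry

theorem CofU.trans {U V Z : Set P} (h : CofU F U V) (h' : CofU F V Z) : CofU F U Z := by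
  sorry

theorem CofU.union {U V : Set P} (hU : IsLowerSet U) (hV : IsLowerSet V) (h : CofU F (U ∩ V) V) :
    CofU F U (U ∪ V) := by
  sorry

theorem CofU.cofib {U V : Set P} (h : CofU F U V) (hU : Cofib (WU F U)) : Cofib (WU F V) := by
  sorry

theorem cofib_Iic {τ : P} (h : Cofib (F.obj τ)) : Cofib (WU F (Iic τ)) := by
  sorry

theorem conn_Iic {τ : P} (h : Conn (F.obj τ)) : Conn (WU F (Iic τ)) := by
  sorry

theorem conn_union [Contr C] [HasLL C] {U V : Set P} (hU : IsLowerSet U) (hV : IsLowerSet V)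
    (h : CofU F (U ∩ V) V) (c1 : Cofib (WU F (U ∩ V))) (c2 : Cofib (WU F U))
    (k1 : Conn (WU F (U ∩ V))) (k2 : Conn (WU F V)) (k3 : Conn (WU F U)) :
    Conn (WU F (U ∪ V)) := by
  sorry

end Vale.Agent.P259B
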