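import Vale.Agent.P259B.Colim

/-!
# P259B, Proj: projectively cofibrant replacement over a finite poset.

Plan. Let `PTF = (TF C).functorCategory P` (pointwise trivial fibrations) and call `F` projectively
cofibrant if every map `F ⟶ B` lifts along every `p : A ⟶ B` in `PTF`.
* Existence: induction over lower sets `U` (cardinality): there is a projectively cofibrant `F` with
  `ω : F ⟶ S` such that `ω.app τ` is in `TF` for `τ ∈ U`. Start with the constant initial object. To add a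
  minimal `σ ∉ U`, factor `ω.app σ` as `i ≫ p` (`fac_cof_tf`) and push out `L i` along the counit
  `L (F σ) ⟶ F`, where `L = evaluationLeftAdjoint` at `σ` (`evaluationAdjunctionRight`);
  `(L X) τ = ∐ (σ ⟶ τ)` is initial unless `σ ≤ τ`, and is `X` for `τ = σ`. (Alternatively use the
  small object argument in the locally presentable category `Pᵒᵖᵒᵖ ⥤ Mod C`.)
* Elementwise form: for lower sets `U ⊆ V` let `l : P → Fin 3` be `0` on `U`, `1` on `V \ U`, `2` elsewhere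
  (monotone), and lift along the pointwise trivial fibration from `A → A → ⊤` to `A → B → ⊤`
  (`ComposableArrows.mk₂`, `homMk₂`) pulled back along `l`.
-/

namespace Vale.Agent.P259B

open CategoryTheory Limits

variable {C : GlobExt} {P : Type} [PartialOrder P]

/-- Projective cofibrancy, elementwise. -/
def PCf (F : P ⥤ Mod C) : Prop :=
  ∀ (U V : Set P), IsLowerSet U → IsLowerSet V → ∀ (hUV : U ⊆ V) ⦃A B : Mod C⦄ (p : A ⟶ B),
    TF C p → ∀ (a : ∀ τ ∈ U, (F.obj τ ⟶ A)) (b : ∀ τ ∈ V, (F.obj τ ⟶ B)),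
    (∀ τ σ (h : τ ≤ σ) hτ hσ, F.map (homOfLE h) ≫ a σ hσ = a τ hτ) →
    (∀ τ σ (h : τ ≤ σ) hτ hσ, F.map (homOfLE h) ≫ b σ hσ = b τ hτ) →
    (∀ τ hτ, a τ hτ ≫ p = b τ (hUV hτ)) →
    ∃ l : ∀ τ ∈ V, (F.obj τ ⟶ A), (∀ τ σ (h : τ ≤ σ) hτ hσ, F.map (homOfLE h) ≫ l σ hσ = l τ hτ) ∧
      (∀ τ hτ, l τ (hUV hτ) = a τ hτ) ∧ ∀ τ hτ, l τ hτ ≫ p = b τ hτ

theorem exists_proj [Finite P] (S : P ⥤ Mod C) :
    ∃ (F : P ⥤ Mod C) (ω : F ⟶ S), PCf F ∧ ∀ τ, TF C (ω.app τ) := by
  sorry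

theorem PCf.cofib {F : P ⥤ Mod C} (h : PCf F) (τ : P) : Cofib (F.obj τ) := by
  sorry

end Vale.Agent.P259B
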