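import Vale.Agent.P259B.PlusA
import Vale.Agent.P259B.Proj
import Vale.Agent.P259B.Ctr

/-!
# P259B, PlusB: the grid colimit with the globular faces collapsed to discs is contractible.

`Pl n N` is the grid poset with the globular faces `(j, b)`, `j < n`, added on top.

Plan. Write `g U = Sum.inl '' U`, `Λ j = {inr (i, b) | i < j}`, `F = plusF ..`.
(a) For lower sets `U ⊆ V` of `Pl` with `V \ U ⊆ range inl`: `CofU F U V` (`Cof.of_lift`, `wu_desc`,
`wu_ext`, and `PCf` for the preimages of `U`, `V` under `inl`; on `U` keep the given map).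
(b) For `j < n`: `CofU F (g (sphC j) ∪ Λ j) (Iic (inr (j, b)))`: a lifting problem gives a boundary
family of cells (`wι` at the faces, evaluated at `gen`), `TF.fill` lifts the top cell; use
`isIso_wι_Iic`; every grid cell of `sphC j` lies in some `faceC (j-1) e` (`faceC_union`,
`sphC_zero`).
(c) `Cofib (WU F (g U))` for lower `U` by (a); `Conn (WU F (g U))` for `U = univ`, `faceC j b` by
`ctr_univ`, `ctr_faceC` with `Q U = Conn (WU F (g U))` (`conn_union`, `g (Iic σ) = Iic (inl σ)`).
(d) `Cofib (WU F (g (sphC j) ∪ Λ j))` by induction on `j ≤ n`: the set for `j + 1` is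
`Iic (inr (j, false)) ∪ Iic (inr (j, true))`, the intersection is the set for `j`.
(e) Induction on `j ≤ n`: for every lower `U ⊇ sphC j` with `Conn (WU F (g U))`, also
`Conn (WU F (g U ∪ Λ j))`. Step: `V = Iic (inr (j, false)) ∪ g U` is `Conn` by `conn_union` (the
intersection is `g (faceC j false)`, cofibration by (a)); then glue `Iic (inr (j, true))`, with
intersection `A' = g (faceC j true) ∪ Λ j` (`Conn` by induction, cofibrant by (d), (a)), and
`CofU F A' V` through `A' ∪ Iic (inr (j, false))` ((b), `CofU.union`, then (a)).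
Take `j = n`, `U = univ`.
-/

namespace Vale.Agent.P259B

open CategoryTheory Limits Set

/-- The grid poset with the globular faces added. -/
def Pl (n N : ℕ) : Type := Cl n N ⊕ (Fin n × Bool)

instance (n N : ℕ) : Finite (Pl n N) := inferInstanceAs (Finite (Cl n N ⊕ (Fin n × Bool)))

/-- The order relation. -/
def Pl.le {n N : ℕ} : Pl n N → Pl n N → Prop
  | .inl τ, .inl σ => τ ≤ σ
  | .inl τ, .inr F => τ ∈ faceC n N F.1.1 F.2
  | .inr _, .inl _ => False
  | .inr F, .inr F' => F = F' ∨ F.1.1 < F'.1.1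

instance (n N : ℕ) : Preorder (Pl n N) where
  le := Pl.le
  le_refl := by sorry
  le_trans := by sorry

variable {C : GlobExt} {n N : ℕ}

/-- Maps from a grid diagram to the discs of the globular faces. -/
structure FaceMaps (F : Cl n N ⥤ Mod C) where
  w : ∀ j, j < n → ∀ b, ∀ τ ∈ faceC n N j b, (F.obj τ ⟶ yo C (disc j))
  nat : ∀ j hj b τ σ (h : τ ≤ σ) hτ hσ, F.map (homOfLE h) ≫ w j hj b σ hσ = w j hj b τ hτ
  face : ∀ j hj b m (h : m < j) e τ hτ,
    w m (h.trans hj) e τ hτ ≫ ymap C (gface h e) = w j hj b τ (faceC_mono h e b hτ)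

/-- Objects of the extended diagram. -/
noncomputable def plusObj (F : Cl n N ⥤ Mod C) : Pl n N → Mod C
  | .inl τ => F.obj τ
  | .inr G => yo C (disc G.1.1)

/-- Maps of the extended diagram. -/
noncomputable def plusMap {F : Cl n N ⥤ Mod C} (w : FaceMaps F) :
    ∀ x y : Pl n N, x ≤ y → (plusObj F x ⟶ plusObj F y)
  | .inl _, .inl _, h => F.map (homOfLE h)
  | .inl τ, .inr G, h => w.w G.1.1 G.1.2 G.2 τ h
  | .inr _, .inl _, h => False.elim h
  | .inr G, .inr G', h =>
      if h' : G.1.1 < G'.1.1 then ymap C (gface h' G.2)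
      else eqToHom (by rw [Or.resolve_right h h'])

/-- The extended diagram. -/
noncomputable def plusF {F : Cl n N ⥤ Mod C} (w : FaceMaps F) : Pl n N ⥤ Mod C where
  obj := plusObj F
  map f := plusMap w _ _ (leOfHom f)
  map_id := by sorry
  map_comp := by sorry

theorem plus_good [Contr C] [HasLL C] (hN : 0 < N) {F : Cl n N ⥤ Mod C} (hF : PCf F)
    (hc : ∀ τ, Conn (F.obj τ)) (w : FaceMaps F) :
    Cofib (WU (plusF w) univ) ∧ Conn (WU (plusF w) univ) := by
  sorry

end Vale.Agent.P259B
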