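import Vale.Agent.P259B.Delta
import Vale.Agent.P259B.Radial

/-!
# P259B, PrWE: forgetting the points is a weak equivalence.

Plan. Take `R : Radial n`, `c0 = c ∘ R.κ`, the grid `G` from `exists_gridW` for the weights of `c0`,
`ct z = c0 ((2N)⁻¹ • z)`, `S` from `exists_gridS`. For a boundary cell `τ ∈ bdC` and `z ∈ τ.cel` the point
`κ ((2N)⁻¹ • z)` lies on the sphere, and `γ τ z` is the point of `g` at the index `m τ` (extract it from
`dd (m τ)` by `⟨b, d⟩ ↦ if h : b = S τ then h ▸ d else default`, continuous by `continuous_sigma` and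
`PCont.local`; `Φ (S τ)` is nonempty). `exists_delta`, `exists_dd` give `l`; `l1 x = l (2N • ρ x)` lifts the
reweighted `c` and on the sphere equals the reweighted `g` (`MilD.ext`, `dd_ar`, carriers of boundary
points are boundary cells). The straight line of weights `(1 - r) t + r s` gives homotopies `H` from `c`
to the reweighted `c` (`Mil.rw`) and `h` from `g` to the reweighted `g` (`MilD.rw`). `hep1` applied to
`(l1, h)` gives `F`; `c' = F (·, 0)`; `cell_of_htpy1` for `q ∘ F` and `H`.
-/

namespace Vale.Agent.P259B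

open CategoryTheory Opposite

theorem pr_lift {A : Type} [SmallCategory A] {ξ : Aᵒᵖ ⥤ Type} {Φ : A ⥤ TopCat.{0}}
    (hΦ : ∀ a, NC (Φ.obj a)) {n : ℕ} (c : C(Disc n, Mil ξ)) (g : C(Sph n, MilD ξ Φ))
    (hg : ∀ x, (g x).q = c x.1) :
    ∃ c' : C(Disc n, MilD ξ Φ), (∀ x : Sph n, c' x.1 = g x) ∧
      ∃ K : C(Disc (n + 1), Mil ξ), (∀ x, K (emb (Nat.lt_succ_self n) false x) = (c' x).q) ∧
        ∀ x, K (emb (Nat.lt_succ_self n) true x) = c x := by
  sorry

end Vale.Agent.P259B
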