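import Vale.Agent.P259B.Zm

/-!
# P259B, RStar: the correspondence for `Π Y` itself.

Plan. `w j = u j ≫ e j : Disc j → Disc j` commutes with the faces. By recursion on `j` there are
homotopies `Γ j : Disc j × I → Disc j` from the identity to `w j` with
`Γ j (emb h b y, s) = emb h b (Γ m (y, s))` (`sph_glue`, `NC.extend_cyl`, `nc_disc`; recursion as for
`exists_u`). Given `β` and `c`, glue the tracks `β j hj b ∘ Γ j` on the sphere, extend by `hep1` to `F` with
`F (·, 1) = c`, put `x = F (·, 0)` and `F' = x ∘ Γ n`; `cell_of_htpy0`.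
-/

namespace Vale.Agent.P259B

open CategoryTheory Limits Opposite GlobExt

variable {C : GlobExt} {D : DExt C} {E : C.Obj ⥤ TopCat.{0}}

/-- The family `x ↦ x ∘ e`. -/
noncomputable def gamR (e : E ⟶ D.F) (Y : TopCat.{0}) : Gam E (D.PiT.obj Y) Y where
  g {S} x := e.app ⟨S⟩ ≫ D.mp x
  nat f x := (e.naturality_assoc f (D.mp x : D.F.obj _ ⟶ Y)).symm

theorem star_R (u : D0 ⟶ C.ι ⋙ E) (e : E ⟶ D.F) (Y : TopCat.{0}) : StarC (gamR e Y) u := by
  sorry

end Vale.Agent.P259B
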