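import Vale.Agent.P259B.Zm
import Vale.Agent.P259B.Fam
import Vale.Agent.P259B.Cone
import Vale.Agent.P259B.PrWE

/-!
# P259B, Setup: the realization functors `G`, `G'`, evaluation.

Plan. `nc_GF`, `nc_GD`: `nc_mil`, `nc_milD` with `a0 = a`, `x0 = 𝟙` (`nc_Re`). `nc_EE`: rewrite with
`𝒜.rep`. `exists_evN`: `exists_ev` with `ε ⟨a, x⟩ = (D.adj.homEquiv _ _).symm x`; naturality in `Y` from
the characterization (every point has an active index, `Mil.exists_ob`, `dd_ob`). `we_pr`: `WE.of_fill`,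
`sph_glue'`, `pr_lift` (`hot_iff`, `cm_fc`, `cm_ext`).
-/

namespace Vale.Agent.P259B

open CategoryTheory Limits Opposite GlobExt

variable {C : GlobExt} (D : DExt C) (𝒜 : Family C)

/-- The small category of the family. -/
abbrev Family.cat : Type := InducedCategory (Mod C) 𝒜.v

/-- The presheaf `a ↦ Hom(v a, X)`. -/
def Family.xi : Mod C ⥤ (𝒜.catᵒᵖ ⥤ Type) :=
  yoneda ⋙ (Functor.whiskeringLeft _ _ _).obj (inducedFunctor 𝒜.v).op

/-- The spaces `|v a|`. -/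
noncomputable def Family.phi : 𝒜.cat ⥤ TopCat.{0} := inducedFunctor 𝒜.v ⋙ D.Re

/-- The realization `G`. -/
def Family.GF : Mod C ⥤ TopCat.{0} := 𝒜.xi ⋙ MilF 𝒜.cat

/-- The realization `G'`. -/
noncomputable def Family.GD : Mod C ⥤ TopCat.{0} := 𝒜.xi ⋙ MilDF (𝒜.phi D)

/-- The projection `G' ⟶ G`. -/
noncomputable def Family.pr : 𝒜.GD D ⟶ 𝒜.GF := Functor.whiskerLeft 𝒜.xi (prN (𝒜.phi D))

/-- `E = G' ∘ y`. -/
noncomputable def Family.EE : C.Obj ⥤ TopCat.{0} := yoF C ⋙ 𝒜.GD D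

/-- The tautological family `x ↦ G'(x)`. -/
noncomputable def Family.gam (X : Mod C) : Gam (𝒜.EE D) X ((𝒜.GD D).obj X) where
  g x := (𝒜.GD D).map (yel x)
  nat f x := by rw [← yoF_yel, Functor.map_comp]; rfl

theorem Family.exists_evN : Nonempty (D.PiT ⋙ 𝒜.GD D ⟶ 𝟭 TopCat.{0}) := by
  sorry

variable [Contr C] [HasLL C]

theorem Family.nc_GF (a : 𝒜.A) : NC (𝒜.GF.obj (𝒜.v a)) := by
  sorry

theorem Family.nc_phi (a : 𝒜.cat) : NC ((𝒜.phi D).obj a) := D.nc_Re (𝒜.good a).1 (𝒜.good a).2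

theorem Family.nc_EE (S : Table) : NC ((𝒜.EE D).obj ⟨S⟩) := by
  sorry

theorem Family.we_pr (X : Mod C) : WE C (D.PiT.map ((𝒜.pr D).app X)) := by
  sorry

end Vale.Agent.P259B
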