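import Vale.Agent.P259B.Setup
import Vale.Agent.P259B.Low

/-!
# P259B, StarA: the grid data of a disc in `G X` with algebraic boundary.

Plan. Let `R : Radial n`, `G` from `exists_gridW` for the weights of `c ∘ R.κ`,
`k z = R.κ ((2N)⁻¹ • z)`, `r y = 2N • R.ρ y`, `ct = c ∘ k`, and `S`, `x` from `exists_gridS`.
Faces: `r (emb hj b y) ∈ faceS` (`R.scal`, `emb_apply`, `R.norm_ρ`, the sup norm is attained), and for
`z ∈ faceS n N j b` one has `k z = emb hj b (prj _ (k z))` (`eq_emb_prj`, `R.ρ_κ`, `R.scal`), so that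
`cF j hj z = ub j (prj _ (k z))` satisfies `(cF z).map (β j hj b) = ct z` on the face. Hence the weights
and arrows of `cF z` and `ct z` agree there, and the label of `cF τ.ctr` at `m τ` is `⟨S τ, w τ⟩` for
`τ ∈ faceC`; this defines the face maps. `nat`: `ob_const` on `σ.cel` (`cel_subset_faceS`) and `rel`;
`face`: `hub` and `faceS_mono`; `ob_face`: `ob_const` on the segment of `face_of_opn` (inside the star
by convexity).
-/

namespace Vale.Agent.P259B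

open CategoryTheory Limits Opposite GlobExt

variable {C : GlobExt} (𝒜 : Family C)

/-- Grid data for the comparison. -/
structure StarData {X : Mod C} {n : ℕ} (β : ∀ j, j < n → Bool → cell X j)
    (ub : ∀ j, C(Disc j, Mil (𝒜.xi.obj (yo C (disc j))))) (c : C(Disc n, Mil (𝒜.xi.obj X))) where
  N : ℕ
  pos : 0 < N
  r : C(Disc n, Fin n → ℝ)
  r_box : ∀ y, r y ∈ box n N
  s : C(Disc n, ℤ → ℝ)
  N0 : ℤ
  m : Cl n N → ℤ
  S : Cl n N ⥤ 𝒜.cat
  x : ∀ τ, 𝒜.v (S.obj τ) ⟶ X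
  w : FaceMaps (S ⋙ inducedFunctor 𝒜.v)
  s_nonneg : ∀ y i, 0 ≤ s y i
  s_ne : ∀ y, ∃ i, 0 < s y i
  s_sub : ∀ y i, 0 < s y i → N0 ≤ i ∧ 0 < (c y).t i
  s_le : ∀ y (τ : Cl n N), r y ∈ τ.opn → ∀ i, 0 < s y i → m τ ≤ i
  anchor : ∀ y (τ σ : Cl n N) (h : τ ≤ σ), r y ∈ σ.opn →
    (c y).ar (m τ) (m σ) = some (Arrow.mk (S.map (homOfLE h)))
  ob_top : ∀ y (τ : Cl n N), r y ∈ τ.opn → (c y).ob (m τ) = some ⟨S.obj τ, x τ⟩
  x_nat : ∀ τ σ (h : τ ≤ σ), (S.map (homOfLE h)).hom ≫ x σ = x τ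
  w_x : ∀ j hj b τ hτ, w.w j hj b τ hτ ≫ yel (β j hj b) = x τ
  ob_face : ∀ j (hj : j < n) b y (τ : Cl n N), r (emb hj b y) ∈ τ.opn →
    ∃ hτ : τ ∈ faceC n N j b, (ub j y).ob (m τ) = some ⟨S.obj τ, w.w j hj b τ hτ⟩

theorem nonempty_starData {X : Mod C} {n : ℕ} {β : ∀ j, j < n → Bool → cell X j}
    (ub : ∀ j, C(Disc j, Mil (𝒜.xi.obj (yo C (disc j)))))
    (hub : ∀ m j (h : m < j) e y,
      ub j (emb h e y) = (ub m y).map (𝒜.xi.map (ymap C (gface h e))))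
    (c : C(Disc n, Mil (𝒜.xi.obj X)))
    (hc : ∀ j hj b y, c (emb hj b y) = (ub j y).map (𝒜.xi.map (yel (β j hj b)))) :
    Nonempty (StarData 𝒜 β ub c) := by
  sorry

end Vale.Agent.P259B
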