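import Vale.Agent.P259B.StarA

/-!
# P259B, StarB: every disc in `G X` with algebraic boundary is homotopic to an algebraic disc.

Plan for `star_G`. Take `T : StarData`, `Pd : PlusData` from `𝒜.plus`, `θt` a filler of `Pd.θ`
(`Conn.fill`), `ξ` from `Pd.desc`, `x = ap ξ θt`. `L : LowData` with `idx` from `exists_idx _ T.N0`, `μ` from
`exists_mu`. For `(y, a) ∈ Disc n × I` let
`sw (y, a) = max 0 (1 - 2a) • (c y).t + min (2a) (2 - 2a) • T.s y`,
`mw (y, a) τ = max 0 (2a - 1) * μ τ (T.r y)`; `Valid (c y) (sw ..) (mw ..)` holds (`opn_chain`, `opn_cover`),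
and `h (y, a) = glue (c y) ..` goes from `c` (`glue_self`) to `low (ω ≫ x)` (`glue_low`). On a face,
`Valid (ub j y) ..` holds with the weights at `emb hj b y` (same `t`, `ar` by `hc`), giving `hF j hj b`; put
`G j hj b = Mil.map (yel (θ j hj b)) ∘ hF` (compatible by `glue_map`, `hub`, `ymap_yel`, `isBd`), glue on
the sphere (`sph_glue`) and extend (`NC.extend_cyl`, `nc_GF`) from `Mil.map (yel θt) ∘ ub n` at `a = 0` to
`c2 y = low can (μ · (r y))` at `a = 1` (`glue_map`, `glue_low`, `can_face`, `ob_face`). Push by `ξ`; it has the same end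
and boundary track as `h` (`sph_cases`; for the end compare `(low can ..).map ξ` and `low (ω ≫ x) ..` by
`Mil.ext`). Conclude with `cell_of_htpy1`.
`star_GD`: apply `star_G` to `pr ∘ c` with `ub j = pr ∘ u j`, then `WE.inj (we_pr)`, `hot_iff`, `par_iff`.
-/

namespace Vale.Agent.P259B

open CategoryTheory Limits Opposite GlobExt

variable {C : GlobExt} [Contr C] [HasLL C] (D : DExt C) (𝒜 : Family C)

theorem star_G {X : Mod C} {n : ℕ} {β : ∀ j, j < n → Bool → cell X j} (hβ : IsBd β)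
    (ub : ∀ j, C(Disc j, Mil (𝒜.xi.obj (yo C (disc j)))))
    (hub : ∀ m j (h : m < j) e y,
      ub j (emb h e y) = (ub m y).map (𝒜.xi.map (ymap C (gface h e))))
    (c : C(Disc n, Mil (𝒜.xi.obj X)))
    (hc : ∀ j hj b y, c (emb hj b y) = (ub j y).map (𝒜.xi.map (yel (β j hj b)))) :
    ∃ x : cell X n, (∀ j hj b, fc hj b x = β j hj b) ∧ ∃ K : C(Disc (n + 1), Mil (𝒜.xi.obj X)),
      (∀ y, K (emb (Nat.lt_succ_self n) false y) = c y) ∧
      ∀ y, K (emb (Nat.lt_succ_self n) true y) = (ub n y).map (𝒜.xi.map (yel x)) := by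
  sorry

theorem star_GD (u : D0 ⟶ C.ι ⋙ 𝒜.EE D) (X : Mod C) : StarC (𝒜.gam D X) u := by
  sorry

end Vale.Agent.P259B
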