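import Vale.Agent.P259B.Ops

/-!
# P259, Tr: transport along a boundary cylinder.

`Tr n k φ x` whiskers `x` successively at the levels `m` with `n ≤ m < k` by
`inv (φ m false)` and `φ m true`. `Bd n k φ x` says that the sources of the `φ m b` are the
transports of the faces of `x`, which makes all whiskerings composable.

Plan. Prove `Bd.cmp` and `fc_Tr_hi` together by induction on `k` (`fc_W_hi`, `tgt_inv`,
`Bd.restrict`, `Bd.fc`); then `fc_Tr_mid` (`fc_W_src`, `fc_W_tgt`, `fc_W_lo`, `src_inv`),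
`fc_Tr_lo`, and `ap_Tr`, `Bd.ap` together by (strong) induction on `k`.
-/

namespace Vale.Agent.P259B

open CategoryTheory Limits Opposite GlobExt

variable {C : GlobExt} [Contr C]

/-- Whiskering data at the levels `n ≤ m < k`. -/
abbrev Dat (X : Mod C) (n k : ℕ) : Type := ∀ m, n ≤ m → m < k → Bool → cell X (m + 1)

/-- Restriction of whiskering data. -/
abbrev Dat.rs {X : Mod C} {n k : ℕ} (φ : Dat X n k) {k' : ℕ} (h : k' ≤ k) : Dat X n k' :=
  fun m hn hm b => φ m hn (hm.trans_le h) b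

/-- Image of whiskering data. -/
abbrev Dat.ap {X Y : Mod C} {n k : ℕ} (φ : Dat X n k) (f : X ⟶ Y) : Dat Y n k :=
  fun m hn hm b => P259B.ap f (φ m hn hm b)

/-- Transport. -/
noncomputable def Tr {X : Mod C} (n : ℕ) : (k : ℕ) → Dat X n k → {j : ℕ} → cell X j → cell X j
  | 0, _, _, x => x
  | k + 1, φ, _, x =>
      if h : n ≤ k then
        W k (inv (φ k h (Nat.lt_succ_self k) false)) (φ k h (Nat.lt_succ_self k) true)
          (Tr n k (φ.rs (Nat.le_succ k)) x)
      else x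

/-- The data `φ` is a boundary cylinder for `x`. -/
def Bd {X : Mod C} (n k : ℕ) (φ : Dat X n k) {j : ℕ} (x : cell X j) : Prop :=
  k ≤ j ∧ ∀ m (hn : n ≤ m) (hm : m < k) (hj : m < j) b,
    src (φ m hn hm b) = Tr n m (φ.rs hm.le) (fc hj b x)

variable {X Y : Mod C} {n k j : ℕ} {φ : Dat X n k} {x : cell X j}

theorem Tr_of_le (h : k ≤ n) (φ : Dat X n k) (x : cell X j) : Tr n k φ x = x := by
  sorry

theorem Tr_succ {φ : Dat X n (k + 1)} (h : n ≤ k) (x : cell X j) :
    Tr n (k + 1) φ x = W k (inv (φ k h (Nat.lt_succ_self k) false))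
      (φ k h (Nat.lt_succ_self k) true) (Tr n k (φ.rs (Nat.le_succ k)) x) := by
  rw [Tr, dif_pos h]

theorem Bd.restrict (h : Bd n k φ x) {k' : ℕ} (hk : k' ≤ k) : Bd n k' (φ.rs hk) x := by
  sorry

theorem Bd.of_faces (h : Bd n k φ x) {j' : ℕ} {x' : cell X j'} (hk : k ≤ j')
    (hf : ∀ m (hj : m < j) (hj' : m < j') b, m < k → fc hj b x = fc hj' b x') : Bd n k φ x' := by
  sorry

theorem Bd.fc (h : Bd n k φ x) {m : ℕ} (hm : m < j) (b : Bool) (hk : k ≤ m) :
    Bd n k φ (fc hm b x) := by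
  sorry

theorem Bd.of_par (h : Bd n k φ x) {x' : cell X j} (hp : Par x x') : Bd n k φ x' :=
  h.of_faces h.1 fun m hj _ b _ => hp m hj b

theorem Bd.cmp {φ : Dat X n (k + 1)} (h : Bd n (k + 1) φ x) (hn : n ≤ k) :
    Cmp k (inv (φ k hn (Nat.lt_succ_self k) false)) (φ k hn (Nat.lt_succ_self k) true)
      (Tr n k (φ.rs (Nat.le_succ k)) x) := by
  sorry

theorem fc_Tr_hi (h : Bd n k φ x) {m : ℕ} (hm : m < j) (b : Bool) (hk : k ≤ m) :
    fc hm b (Tr n k φ x) = Tr n k φ (fc hm b x) := by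
  sorry

theorem fc_Tr_mid (h : Bd n k φ x) {m : ℕ} (hm : m < j) (b : Bool) (hn : n ≤ m) (hk : m < k) :
    fc hm b (Tr n k φ x) = tgt (φ m hn hk b) := by
  sorry

theorem fc_Tr_lo (h : Bd n k φ x) {m : ℕ} (hm : m < j) (b : Bool) (hn : m < n) :
    fc hm b (Tr n k φ x) = fc hm b x := by
  sorry

theorem ap_Tr (h : Bd n k φ x) (f : X ⟶ Y) : ap f (Tr n k φ x) = Tr n k (φ.ap f) (ap f x) := by
  sorry

theorem Bd.ap (h : Bd n k φ x) (f : X ⟶ Y) : Bd n k (φ.ap f) (ap f x) := by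
  sorry

theorem Par.Tr (h : Bd n k φ x) {x' : cell X j} (hp : Par x x') :
    Par (Tr n k φ x) (Tr n k φ x') := by
  sorry

end Vale.Agent.P259B
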