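import Vale.Agent.P259B.StarB
import Vale.Agent.P259B.RStar

/-!
# P259B, Zig: the natural zigzags.

Plan. Choose `𝒜` (`nonempty_family`), `u` (`exists_u`, `nc_EE`), `Q` (`nonempty_cylData`), `ev`
(`exists_evN`). `G = 𝒜.GD D`, `Z X = Q.Zm (𝒜.gam D X)` (functorial by `zmap`, `yel_comp`), `p`, `q` are
trivial fibrations (`tf_p`, `tf_q`, `star_GD`). Let `e.app S = G.map (yel (D.el (𝟙 _))) ≫ ev.app _`, natural in
`S`, with `e ≫ x = G.map (yel x) ≫ ev.app Y`. Then `ζ = zmap (𝟙 _) (ev.app Y) _ : Z (Π Y) ⟶ Zm (gamR e Y)`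
satisfies `ζ ≫ p = p`, `ζ ≫ q = q ≫ Π ev`; `Weq.of_comp_left`, `Weq.comp`, `Weq.of_comp_right`
(`TF` maps are onto on `0`-cells) give `Weq u (Π ev)`; the same lemmas give that `Π G` preserves `Weq`.
-/

namespace Vale.Agent.P259B

open CategoryTheory Limits Opposite GlobExt

/-- The output of the comparison, on all spaces. -/
structure Zig {C : GlobExt} (D : DExt C) where
  G : Mod C ⥤ TopCat.{0}
  Z : Mod C ⥤ Mod C
  p : Z ⟶ 𝟭 (Mod C)
  q : Z ⟶ G ⋙ D.PiT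
  ev : D.PiT ⋙ G ⟶ 𝟭 TopCat.{0}
  weq_p : ∀ (u : Units C) X, Weq u (p.app X)
  weq_q : ∀ (u : Units C) X, Weq u (q.app X)
  weq_ev : ∀ (u : Units C) Y, Weq u (D.PiT.map (ev.app Y))
  weq_G : ∀ (u : Units C) {X X' : Mod C} (f : X ⟶ X'), Weq u f → Weq u (D.PiT.map (G.map f))

theorem nonempty_zig {C : GlobExt} [Contr C] [HasLL C] (D : DExt C) : Nonempty (Zig D) := by
  sorry

end Vale.Agent.P259B
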