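import Vale.Agent.P259B.CylT

/-!
# P259B, Zm: the correspondence model.

For a model `X`, a space `Y` and `γ : X(-) ⟶ Hom(E -, Y)`, an element of `Zm` over `S` is a pair
`(x, φ : Cy S ⟶ Y)` with `inE ≫ φ = γ x`, equivalently `x` and a homotopy `D S × I → Y` ending at
`u ≫ γ x` (`exists_el`, `el_ext`).

Plan. `isModel`: `snoc_glue` for `x`, `sums_DI` for the homotopy, then `exists_el`. `tf_p`: `TF.of_fill`,
`sph_glue`, `hep1`. `tf_q`: `TF.of_fill`, `sph_glue`, `box_cell`, the hypothesis `StarC`.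
-/

namespace Vale.Agent.P259B

open CategoryTheory Limits Opposite GlobExt unitInterval

variable {C : GlobExt} {D : DExt C} {E : C.Obj ⥤ TopCat.{0}} {u : D0 ⟶ C.ι ⋙ E}

/-- A natural family of maps `E S ⟶ Y` indexed by `X(S)`. -/
structure Gam (E : C.Obj ⥤ TopCat.{0}) (X : Mod C) (Y : TopCat.{0}) where
  g : ∀ {S : Table}, val X S → (E.obj ⟨S⟩ ⟶ Y)
  nat : ∀ {S T : Table} (f : (⟨S⟩ : C.Obj) ⟶ ⟨T⟩) (x : val X T), g (act f x) = E.map f ≫ g x

/-- The map of a disc attached to a cell. -/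
noncomputable def Gam.cl {X : Mod C} {Y : TopCat.{0}} (γ : Gam E X Y) (u : D0 ⟶ C.ι ⋙ E) {n : ℕ}
    (x : cell X n) : C(Disc n, Y) := (u.app (disc n) ≫ γ.g x).hom

/-- Every disc with boundary coming from `X` is homotopic to a disc coming from `X`. -/
def StarC {X : Mod C} {Y : TopCat.{0}} (γ : Gam E X Y) (u : D0 ⟶ C.ι ⋙ E) : Prop :=
  ∀ n (β : ∀ j, j < n → Bool → cell X j), IsBd β → ∀ c : C(Disc n, Y),
    (∀ j hj b y, c (emb hj b y) = γ.cl u (β j hj b) y) →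
    ∃ x : cell X n, (∀ j hj b, fc hj b x = β j hj b) ∧ ∃ K : C(Disc (n + 1), Y),
      (∀ y, K (emb (Nat.lt_succ_self n) false y) = c y) ∧
      ∀ y, K (emb (Nat.lt_succ_self n) true y) = γ.cl u x y

theorem Gam.cl_fc {X : Mod C} {Y : TopCat.{0}} (γ : Gam E X Y) (u : D0 ⟶ C.ι ⋙ E) {m n : ℕ}
    (h : m < n) (b : Bool) (x : cell X n) (y : Disc m) :
    γ.cl u (fc h b x) y = γ.cl u x (emb h b y) := by
  sorry

namespace CylData

variable (Q : CylData D E u) {X X' : Mod C} {Y Y' : TopCat.{0}}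

/-- The presheaf of pairs. -/
def zpsh (γ : Gam E X Y) : C.Objᵒᵖ ⥤ Type where
  obj S := {p : val X S.unop.tab × (Q.Cy.obj S.unop ⟶ Y) // Q.inE.app S.unop ≫ p.2 = γ.g p.1}
  map f := TypeCat.ofHom fun p => ⟨(act f.unop p.1.1, Q.Cy.map f.unop ≫ p.1.2), by sorry⟩
  map_id := by sorry
  map_comp := by sorry

theorem isModel (γ : Gam E X Y) : IsModel C (Q.zpsh γ) := by
  sorry

/-- The correspondence model. -/
def Zm (γ : Gam E X Y) : Mod C := ⟨Q.zpsh γ, Q.isModel γ⟩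

/-- First projection. -/
def p (γ : Gam E X Y) : Q.Zm γ ⟶ X :=
  ObjectProperty.homMk
    { app := fun _ => TypeCat.ofHom fun z => z.1.1
      naturality := by sorry }

/-- Second projection. -/
noncomputable def q (γ : Gam E X Y) : Q.Zm γ ⟶ D.PiT.obj Y :=
  ObjectProperty.homMk
    { app := fun S => TypeCat.ofHom fun z => Q.in0.app S.unop ≫ z.1.2
      naturality := by sorry }

/-- Functoriality. -/
def zmap {γ : Gam E X Y} {γ' : Gam E X' Y'} (f : X ⟶ X') (g : Y ⟶ Y')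
    (h : ∀ (S : Table) (x : val X S), γ'.g (ap f x) = γ.g x ≫ g) : Q.Zm γ ⟶ Q.Zm γ' :=
  ObjectProperty.homMk
    { app := fun _ => TypeCat.ofHom fun z => ⟨(ap f z.1.1, z.1.2 ≫ g), by sorry⟩
      naturality := by sorry }

theorem zmap_p {γ : Gam E X Y} {γ' : Gam E X' Y'} (f : X ⟶ X') (g : Y ⟶ Y')
    (h : ∀ (S : Table) (x : val X S), γ'.g (ap f x) = γ.g x ≫ g) :
    Q.zmap f g h ≫ Q.p γ' = Q.p γ ≫ f := rfl

theorem zmap_q {γ : Gam E X Y} {γ' : Gam E X' Y'} (f : X ⟶ X') (g : Y ⟶ Y')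
    (h : ∀ (S : Table) (x : val X S), γ'.g (ap f x) = γ.g x ≫ g) :
    Q.zmap f g h ≫ Q.q γ' = Q.q γ ≫ D.PiT.map g := rfl

theorem tf_p (γ : Gam E X Y) : TF C (Q.p γ) := by
  sorry

theorem tf_q (γ : Gam E X Y) (h : StarC γ u) : TF C (Q.q γ) := by
  sorry

end CylData

end Vale.Agent.P259B
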